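import Vale.Agent.P317.Forms

/-! Aggregation over slots. -/

namespace Vale.Agent.P317

open Finset

variable {I : Type} [DecidableEq I]

/-- `agg L W A` sums `W` over all ways of adding to `A` one element of each slot in `L`. -/
def agg : List I → (Finset (I × Fin 3) → ℝ) → Finset (I × Fin 3) → ℝ
  | [], W, A => W A
  | l :: L, W, A => ∑ x : Fin 3, agg L W (insert (l, x) A)

/-- All aggregated removal matrices are hyperbolic. -/
def AggHyp (n : ℕ) (W : Finset (I × Fin 3) → ℝ) : Prop :=
  ∀ (L : List I) (R : Finset (I × Fin 3)), L.Nodup → (∀ y ∈ R, y.1 ∉ L) →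
    R.card + L.length = n + 2 → Hyp R (mat (agg L W) R)

theorem Hyp.restrict {G : Type} [DecidableEq G] {T R : Finset G} {A B : G → G → ℝ} (h : Hyp T A)
    (hR : R ⊆ T) {c : ℝ} (hc : 0 < c) (hAB : ∀ y ∈ R, ∀ y' ∈ R, A y y' = c * B y y') :
    Hyp R B := by
  have e : ∀ u v : G → ℝ, bf T A (fun y => if y ∈ R then u y else 0)
      (fun y => if y ∈ R then v y else 0) = c * bf R B u v := fun u v => by
    unfold bf
    rw [← sum_subset hR fun y _ hy => by simp [hy], mul_sum]
    refine sum_congr rfl fun y hy => ?_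
    rw [← sum_subset hR fun y' _ hy' => by simp [hy'], mul_sum]
    refine sum_congr rfl fun y' hy' => ?_
    simp only [if_pos hy, if_pos hy', hAB y hy y' hy']
    ring
  intro a z ha
  have := h _ (fun y => if y ∈ R then z y else 0) (by rw [e]; exact mul_pos hc ha)
  rw [e, e, e] at this
  nlinarith [mul_pos hc hc]

theorem rem_insert {G : Type} [DecidableEq G] (v : G → ℝ) (F : Finset G → ℝ) {a : G}
    {S : Finset G} (ha : a ∉ S) :
    rem v F (insert a S) = v a * F S + rem v (fun X => F (insert a X)) S := by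
  unfold rem
  rw [sum_insert ha, erase_insert ha]
  congr 1
  refine sum_congr rfl fun z hz => ?_
  rw [erase_insert_of_ne fun h : a = z => ha (h ▸ hz)]

/-- Indicator of a slot. -/
def slotInd (l : I) (y : I × Fin 3) : ℝ := if y.1 = l then 1 else 0

theorem rem_slot_zero (l : I) (F : Finset (I × Fin 3) → ℝ) {B : Finset (I × Fin 3)}
    (hB : ∀ y ∈ B, y.1 ≠ l) : rem (slotInd l) F B = 0 :=
  sum_eq_zero fun z hz => by simp [slotInd, hB z hz]

theorem rem_slot_two (l : I) (F : Finset (I × Fin 3) → ℝ) {B : Finset (I × Fin 3)}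
    (hB : ∀ y ∈ B, y.1 ≠ l) {x x' : Fin 3} (h : x ≠ x') :
    rem (slotInd l) F (insert (l, x) (insert (l, x') B)) =
      F (insert (l, x') B) + F (insert (l, x) B) := by
  have h0 : ∀ x : Fin 3, (l, x) ∉ B := fun x hx => hB _ hx rfl
  rw [rem_insert _ _ (by simp [h0, h]), rem_insert _ _ (h0 x'), rem_slot_zero l _ hB]
  simp [slotInd]

theorem rem_slot_three (l : I) (F : Finset (I × Fin 3) → ℝ) {B : Finset (I × Fin 3)}
    (hB : ∀ y ∈ B, y.1 ≠ l) :
    rem (slotInd l) (rem (slotInd l) F) (insert (l, 0) (insert (l, 1) (insert (l, 2) B))) =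
      2 * ∑ x : Fin 3, F (insert (l, x) B) := by
  have h0 : ∀ x : Fin 3, (l, x) ∉ B := fun x hx => hB _ hx rfl
  rw [rem_insert _ _ (by simp [h0]), rem_slot_two l _ hB (by decide),
    rem_slot_two l _ hB (by decide), rem_slot_two l _ hB (by decide),
    rem_slot_two l _ hB (by decide), Fin.sum_univ_three]
  simp only [slotInd, if_true]
  ring

/-- Two copies of each slot indicator. -/
def slotDirs : List I → List (I × Fin 3 → ℝ)
  | [] => []
  | l :: L => slotInd l :: slotInd l :: slotDirs L

theorem length_slotDirs (L : List I) : (slotDirs L).length = 2 * L.length := by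
  induction L with
  | nil => rfl
  | cons l L ih => simp [slotDirs, ih]; ring

theorem slotDirs_nonneg (L : List I) : ∀ v ∈ slotDirs L, ∀ y, 0 ≤ v y := by
  induction L with
  | nil => simp [slotDirs]
  | cons l L ih =>
    intro v hv y
    simp only [slotDirs, List.mem_cons] at hv
    rcases hv with rfl | rfl | hv
    · unfold slotInd; split_ifs <;> norm_num
    · unfold slotInd; split_ifs <;> norm_num
    · exact ih v hv y

theorem rems_slotDirs (W : Finset (I × Fin 3) → ℝ) (L : List I) (hL : L.Nodup)
    (A : Finset (I × Fin 3)) (hA : ∀ y ∈ A, y.1 ∉ L) :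
    rems (slotDirs L) W (A ∪ L.toFinset ×ˢ univ) = 2 ^ L.length * agg L W A := by
  induction L generalizing A with
  | nil => simp [slotDirs, rems, agg]
  | cons l L ih =>
    rw [List.nodup_cons] at hL
    have e : A ∪ (l :: L).toFinset ×ˢ univ =
        insert (l, 0) (insert (l, 1) (insert (l, 2) (A ∪ L.toFinset ×ˢ univ))) := by
      ext ⟨c, x⟩
      fin_cases x <;> simp <;> tauto
    have hB : ∀ y ∈ A ∪ L.toFinset ×ˢ (univ : Finset (Fin 3)), y.1 ≠ l := fun y hy h => by
      rcases mem_union.1 hy with hy | hy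
      · exact hA y hy (by simp [h])
      · exact hL.1 (by simpa [h] using (mem_product.1 hy).1)
    rw [e]
    refine (rem_slot_three l _ hB).trans ?_
    rw [agg, List.length_cons, pow_succ', mul_assoc, mul_sum _ _ (2 ^ L.length)]
    congr 1
    refine sum_congr rfl fun x _ => ?_
    rw [← insert_union]
    refine ih hL.2 _ fun y hy => ?_
    rcases mem_insert.1 hy with rfl | hy
    · exact hL.1
    · exact fun h => hA y hy (List.mem_cons_of_mem _ h)

theorem aggHyp_of_loc (n : ℕ) (W : Finset (I × Fin 3) → ℝ)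
    (hpos : ∀ S : Finset (I × Fin 3), S.card = n → 0 < W S)
    (hloc : ∀ T : Finset (I × Fin 3), T.card = n + 2 → Hyp T (mat W T)) : AggHyp n W := by
  intro L R hL hR hc
  have hd : ∀ y ∈ R, y ∉ L.toFinset ×ˢ (univ : Finset (Fin 3)) := fun y hy h =>
    hR y hy (by simpa using (mem_product.1 h).1)
  refine (clc n W hpos hloc (slotDirs L) (slotDirs_nonneg L) (R ∪ L.toFinset ×ˢ univ) ?_).restrict
    subset_union_left (c := 2 ^ L.length) (by positivity) fun y hy y' hy' => ?_
  · rw [card_union_of_disjoint (disjoint_left.2 hd), card_product, List.toFinset_card_of_nodup hL,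
      length_slotDirs, card_univ, Fintype.card_fin]
    omega
  · unfold mat
    split_ifs
    · simp
    · rw [← rems_slotDirs W L hL _ fun z hz => hR z (mem_of_mem_erase (mem_of_mem_erase hz)),
        erase_union_distrib, erase_union_distrib, erase_eq_of_notMem (hd y hy),
        erase_eq_of_notMem (hd y' hy')]

/-- The set of chosen elements of the slots in `J`. -/
def gset (U : I → Fin 3) (J : Finset I) : Finset (I × Fin 3) := J.image fun j => (j, U j)

end Vale.Agent.P317
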