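import Vale.Agent.P317.RandE

/-! Chernoff and union bounds for coin trees. -/

namespace Vale.Agent.P317

open Finset

theorem E_iter_exp {α A : Type} (S : Rand α) (upd : A → α → A) (stat : A → ℝ) (φ : α → ℝ)
    (hstat : ∀ a x, stat (upd a x) = stat a + φ x) (l : ℝ) (Q : ℕ) (a : A) :
    (iter (fun a => S.bind fun x => .ret (upd a x)) Q a).E (fun b => Real.exp (l * stat b))
      = Real.exp (l * stat a) * (S.E fun x => Real.exp (l * φ x)) ^ Q := by
  induction Q generalizing a with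
  | zero => simp [iter]
  | succ Q ih =>
    rw [iter, Rand.E_bind, Rand.E_bind]
    simp only [Rand.E_ret, ih, hstat]
    have h : (fun x => Real.exp (l * (stat a + φ x)) * (S.E fun x => Real.exp (l * φ x)) ^ Q)
        = fun x => (Real.exp (l * stat a) * (S.E fun x => Real.exp (l * φ x)) ^ Q)
          * Real.exp (l * φ x) := by
      funext x; rw [mul_add, Real.exp_add]; ring
    rw [h, Rand.E_const_mul]; ring

theorem E_exp_le {α : Type} (S : Rand α) (φ : α → ℝ)
    (hφ0 : ∀ x, 0 ≤ φ x) (hφ1 : ∀ x, φ x ≤ 1) (l : ℝ) (hl : |l| ≤ 1) :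
    (S.E fun x => Real.exp (l * φ x)) ≤ Real.exp (l * S.E φ + l ^ 2) := by
  have hm0 : 0 ≤ S.E φ := S.E_nonneg hφ0
  have hm1 : S.E φ ≤ 1 := S.E_le_const hφ1
  have h1 : ∀ x, Real.exp (l * φ x)
      ≤ Real.exp (l * S.E φ) * (((1 + l ^ 2) - l * S.E φ) + l * φ x) := by
    intro x
    have hd : |φ x - S.E φ| ≤ 1 := abs_le.2 ⟨by linarith [hφ0 x], by linarith [hφ1 x]⟩
    have ha : |l * (φ x - S.E φ)| ≤ 1 := by
      rw [abs_mul]
      exact mul_le_one₀ hl (abs_nonneg _) hd
    have h2 := (abs_le.1 (Real.abs_exp_sub_one_sub_id_le ha)).2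
    have h3 : (φ x - S.E φ) ^ 2 ≤ 1 := by
      have := abs_le.1 hd
      nlinarith [this.1, this.2]
    have h4 : (l * (φ x - S.E φ)) ^ 2 ≤ l ^ 2 := by
      rw [mul_pow]; nlinarith [sq_nonneg l]
    have h5 : Real.exp (l * φ x) = Real.exp (l * S.E φ) * Real.exp (l * (φ x - S.E φ)) := by
      rw [← Real.exp_add]; congr 1; ring
    rw [h5]
    exact mul_le_mul_of_nonneg_left (by nlinarith) (Real.exp_pos _).le
  refine (S.E_mono h1).trans ?_
  rw [Rand.E_const_mul, Rand.E_add, Rand.E_const, Rand.E_const_mul, Real.exp_add]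
  refine mul_le_mul_of_nonneg_left ?_ (Real.exp_pos _).le
  have := Real.add_one_le_exp (l ^ 2)
  linarith

/-- Chernoff bound for a statistic accumulated over independent samples. -/
theorem chernoff {α A : Type} (S : Rand α) (upd : A → α → A) (stat : A → ℝ) (φ : α → ℝ)
    (hφ0 : ∀ x, 0 ≤ φ x) (hφ1 : ∀ x, φ x ≤ 1) (hstat : ∀ a x, stat (upd a x) = stat a + φ x)
    (a0 : A) (h0 : stat a0 = 0) (Q : ℕ) (η : ℝ) (hη0 : 0 ≤ η) (hη1 : η ≤ 1) :
    (iter (fun a => S.bind fun x => .ret (upd a x)) Q a0).prob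
        (fun a => η * Q < |stat a - S.E φ * Q|) ≤ 2 * Real.exp (-(Q * η ^ 2 / 4)) := by
  classical
  rw [Rand.prob_eq_E]
  have hb : ∀ l : ℝ, |l| ≤ 1 → (iter (fun a => S.bind fun x => .ret (upd a x)) Q a0).E
      (fun b => Real.exp (l * stat b)) ≤ Real.exp (Q * (l * S.E φ + l ^ 2)) := by
    intro l hl
    rw [E_iter_exp S upd stat φ hstat, h0, mul_zero, Real.exp_zero, one_mul, Real.exp_nat_mul]
    exact pow_le_pow_left₀ (S.E_nonneg fun x => (Real.exp_pos _).le)
      (E_exp_le S φ hφ0 hφ1 l hl) Q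
  have hpt : ∀ a, (if η * Q < |stat a - S.E φ * Q| then (1 : ℝ) else 0)
      ≤ Real.exp (-(η / 2) * (S.E φ * Q + η * Q)) * Real.exp (η / 2 * stat a)
        + Real.exp (η / 2 * (S.E φ * Q - η * Q)) * Real.exp (-(η / 2) * stat a) := by
    intro a
    rw [← Real.exp_add, ← Real.exp_add]
    have p1 := Real.exp_pos (-(η / 2) * (S.E φ * Q + η * Q) + η / 2 * stat a)
    have p2 := Real.exp_pos (η / 2 * (S.E φ * Q - η * Q) + -(η / 2) * stat a)
    split_ifs with h
    · rcases lt_abs.1 h with h | h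
      · have : 1 ≤ Real.exp (-(η / 2) * (S.E φ * Q + η * Q) + η / 2 * stat a) :=
          Real.one_le_exp (by nlinarith)
        linarith
      · have : 1 ≤ Real.exp (η / 2 * (S.E φ * Q - η * Q) + -(η / 2) * stat a) :=
          Real.one_le_exp (by nlinarith)
        linarith
    · linarith
  refine (Rand.E_mono _ hpt).trans ?_
  rw [Rand.E_add, Rand.E_const_mul, Rand.E_const_mul]
  have a1 : |η / 2| ≤ 1 := abs_le.2 ⟨by linarith, by linarith⟩
  have a2 : |-(η / 2)| ≤ 1 := abs_le.2 ⟨by linarith, by linarith⟩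
  have b1 := mul_le_mul_of_nonneg_left (hb _ a1)
    (Real.exp_pos (-(η / 2) * (S.E φ * Q + η * Q))).le
  have b2 := mul_le_mul_of_nonneg_left (hb _ a2)
    (Real.exp_pos (η / 2 * (S.E φ * Q - η * Q))).le
  rw [← Real.exp_add] at b1 b2
  have c1 : -(η / 2) * (S.E φ * Q + η * Q) + Q * (η / 2 * S.E φ + (η / 2) ^ 2)
      = -(Q * η ^ 2 / 4) := by ring
  have c2 : η / 2 * (S.E φ * Q - η * Q) + Q * (-(η / 2) * S.E φ + (-(η / 2)) ^ 2)
      = -(Q * η ^ 2 / 4) := by ring
  rw [c1] at b1
  rw [c2] at b2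
  linarith

theorem prob_nonneg' {α : Type} (t : Rand α) (p : α → Prop) : 0 ≤ t.prob p := by
  classical
  rw [Rand.prob_eq_E]
  exact t.E_nonneg fun a => by split_ifs <;> norm_num

/-- Union bound over rounds. -/
theorem prob_iterIdx {α : Type} (good : ℕ → α → Prop) (g : ℕ → α → Rand α) (p : ℝ) (hp : 0 ≤ p)
    (k : ℕ) (a : α) (h0 : good 0 a)
    (hstep : ∀ i, i < k → ∀ b, good i b → 1 - p ≤ (g i b).prob (good (i + 1))) :
    1 - k * p ≤ (iterIdx g k a).prob (good k) := by
  classical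
  induction k with
  | zero => simp [iterIdx, Rand.prob, h0]
  | succ k ih =>
    have ih' := ih fun i hi => hstep i (Nat.lt_succ_of_lt hi)
    rw [Rand.prob_eq_E] at ih'
    rw [iterIdx, Rand.prob_eq_E, Rand.E_bind]
    have hpt : ∀ b, (if good k b then (1 : ℝ) else 0) - p
        ≤ (g k b).E fun a => if good (k + 1) a then 1 else 0 := by
      intro b
      rw [← Rand.prob_eq_E]
      split_ifs with h
      · exact hstep k (Nat.lt_succ_self k) b h
      · have := prob_nonneg' (g k b) (good (k + 1))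
        linarith
    have := Rand.E_mono (iterIdx g k a) hpt
    rw [Rand.E_sub, Rand.E_const] at this
    push_cast
    linarith

/-- Union bound for finitely many bad events. -/
theorem prob_union {α ι : Type} [Fintype ι] (t : Rand α) (bad : ι → α → Prop) (good : α → Prop)
    (inv : α → Prop) (hinv : t.All inv) (p : ℝ) (hbad : ∀ i, t.prob (bad i) ≤ p)
    (hgood : ∀ a, inv a → (∀ i, ¬ bad i a) → good a) :
    1 - Fintype.card ι * p ≤ t.prob good := by
  classical
  rw [Rand.prob_eq_E]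
  have hpt : ∀ a, inv a → 1 - ∑ i, (if bad i a then (1 : ℝ) else 0)
      ≤ if good a then 1 else 0 := by
    intro a ha
    have hnn : ∀ i ∈ (univ : Finset ι), (0 : ℝ) ≤ if bad i a then (1 : ℝ) else 0 :=
      fun i _ => by split_ifs <;> norm_num
    by_cases hg : good a
    · have := Finset.sum_nonneg hnn
      rw [if_pos hg]; linarith
    · rw [if_neg hg]
      have : ∃ i, bad i a := by
        by_contra hn
        exact hg (hgood a ha fun i hi => hn ⟨i, hi⟩)
      obtain ⟨i, hi⟩ := this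
      have := Finset.single_le_sum hnn (mem_univ i)
      rw [if_pos hi] at this
      linarith
  have h1 := Rand.E_mono_All hinv hpt
  rw [Rand.E_sub, Rand.E_const, Rand.E_sum] at h1
  have h2 : ∑ i, t.E (fun a => if bad i a then (1 : ℝ) else 0) ≤ ∑ _i : ι, p :=
    Finset.sum_le_sum fun i _ => by rw [← Rand.prob_eq_E]; exact hbad i
  rw [Finset.sum_const, card_univ, nsmul_eq_mul] at h2
  linarith

theorem prob_bind_ret {α β : Type} (t : Rand α) (f : α → β) (q : β → Prop) :
    (t.bind fun a => .ret (f a)).prob q = t.prob fun a => q (f a) := by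
  rw [Rand.prob_eq_E, Rand.prob_eq_E, Rand.E_bind]
  rfl

end Vale.Agent.P317
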