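import Vale.Agent.P317.RefMain

/-! Running time and parameter estimates. -/

namespace Vale.Agent.P317

variable {n : ℕ}

theorem Expr.eval_le_of_ok (Ps : List ℕ) (B : ℕ) (hB : 64 ≤ B) (m : Mem)
    (hm : ∀ p ∈ Ps, m p 0 ≤ B) (e : Expr) (he : e.okBound Ps = true) : e.eval m ≤ B := by
  induction e with
  | const c =>
    simp only [Expr.okBound, decide_eq_true_eq] at he
    simp only [Expr.eval]; omega
  | load a i _ =>
    cases i with
    | const c =>
      cases c with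
      | zero =>
        simp only [Expr.okBound, decide_eq_true_eq] at he
        exact hm a he
      | succ c => simp [Expr.okBound] at he
    | load _ _ => simp [Expr.okBound] at he
    | add _ _ => simp [Expr.okBound] at he
    | sub _ _ => simp [Expr.okBound] at he
    | div _ _ => simp [Expr.okBound] at he
    | mod _ _ => simp [Expr.okBound] at he
    | len _ => simp [Expr.okBound] at he
  | add _ _ => simp [Expr.okBound] at he
  | sub e f ihe _ =>
    simp only [Expr.okBound] at he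
    have := ihe he
    simp only [Expr.eval]; omega
  | div _ _ => simp [Expr.okBound] at he
  | mod _ _ => simp [Expr.okBound] at he
  | len _ => simp [Expr.okBound] at he

theorem exec_cost (M₁ M₂ : Matroid (Fin n)) (c : Cmd) (Ps : List ℕ) (B : ℕ) (hn : n ≤ B)
    (hB : 64 ≤ B) (hok : c.okLoops Ps = true) (hw : ∀ p ∈ Ps, p ∉ c.writes) (m : Mem) (t : ℕ)
    (hm : ∀ p ∈ Ps, m p 0 ≤ B) :
    (exec M₁ M₂ c (m, t)).All fun s => s.2 ≤ t + c.costBound B ∧ ∀ p ∈ Ps, s.1 p = m p := by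
  induction c generalizing m t with
  | store a i e =>
    refine ⟨?_, fun p hp => ?_⟩
    · simp only [Cmd.costBound]; omega
    · exact Mem.set_of_ne m _ _ (by simpa [Cmd.writes] using hw p hp)
  | seq c d ihc ihd =>
    simp only [Cmd.okLoops, Bool.and_eq_true] at hok
    have hwc : ∀ p ∈ Ps, p ∉ c.writes := fun p hp h => hw p hp (by simp [Cmd.writes, h])
    have hwd : ∀ p ∈ Ps, p ∉ d.writes := fun p hp h => hw p hp (by simp [Cmd.writes, h])
    refine Rand.All_bind (ihc hok.1 hwc m t hm) ?_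
    rintro ⟨m', t'⟩ ⟨h1, h2⟩
    refine Rand.All_mono ?_ (ihd hok.2 hwd m' t' fun p hp => ?_)
    · rintro ⟨m'', t''⟩ ⟨h3, h4⟩
      refine ⟨?_, fun p hp => (h4 p hp).trans (h2 p hp)⟩
      simp only [Cmd.costBound] at *
      omega
    · have := h2 p hp
      simp only at this
      rw [this]; exact hm p hp
  | ifz e c d ihc ihd =>
    simp only [Cmd.okLoops, Bool.and_eq_true] at hok
    have hwc : ∀ p ∈ Ps, p ∉ c.writes := fun p hp h => hw p hp (by simp [Cmd.writes, h])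
    have hwd : ∀ p ∈ Ps, p ∉ d.writes := fun p hp h => hw p hp (by simp [Cmd.writes, h])
    simp only [exec]
    split_ifs
    · refine Rand.All_mono ?_ (ihc hok.1 hwc m _ hm)
      rintro ⟨m'', t''⟩ ⟨h3, h4⟩
      refine ⟨?_, h4⟩
      simp only [Cmd.costBound] at *
      omega
    · refine Rand.All_mono ?_ (ihd hok.2 hwd m _ hm)
      rintro ⟨m'', t''⟩ ⟨h3, h4⟩
      refine ⟨?_, h4⟩
      simp only [Cmd.costBound] at *
      omega
  | loop e c ih =>
    simp only [Cmd.okLoops, Bool.and_eq_true] at hok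
    have hwc : ∀ p ∈ Ps, p ∉ c.writes := fun p hp h => hw p hp (by simpa [Cmd.writes] using h)
    have he := Expr.eval_le_of_ok Ps B hB m hm e hok.1
    simp only [exec]
    rw [iter_eq_iterIdx]
    have key := All_iterIdx (p := fun i (s : Mem × ℕ) =>
        s.2 ≤ t + e.cost + 1 + i * (c.costBound B + 1) ∧ ∀ p ∈ Ps, s.1 p = m p)
      (g := fun _ u => exec M₁ M₂ c (u.1, u.2 + 1)) (e.eval m) (a := (m, t + e.cost + 1))
      ⟨by simp, fun _ _ => rfl⟩ (by
        rintro i _ ⟨m', t'⟩ ⟨h1, h2⟩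
        refine Rand.All_mono ?_ (ih hok.2 hwc m' (t' + 1) fun p hp => ?_)
        · rintro ⟨m'', t''⟩ ⟨h3, h4⟩
          refine ⟨?_, fun p hp => (h4 p hp).trans (h2 p hp)⟩
          simp only at *
          rw [Nat.add_mul]
          omega
        · have := h2 p hp
          simp only at this
          rw [this]; exact hm p hp)
    refine Rand.All_mono ?_ key
    rintro ⟨m', t'⟩ ⟨h1, h2⟩
    refine ⟨?_, h2⟩
    have := Nat.mul_le_mul_right (c.costBound B + 1) he
    simp only [Cmd.costBound] at *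
    omega
  | coin a =>
    have ha : ∀ p ∈ Ps, p ≠ a := fun p hp => by simpa [Cmd.writes] using hw p hp
    exact ⟨⟨le_rfl, fun p hp => Mem.set_of_ne m _ _ (ha p hp)⟩,
      ⟨le_rfl, fun p hp => Mem.set_of_ne m _ _ (ha p hp)⟩⟩
  | query b q a =>
    refine ⟨?_, fun p hp => ?_⟩
    · simp only [Cmd.costBound]; omega
    · exact Mem.set_of_ne m _ _ (by simpa [Cmd.writes] using hw p hp)

theorem costBound_poly (c : Cmd) : ∃ C d : ℕ, ∀ B : ℕ, c.costBound B ≤ C * (B + 1) ^ d := by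
  have hpow : ∀ (B d d' : ℕ), d ≤ d' → (B + 1) ^ d ≤ (B + 1) ^ d' := fun B d d' h =>
    Nat.pow_le_pow_right (Nat.succ_pos B) h
  have hone : ∀ (B d : ℕ), 1 ≤ (B + 1) ^ d := fun B d => Nat.one_le_pow _ _ (Nat.succ_pos B)
  induction c with
  | store a i e => exact ⟨i.cost + e.cost + 1, 0, fun B => by simp [Cmd.costBound]⟩
  | seq c d ihc ihd =>
    obtain ⟨C1, d1, h1⟩ := ihc
    obtain ⟨C2, d2, h2⟩ := ihd
    refine ⟨C1 + C2, d1 + d2, fun B => ?_⟩
    have a1 := Nat.mul_le_mul_left C1 (hpow B d1 (d1 + d2) (by omega))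
    have a2 := Nat.mul_le_mul_left C2 (hpow B d2 (d1 + d2) (by omega))
    have := h1 B
    have := h2 B
    simp only [Cmd.costBound]
    rw [Nat.add_mul]
    omega
  | ifz e c d ihc ihd =>
    obtain ⟨C1, d1, h1⟩ := ihc
    obtain ⟨C2, d2, h2⟩ := ihd
    refine ⟨e.cost + 1 + C1 + C2, d1 + d2, fun B => ?_⟩
    have a1 := Nat.mul_le_mul_left C1 (hpow B d1 (d1 + d2) (by omega))
    have a2 := Nat.mul_le_mul_left C2 (hpow B d2 (d1 + d2) (by omega))
    have a3 := Nat.mul_le_mul_left (e.cost + 1) (hone B (d1 + d2))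
    have := h1 B
    have := h2 B
    simp only [Cmd.costBound]
    rw [Nat.add_mul, Nat.add_mul]
    omega
  | loop e c ih =>
    obtain ⟨C1, d1, h1⟩ := ih
    refine ⟨e.cost + 1 + (C1 + 1), d1 + 1, fun B => ?_⟩
    have a3 := Nat.mul_le_mul_left (e.cost + 1) (hone B (d1 + 1))
    have a4 : c.costBound B + 1 ≤ (C1 + 1) * (B + 1) ^ d1 := by
      have := h1 B
      have := hone B d1
      rw [Nat.add_mul]; omega
    have a5 : B * (c.costBound B + 1) ≤ (C1 + 1) * (B + 1) ^ (d1 + 1) := by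
      calc B * (c.costBound B + 1) ≤ (B + 1) * ((C1 + 1) * (B + 1) ^ d1) :=
            Nat.mul_le_mul (Nat.le_succ B) a4
        _ = _ := by ring
    simp only [Cmd.costBound]
    rw [Nat.add_mul]
    omega
  | coin a => exact ⟨1, 0, fun B => by simp [Cmd.costBound]⟩
  | query b q a => exact ⟨1, 1, fun B => by simp [Cmd.costBound]⟩

theorem Det.exec_All {M₁ M₂ : Matroid (Fin n)} {c : Cmd} {m : Mem} {p : Mem → Prop}
    (h : Det M₁ M₂ c m p) (t : ℕ) : (exec M₁ M₂ c (m, t)).All fun s => p s.1 := by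
  have h2 := (exec_sim_run M₁ M₂ c m t).trans h
  generalize exec M₁ M₂ c (m, t) = r at h2
  cases r with
  | ret a =>
    obtain ⟨b, hb, hp⟩ := h2
    subst hb
    exact hp
  | flip _ _ => exact h2.elim

theorem init0C_ok : init0C.okLoops [] = true := by decide

theorem init1C_ok : init1C.okLoops [aP] = true := by decide

theorem init1C_w : ∀ p ∈ [aP], p ∉ init1C.writes := by decide

set_option maxRecDepth 8000 in
theorem mainC_ok : mainC.okLoops [aN, aN1, aP, aQ, aKAP, aS] = true := by decide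

set_option maxRecDepth 8000 in
theorem mainC_w : ∀ p ∈ [aN, aN1, aP, aQ, aKAP, aS], p ∉ mainC.writes := by decide

/-- Running time as a polynomial in the main parameter. -/
theorem progC_cost : ∃ C d : ℕ, ∀ (n : ℕ) (M₁ M₂ : Matroid (Fin n)) (ε δ : ℚ),
    (exec M₁ M₂ progC (input n ε δ, 0)).All fun s => s.2 ≤ C * parP n ε δ ^ d := by
  obtain ⟨C, d, hC⟩ := costBound_poly progC
  refine ⟨C * 2 ^ d, 40 * d, fun n M₁ M₂ ε δ => ?_⟩
  set P := parP n ε δ with hPdef
  have hP : n + n + 17 ≤ P := by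
    rw [hPdef]; unfold parP; generalize ε.den / ε.num.toNat = x; omega
  have hP2 : P * P ≤ P ^ 40 := by
    rw [← pow_two]; exact Nat.pow_le_pow_right (by omega) (by norm_num)
  have hP3 : 17 * P ≤ P * P := Nat.mul_le_mul_right P (by omega)
  have hnP : n * P ≤ P * P := Nat.mul_le_mul_right P (by omega)
  set B := P ^ 40 with hBdef
  have hn : n ≤ B := by omega
  have hB : 64 ≤ B := by omega
  have hfin : progC.costBound B ≤ C * 2 ^ d * P ^ (40 * d) := by
    refine (hC B).trans ?_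
    rw [pow_mul, mul_assoc, ← mul_pow]
    exact Nat.mul_le_mul_left C (Nat.pow_le_pow_left (by omega) d)
  have h0 := Rand.All_and (exec_cost M₁ M₂ init0C [] B hn hB init0C_ok (by simp) (input n ε δ) 0
    (by simp)) ((init0C_det M₁ M₂ ε δ).exec_All 0)
  refine Rand.All_bind h0 ?_
  rintro ⟨m1, t1⟩ ⟨⟨ht1, -⟩, h1, h2, h3, h4, h5⟩
  have h4' : m1 aP 0 = P := h4
  have h6 := Rand.All_and (exec_cost M₁ M₂ init1C [aP] B hn hB init1C_ok init1C_w m1 t1
    (by intro p hp; simp only [List.mem_singleton] at hp; subst hp; omega))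
    ((init1C_det M₁ M₂ P m1 h1 h2 h3 h4 h5).exec_All t1)
  refine Rand.All_bind h6 ?_
  rintro ⟨m2, t2⟩ ⟨⟨ht2, -⟩, ⟨g1, g2, g3, g4, g5, g6⟩, -⟩
  have hsz : Nat.size (n + 1) ≤ n + 1 := Nat.size_le.2 Nat.lt_two_pow_self
  simp only at g1 g2 g3 g4 g5 g6 ht1 ht2
  have h7 := exec_cost M₁ M₂ mainC [aN, aN1, aP, aQ, aKAP, aS] B hn hB mainC_ok mainC_w m2 t2
    (by
      intro p hp
      simp only [List.mem_cons, List.not_mem_nil, or_false] at hp
      rcases hp with rfl | rfl | rfl | rfl | rfl | rfl <;> omega)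
  refine Rand.All_mono ?_ h7
  rintro ⟨m3, t3⟩ ⟨ht3, -⟩
  have : progC.costBound B = init0C.costBound B + (init1C.costBound B + mainC.costBound B) := rfl
  simp only at ht3 ⊢
  omega

theorem rat_toNat_cast (q : ℚ) (hq : 0 < q) : ((q.num.toNat : ℕ) : ℝ) = (q : ℝ) * q.den := by
  have h1 : ((q.num.toNat : ℕ) : ℤ) = q.num := Int.toNat_of_nonneg (Rat.num_pos.2 hq).le
  have h2 : ((q.num.toNat : ℕ) : ℝ) = (q.num : ℝ) := by exact_mod_cast congrArg (Int.cast : ℤ → ℝ) h1
  rw [h2, Rat.cast_def]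
  have : (q.den : ℝ) ≠ 0 := by exact_mod_cast q.den_nz
  field_simp

theorem rat_div_le (q : ℚ) (hq : 0 < q) : ((q.den / q.num.toNat : ℕ) : ℝ) ≤ 1 / (q : ℝ) := by
  refine Nat.cast_div_le.trans (le_of_eq ?_)
  rw [rat_toNat_cast q hq]
  have : (q.den : ℝ) ≠ 0 := by exact_mod_cast q.den_nz
  have : (q : ℝ) ≠ 0 := by exact_mod_cast hq.ne'
  field_simp

theorem rat_lt_div (q : ℚ) (hq : 0 < q) :
    1 ≤ (q : ℝ) * ((q.den / q.num.toNat + 1 : ℕ) : ℝ) := by
  have hnum : 0 < q.num.toNat := by have := Rat.num_pos.2 hq; omega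
  have h1 : q.den < q.num.toNat * (q.den / q.num.toNat + 1) := Nat.lt_mul_div_succ _ hnum
  have h2 : (q.den : ℝ) ≤ (q.num.toNat : ℝ) * ((q.den / q.num.toNat + 1 : ℕ) : ℝ) := by
    exact_mod_cast h1.le
  rw [rat_toNat_cast q hq] at h2
  have h3 : (0 : ℝ) < q.den := by exact_mod_cast q.den_pos
  have : (q.den : ℝ) * 1 ≤ q.den * ((q : ℝ) * ((q.den / q.num.toNat + 1 : ℕ) : ℝ)) := by
    linarith
  exact le_of_mul_le_mul_left this h3

theorem parP_le (n : ℕ) (ε δ : ℚ) (hε0 : 0 < ε) (hε1 : ε < 1) (hδ0 : 0 < δ) (hδ1 : δ < 1) :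
    (parP n ε δ : ℝ) ≤ 20 * ((n : ℝ) + 1 / (ε : ℝ) + Real.log (1 / (δ : ℝ))) := by
  have h1 := rat_div_le ε hε0
  have h2 := rat_div_le δ hδ0
  have hε0' : (0 : ℝ) < ε := by exact_mod_cast hε0
  have hε1' : (ε : ℝ) < 1 := by exact_mod_cast hε1
  have hδ0' : (0 : ℝ) < δ := by exact_mod_cast hδ0
  have hδ1' : (δ : ℝ) < 1 := by exact_mod_cast hδ1
  have h3 : 1 ≤ 1 / (ε : ℝ) := by rw [le_div_iff₀ hε0']; linarith
  have h4 : 1 ≤ 1 / (δ : ℝ) := by rw [le_div_iff₀ hδ0']; linarith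
  have h5 : 0 ≤ Real.log (1 / (δ : ℝ)) := Real.log_nonneg h4
  have h6 : (Nat.size (δ.den / δ.num.toNat) : ℝ) ≤ 1 + 2 * Real.log (1 / (δ : ℝ)) := by
    generalize δ.den / δ.num.toNat = x at h2
    rcases Nat.eq_zero_or_pos (Nat.size x) with h | h
    · rw [h]; push_cast; linarith
    · have h7 : 2 ^ (Nat.size x - 1) ≤ x := Nat.lt_size.1 (by omega)
      have h8 : (2 : ℝ) ^ (Nat.size x - 1) ≤ 1 / (δ : ℝ) := le_trans (by exact_mod_cast h7) h2
      have h9 := Real.log_le_log (by positivity) h8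
      rw [Real.log_pow, Nat.cast_sub h] at h9
      have h10 := Real.log_two_gt_d9
      have h11 : (1 : ℝ) ≤ Nat.size x := by exact_mod_cast h
      push_cast at h9
      nlinarith
  have hn : (0 : ℝ) ≤ n := Nat.cast_nonneg n
  unfold parP
  push_cast
  linarith

theorem parP_eps (ε : ℚ) (hε0 : 0 < ε) :
    1 ≤ (ε : ℝ) * ((ε.den / ε.num.toNat + 1 : ℕ) : ℝ) := rat_lt_div ε hε0

theorem parP_delta (n : ℕ) (ε δ : ℚ) (hδ0 : 0 < δ) : (1 / 2 : ℝ) ^ parP n ε δ ≤ (δ : ℝ) := by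
  have h1 := rat_lt_div δ hδ0
  have hδ0' : (0 : ℝ) < δ := by exact_mod_cast hδ0
  have h2 : δ.den / δ.num.toNat + 1 ≤ 2 ^ parP n ε δ := by
    have h3 : δ.den / δ.num.toNat < 2 ^ Nat.size (δ.den / δ.num.toNat) := Nat.lt_size_self _
    have h4 : 2 ^ Nat.size (δ.den / δ.num.toNat) ≤ 2 ^ parP n ε δ :=
      Nat.pow_le_pow_right (by norm_num)
        (by unfold parP; generalize ε.den / ε.num.toNat = x; omega)
    exact Nat.succ_le_of_lt (h3.trans_le h4)
  have h3 : ((δ.den / δ.num.toNat + 1 : ℕ) : ℝ) ≤ 2 ^ parP n ε δ := by exact_mod_cast h2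
  rw [one_div, inv_pow, inv_le_iff_one_le_mul₀ (by positivity)]
  exact h1.trans (mul_le_mul_of_nonneg_left h3 hδ0'.le)

end Vale.Agent.P317
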