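import Vale.Agent.P317.Spec

/-! Elementary facts about class weights. -/

namespace Vale.Agent.P317

open Finset

variable {n : ℕ}

theorem ew_nonneg (kk : Fin (n + 1) → ℕ) (c : Fin (n + 1)) (x : Fin 3) : 0 ≤ ew kk c x := by
  unfold ew bw
  split_ifs <;> positivity

theorem cwt_nonneg (M₁ M₂ : Matroid (Fin n)) (kk : Fin (n + 1) → ℕ) (j : Fin (n + 1))
    (U : Fin (n + 1) → Fin 3) : 0 ≤ cwt M₁ M₂ kk j U := by
  unfold cwt
  refine mul_nonneg (prod_nonneg fun c _ => ew_nonneg kk c _) ?_
  split_ifs <;> norm_num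

theorem feas_mono (M₁ M₂ : Matroid (Fin n)) {U V : Fin (n + 1) → Fin 3}
    (h : ∀ c, V c = 0 ∨ V c = U c) (hU : feas M₁ M₂ U) : feas M₁ M₂ V := by
  refine ⟨hU.1.subset fun e he => ?_, Matroid.Indep.subset hU.2 fun e he => ?_⟩
  · have he' : V e.castSucc = 1 := he
    rcases h e.castSucc with h | h
    · exact absurd (h.symm.trans he') (by decide)
    · exact h.symm.trans he'
  · have he' : V e.castSucc = 2 := he
    rcases h e.castSucc with h | h
    · exact absurd (h.symm.trans he') (by decide)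
    · exact h.symm.trans he'

theorem cwt_zero (M₁ M₂ : Matroid (Fin n)) (kk : Fin (n + 1) → ℕ) (j : Fin (n + 1)) :
    cwt M₁ M₂ kk j (fun _ => 0) = 1 := by
  have : feas M₁ M₂ (Function.update (fun _ => 0) j 0) := by
    rw [Function.update_eq_self]
    exact ⟨by simp [inS], by simp [outS, Matroid.coindep_def]⟩
  rw [cwt, if_pos this]
  simp [ew]

/-- The all-free state shows that every class has weight at least 1. -/
theorem one_le_clsN (M₁ M₂ : Matroid (Fin n)) (kk : Fin (n + 1) → ℕ) (j : Fin (n + 1)) :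
    1 ≤ clsN M₁ M₂ kk j := by
  have := single_le_sum (f := fun U : Fin (n + 1) → Fin 3 =>
    if U j = 0 then cwt M₁ M₂ kk j U * 1 else 0) (s := univ) (fun U _ => by
      have := cwt_nonneg M₁ M₂ kk j U
      split_ifs <;> simp [this]) (mem_univ fun _ => 0)
  simpa [cwt_zero, clsN, clsSum] using this

theorem sum_wt_mul (M₁ M₂ : Matroid (Fin n)) (kk : Fin (n + 1) → ℕ) (s : Fin (n + 1) → ℝ)
    (f : St n → ℝ) :
    ∑ x : St n, wt M₁ M₂ kk s x * f x
      = ∑ j, s j * clsSum (cwt M₁ M₂ kk) j fun U => f (j, U) := by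
  rw [Fintype.sum_prod_type]
  refine sum_congr rfl fun j _ => ?_
  rw [clsSum, mul_sum]
  refine sum_congr rfl fun U _ => ?_
  unfold wt
  split_ifs <;> simp [mul_assoc]

theorem Zs_eq (M₁ M₂ : Matroid (Fin n)) (kk : Fin (n + 1) → ℕ) (s : Fin (n + 1) → ℝ) :
    Zs M₁ M₂ kk s = ∑ j, s j * clsN M₁ M₂ kk j := by
  have := sum_wt_mul M₁ M₂ kk s fun _ => 1
  simp only [mul_one] at this
  exact this

/-- The old weight is the new weight times 1, 0 or 1/2 according to the option in slot `e`. -/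
theorem cwt_raise (M₁ M₂ : Matroid (Fin n)) (kk : Fin (n + 1) → ℕ) (e j : Fin (n + 1))
    (U : Fin (n + 1) → Fin 3) (hU : U j = 0) :
    cwt M₁ M₂ kk j U = cwt M₁ M₂ (Function.update kk e (kk e + 1)) j U *
      (if U e = 0 then 1 else if kk e = 0 then 0 else 1 / 2) := by
  have h1 : ∀ c, c ≠ e → ew (Function.update kk e (kk e + 1)) c (U c) = ew kk c (U c) :=
    fun c hc => by simp [ew, Function.update_of_ne hc]
  unfold cwt
  rw [mul_right_comm]
  congr 1
  by_cases h : e = j
  · subst h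
    rw [if_pos hU, mul_one]
    exact prod_congr rfl fun c hc => (h1 c (ne_of_mem_erase hc)).symm
  · have he : e ∈ univ.erase j := mem_erase.2 ⟨h, mem_univ _⟩
    rw [← mul_prod_erase _ _ he, ← mul_prod_erase _ _ he,
      prod_congr rfl fun c hc => h1 c (ne_of_mem_erase hc), mul_right_comm]
    congr 1
    simp only [ew, bw, Function.update_self]
    by_cases h2 : U e = 0
    · simp [h2]
    · by_cases h3 : kk e = 0
      · simp [h2, h3]
      · simp only [if_neg h2, if_neg h3, if_neg (Nat.succ_ne_zero _)]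
        ring

theorem sum_update_slot (e : Fin (n + 1)) (F : (Fin (n + 1) → Fin 3) → ℝ) :
    ∑ U, F U = ∑ V, if V e = 0 then ∑ x, F (Function.update V e x) else 0 := by
  rw [← (Fin.insertNthEquiv (fun _ => Fin 3) e).sum_comp,
    ← (Fin.insertNthEquiv (fun _ => Fin 3) e).sum_comp, Fintype.sum_prod_type,
    Fintype.sum_prod_type, sum_comm]
  simp [Fin.insertNthEquiv, Fin.update_insertNth]

/-- Raising one level multiplies a class weight by a factor in `[1, 5]`. -/
theorem clsN_raise (M₁ M₂ : Matroid (Fin n)) (kk : Fin (n + 1) → ℕ) (e j : Fin (n + 1)) :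
    clsN M₁ M₂ kk j ≤ clsN M₁ M₂ (Function.update kk e (kk e + 1)) j ∧
      clsN M₁ M₂ (Function.update kk e (kk e + 1)) j ≤ 5 * clsN M₁ M₂ kk j := by
  unfold clsN clsSum
  constructor
  · refine sum_le_sum fun U _ => ?_
    split_ifs with hU
    · rw [cwt_raise M₁ M₂ kk e j U hU]
      have := cwt_nonneg M₁ M₂ (Function.update kk e (kk e + 1)) j U
      split_ifs <;> linarith
    · exact le_rfl
  by_cases hk : kk e = 0 ∧ e ≠ j
  swap
  · rw [mul_sum]
    refine sum_le_sum fun U _ => ?_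
    split_ifs with hU
    · rw [cwt_raise M₁ M₂ kk e j U hU]
      have := cwt_nonneg M₁ M₂ (Function.update kk e (kk e + 1)) j U
      split_ifs with h1 h2
      · linarith
      · exact absurd ⟨h2, fun h => h1 (h ▸ hU)⟩ hk
      · linarith
    · simp
  rw [sum_update_slot e, mul_sum]
  refine sum_le_sum fun V _ => ?_
  have h0 := cwt_nonneg M₁ M₂ kk j V
  simp only [Function.update_of_ne hk.2.symm]
  by_cases hj : V j = 0
  swap
  · simp [hj]
  simp only [if_pos hj, mul_one]
  split_ifs with hV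
  swap
  · linarith
  have he : e ∈ univ.erase j := mem_erase.2 ⟨hk.2, mem_univ _⟩
  have h1 : ∀ x, cwt M₁ M₂ (Function.update kk e (kk e + 1)) j (Function.update V e x) ≤
      (if x = 0 then 1 else 2) * cwt M₁ M₂ kk j V := fun x => by
    unfold cwt
    rw [← mul_prod_erase _ _ he, ← mul_prod_erase _ _ he, ← mul_assoc, ← mul_assoc]
    have h2 : ∏ c ∈ (univ.erase j).erase e, ew (Function.update kk e (kk e + 1)) c
        (Function.update V e x c) = ∏ c ∈ (univ.erase j).erase e, ew kk c (V c) :=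
      prod_congr rfl fun c hc => by simp [ew, Function.update_of_ne (ne_of_mem_erase hc)]
    have h3 : ew (Function.update kk e (kk e + 1)) e (Function.update V e x e) =
        (if x = 0 then 1 else 2) * ew kk e (V e) := by
      simp [ew, bw, hV, hk.1]
    rw [h2, h3]
    refine mul_le_mul_of_nonneg_left ?_ (mul_nonneg (h3 ▸ ew_nonneg _ _ _)
      (prod_nonneg fun c _ => ew_nonneg kk c _))
    split_ifs with h4 h5
    · exact le_rfl
    · refine absurd (feas_mono M₁ M₂ (fun c => ?_) h4) h5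
      by_cases hc : c = j
      · simp [hc]
      · by_cases hc' : c = e
        · simp [hc', hk.2, hV]
        · simp [hc, hc']
    · exact zero_le_one
    · exact le_rfl
  refine (sum_le_sum fun x _ => h1 x).trans ?_
  rw [← sum_mul, Fin.sum_univ_three, if_pos rfl, if_neg (by decide), if_neg (by decide)]
  norm_num

theorem clsSum_zero (M₁ M₂ : Matroid (Fin n)) (j : Fin (n + 1)) (g : (Fin (n + 1) → Fin 3) → ℝ) :
    clsSum (cwt M₁ M₂ fun _ => 0) j g = g fun _ => 0 := by
  rw [clsSum, sum_eq_single fun _ => 0]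
  · simp [cwt_zero]
  · intro U _ hU
    split_ifs with hj
    · obtain ⟨c, hc⟩ := Function.ne_iff.1 hU
      rw [cwt, prod_eq_zero (mem_erase.2 ⟨fun h : c = j => hc (h ▸ hj), mem_univ c⟩)
        (by simp [ew, bw, hc]), zero_mul, zero_mul]
    · rfl
  · simp

/-- At level zero every class consists of the all-free state. -/
theorem clsN_zero (M₁ M₂ : Matroid (Fin n)) (j : Fin (n + 1)) :
    clsN M₁ M₂ (fun _ => 0) j = 1 :=
  clsSum_zero M₁ M₂ j _

/-- At level zero, with all class weight on the last slot, the distribution is the point mass at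
the start state. -/
theorem mean_start (M₁ M₂ : Matroid (Fin n)) (f : St n → ℝ) :
    mean M₁ M₂ (fun _ => 0) (fun j => if j = Fin.last n then 1 else 0) f = f (start n) := by
  have h1 : Zs M₁ M₂ (fun _ => 0) (fun j => if j = Fin.last n then 1 else 0) = 1 := by
    simp [Zs_eq, clsN_zero]
  simp only [mean, pr, h1, div_one, sum_wt_mul, clsSum_zero]
  simp [start]

theorem common_iff (M₁ M₂ : Matroid (Fin n)) (h₂ : M₂.E = Set.univ)
    (hr : M₁.eRank = M₂.eRank) (B : Set (Fin n)) :
    M₁.Indep B ∧ M₂.Coindep Bᶜ ↔ M₁.IsBase B ∧ M₂.IsBase B := by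
  constructor
  · rintro ⟨h1, h2⟩
    obtain ⟨B', h3, h4⟩ := h2.exists_isBase_subset_compl
    have h5 : B' ⊆ B := fun x hx => by simpa using (h4 hx).2
    have h6 := h1.encard_le_eRank
    rw [hr, ← h3.encard_eq_eRank] at h6
    obtain rfl : B' = B := (Set.toFinite B').eq_of_subset_of_encard_le h5 h6
    refine ⟨h1.isBase_of_eRk_ge (Set.toFinite _) ?_, h3⟩
    rw [h1.eRk_eq_encard, h3.encard_eq_eRank, hr]
  · rintro ⟨h1, h2⟩
    refine ⟨h1.indep, Matroid.coindep_iff_subset_compl_isBase.2 ⟨B, h2, ?_⟩⟩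
    rw [h₂, Set.compl_eq_univ_sdiff]

/-- At the final level the last class counts common bases up to a small error. -/
theorem clsN_final (M₁ M₂ : Matroid (Fin n)) (h₁ : M₁.E = Set.univ) (h₂ : M₂.E = Set.univ)
    (hr : M₁.eRank = M₂.eRank) (P : ℕ) (hP : 0 < P) :
    (nCommon M₁ M₂ : ℝ) * 2 ^ (n * P) ≤ clsN M₁ M₂ (lev n P (n * P)) (Fin.last n) ∧
      clsN M₁ M₂ (lev n P (n * P)) (Fin.last n)
        ≤ ((nCommon M₁ M₂ : ℝ) + 3 ^ n / 2 ^ P) * 2 ^ (n * P) := by
  classical
  have _ := h₁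
  let w : (Fin n → Fin 3) → ℝ := fun r => ∏ e, if r e = 0 then 1 else 2 ^ P
  let fe : (Fin n → Fin 3) → Prop := fun r => M₁.Indep {e | r e = 1} ∧ M₂.Coindep {e | r e = 2}
  have hsum : clsN M₁ M₂ (lev n P (n * P)) (Fin.last n) = ∑ r, w r * if fe r then 1 else 0 := by
    rw [clsN, clsSum, ← (Fin.snocEquiv fun _ => Fin 3).sum_comp, Fintype.sum_prod_type, sum_comm]
    refine sum_congr rfl fun r _ => ?_
    rw [sum_eq_single 0 (fun x _ hx => if_neg (by simpa [Fin.snocEquiv] using hx)) (by simp),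
      if_pos (by simp [Fin.snocEquiv]), mul_one, cwt]
    congr 1
    · rw [Fin.univ_castSuccEmb, erase_cons, prod_map]
      refine prod_congr rfl fun e _ => ?_
      have h1 : (e.val + 1) * P ≤ n * P := Nat.mul_le_mul_right P e.2
      have h2 : lev n P (n * P) e.castSucc = P := by
        rw [add_mul] at h1
        simp only [lev, Fin.val_castSucc]
        omega
      simp [ew, bw, Fin.snocEquiv, h2, hP.ne']
    · refine if_congr ?_ rfl rfl
      simp [feas, inS, outS, fe, Fin.snocEquiv]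
  set Gd : Finset (Fin n → Fin 3) := univ.filter fun r => (∀ e, r e ≠ 0) ∧ fe r with hGd
  have hcard : nCommon M₁ M₂ = Gd.card := by
    rw [nCommon, ← Set.ncard_coe_finset]
    have hc : ∀ r : Fin n → Fin 3, (∀ e, r e ≠ 0) → {e | r e = 2} = {e | r e = 1}ᶜ :=
      fun r hr' => Set.ext fun e => by
        have := hr' e
        simp only [Set.mem_ofPred_eq, Set.mem_compl_iff]
        omega
    refine (Set.ncard_congr (fun r _ => {e | r e = 1}) (fun r hr' => ?_) (fun r r' h1 h2 h => ?_)
      fun B hB => ?_).symm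
    · have := (mem_filter.1 hr').2
      refine (common_iff M₁ M₂ h₂ hr _).1 ⟨this.2.1, ?_⟩
      rw [← hc r this.1]
      exact this.2.2
    · funext e
      have a1 := (mem_filter.1 h1).2.1 e
      have a2 := (mem_filter.1 h2).2.1 e
      have a3 : r e = 1 ↔ r' e = 1 := Set.ext_iff.1 h e
      omega
    · have h1 : {e | (if e ∈ B then 1 else 2 : Fin 3) = 1} = B := by
        ext e; by_cases h : e ∈ B <;> simp [h]
      have h2 : ∀ e, (if e ∈ B then 1 else 2 : Fin 3) ≠ 0 := fun e => by split_ifs <;> decide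
      have h3 := (common_iff M₁ M₂ h₂ hr B).2 hB
      refine ⟨fun e => if e ∈ B then 1 else 2, mem_filter.2 ⟨mem_univ _, h2, ?_, ?_⟩, h1⟩
      · rw [h1]; exact h3.1
      · rw [hc _ h2, h1]; exact h3.2
  have hw0 : ∀ r, 0 ≤ w r := fun r => prod_nonneg fun e _ => by split_ifs <;> positivity
  have hw1 : ∀ r, (∀ e, r e ≠ 0) → w r = 2 ^ (n * P) := fun r hr' => by
    simp [w, hr', pow_mul']
  have hw2 : ∀ r, ¬ (∀ e, r e ≠ 0) → w r ≤ 2 ^ (n * P) / 2 ^ P := fun r hr' => by
    push Not at hr'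
    obtain ⟨e, he⟩ := hr'
    have h1 : (2 : ℝ) ^ (n * P) = ∏ _e : Fin n, 2 ^ P := by simp [pow_mul']
    rw [le_div_iff₀ (by positivity), h1, ← mul_prod_erase _ _ (mem_univ e), mul_comm]
    refine mul_le_mul_of_nonneg_left ?_ (by positivity)
    simp only [w]
    rw [← mul_prod_erase _ _ (mem_univ e), if_pos he, one_mul]
    refine prod_le_prod (fun e _ => by split_ifs <;> positivity) fun e _ => ?_
    split_ifs
    exacts [one_le_pow₀ one_le_two, le_rfl]
  have hG : (Gd.card : ℝ) * 2 ^ (n * P) =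
      ∑ r, if (∀ e, r e ≠ 0) ∧ fe r then (2 : ℝ) ^ (n * P) else 0 := by
    rw [← sum_filter, sum_const, nsmul_eq_mul]
  rw [hsum, hcard, add_mul, hG]
  constructor
  · refine sum_le_sum fun r _ => ?_
    have := hw0 r
    split_ifs with h1 h2 h3
    · rw [hw1 r h1.1, mul_one]
    · exact absurd h1.2 h2
    · simpa using this
    · simp
  · have h1 : (3 : ℝ) ^ n / 2 ^ P * 2 ^ (n * P) =
        ∑ _r : Fin n → Fin 3, (2 : ℝ) ^ (n * P) / 2 ^ P := by
      simp
      ring
    rw [h1, ← sum_add_distrib]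
    refine sum_le_sum fun r _ => ?_
    have h2 : (0 : ℝ) ≤ 2 ^ (n * P) / 2 ^ P := by positivity
    split_ifs with h3 h4 h5
    · rw [hw1 r h4.1]; linarith
    · have := hw2 r fun h => h4 ⟨h, h3⟩
      linarith
    · exact absurd h5.2 h3
    · linarith

end Vale.Agent.P317
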