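import Vale.Agent.P317.FlowA

/-! The triangular flow and its energy bound. -/

namespace Vale.Agent.P317

open Finset

variable {I : Type} [DecidableEq I] [Fintype I]

/-- Sum over the states with hole `j` (canonical value 0 at the hole) of weight times `g`. -/
def clsSum (w : I → (I → Fin 3) → ℝ) (j : I) (g : (I → Fin 3) → ℝ) : ℝ :=
  ∑ U : I → Fin 3, if U j = 0 then w j U * g U else 0

/-- Exchange Dirichlet form with minimum conductances. -/
noncomputable def dirMin (w : I → (I → Fin 3) → ℝ) (s : I → ℝ) (F : I → (I → Fin 3) → ℝ) : ℝ :=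
  (1 / 2) * ∑ U : I → Fin 3, ∑ j : I, ∑ j' : I,
    min (s j * w j U) (s j' * w j' U) *
      (F j (Function.update U j 0) - F j' (Function.update U j' 0)) ^ 2

/-- The transport inequality between class `a` (weighted by a function of slot `e`) and class `e`. -/
def Transport (w : I → (I → Fin 3) → ℝ) : Prop :=
  ∀ (s : I → ℝ), (∀ j, 0 < s j) → ∀ (a e : I), a ≠ e → ∀ (φ : Fin 3 → ℝ) (C : ℝ),
    (∀ x, |φ x| ≤ C) → ∀ (F : I → (I → Fin 3) → ℝ) (lam : ℝ),
    2 * lam * (clsSum w a (fun U => φ (U e) * F a U)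
        - clsSum w a (fun U => φ (U e)) / clsSum w e (fun _ => 1) * clsSum w e (F e))
      ≤ lam ^ 2 * (6 * C ^ 2 * (clsSum w a (fun _ => 1)) ^ 2
          * ∑ j, 1 / (s j * clsSum w j (fun _ => 1))) + dirMin w s F

/-- Weight of the state with hole `j` read off from a set function. -/
def cw (W : Finset (I × Fin 3) → ℝ) (j : I) (U : I → Fin 3) : ℝ := W (gset U (univ.erase j))

theorem sum_update (l : I) (F : (I → Fin 3) → ℝ) :
    ∑ U, F U = ∑ x : Fin 3, ∑ U : I → Fin 3, if U l = 0 then F (Function.update U l x) else 0 := by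
  rw [← sum_fiberwise (s := univ) (g := fun U : I → Fin 3 => U l) (f := F)]
  refine sum_congr rfl fun x _ => ?_
  rw [← sum_filter]
  refine sum_nbij' (fun U => Function.update U l 0) (fun U => Function.update U l x) ?_ ?_ ?_ ?_ ?_
  · intro U _; simp
  · intro U _; simp
  · intro U hU
    have : U l = x := by simpa using hU
    simp [← this]
  · intro U hU
    have : U l = 0 := by simpa using hU
    simp [← this]
  · intro U hU
    have : U l = x := by simpa using hU
    simp [← this]

/-- Sum over the functions vanishing outside `J`. -/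
def sumOn (J : Finset I) (h : (I → Fin 3) → ℝ) : ℝ :=
  ∑ U : I → Fin 3, if ∀ i, i ∉ J → U i = 0 then h U else 0

theorem sumOn_insert (J : Finset I) (l : I) (hl : l ∉ J) (h : (I → Fin 3) → ℝ) :
    sumOn (insert l J) h = ∑ x : Fin 3, sumOn J fun U => h (Function.update U l x) := by
  unfold sumOn
  rw [sum_update l]
  refine sum_congr rfl fun x _ => sum_congr rfl fun U _ => ?_
  by_cases h1 : ∀ i, i ∉ J → U i = 0
  · rw [if_pos h1, if_pos (h1 l hl), if_pos]
    intro i hi
    rw [mem_insert, not_or] at hi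
    rw [Function.update_of_ne hi.1]
    exact h1 i hi.2
  · rw [if_neg h1]
    split_ifs with h2 h3
    · exfalso
      refine h1 fun i hi => ?_
      by_cases hil : i = l
      · rw [hil]; exact h2
      · have := h3 i (by simp [hil, hi])
        rwa [Function.update_of_ne hil] at this
    · rfl
    · rfl

omit [Fintype I] in
theorem gset_insert (U : I → Fin 3) (J : Finset I) (l : I) (hl : l ∉ J) (x : Fin 3) :
    gset (Function.update U l x) (insert l J) = insert (l, x) (gset U J) := by
  unfold gset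
  rw [image_insert, Function.update_self]
  congr 1
  refine image_congr fun j hj => ?_
  have : j ≠ l := fun h => hl (h ▸ hj)
  simp [this]

theorem sumOn_agg (M : List I) (hM : M.Nodup) (V : Finset (I × Fin 3) → ℝ)
    (A : Finset (I × Fin 3)) : sumOn M.toFinset (fun U => V (A ∪ gset U M.toFinset)) = agg M V A := by
  induction M generalizing A with
  | nil =>
    unfold sumOn
    rw [sum_eq_single (fun _ => 0)]
    · simp [gset, agg]
    · intro U _ hU
      rw [if_neg]
      intro h
      exact hU (funext fun i => h i (by simp))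
    · simp
  | cons l M ih =>
    rw [List.nodup_cons] at hM
    have hl : l ∉ M.toFinset := fun h => hM.1 (List.mem_toFinset.1 h)
    rw [List.toFinset_cons, sumOn_insert _ _ hl, agg]
    refine sum_congr rfl fun x _ => ?_
    rw [← ih hM.2]
    congr 1
    funext U
    rw [gset_insert U _ l hl, union_insert, insert_union]

omit [Fintype I] in
theorem mem_gset (U : I → Fin 3) (J : Finset I) (y : I × Fin 3) :
    y ∈ gset U J ↔ y.1 ∈ J ∧ y.2 = U y.1 := by
  unfold gset
  rw [mem_image]
  constructor
  · rintro ⟨j, hj, rfl⟩; exact ⟨hj, rfl⟩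
  · rintro ⟨h1, h2⟩; exact ⟨y.1, h1, Prod.ext rfl h2.symm⟩

theorem exists_lift (F : I → (I → Fin 3) → ℝ) : ∃ f : Finset (I × Fin 3) → ℝ,
    ∀ j U, f (gset U (univ.erase j)) = F j (Function.update U j 0) := by
  classical
  refine ⟨fun S => if h : ∃ p : I × (I → Fin 3), S = gset p.2 (univ.erase p.1) then
    F h.choose.1 (Function.update h.choose.2 h.choose.1 0) else 0, fun j U => ?_⟩
  have h : ∃ p : I × (I → Fin 3), gset U (univ.erase j) = gset p.2 (univ.erase p.1) :=
    ⟨(j, U), rfl⟩
  simp only
  rw [dif_pos h]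
  have hs := h.choose_spec
  generalize h.choose = p at hs
  obtain ⟨j', U'⟩ := p
  have hj : j' = j := by
    by_contra hne
    have : (j', U j') ∈ gset U (univ.erase j) := (mem_gset _ _ _).2 ⟨by simp [hne], rfl⟩
    rw [hs, mem_gset] at this
    simp at this
  subst hj
  congr 1
  funext i
  by_cases hi : i = j'
  · simp [hi]
  · have : (i, U i) ∈ gset U (univ.erase j') := (mem_gset _ _ _).2 ⟨by simp [hi], rfl⟩
    rw [hs, mem_gset] at this
    simp only [Function.update_of_ne hi]
    exact this.2.symm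

theorem clsSum_eq_sumOn (W : Finset (I × Fin 3) → ℝ) (j : I) (g : (I → Fin 3) → ℝ) :
    clsSum (cw W) j g = sumOn (univ.erase j) fun U => W (gset U (univ.erase j)) * g U := by
  unfold clsSum sumOn cw
  refine sum_congr rfl fun U _ => if_congr ?_ rfl rfl
  simp

theorem sumOn_congr (J : Finset I) (h h' : (I → Fin 3) → ℝ)
    (hh : ∀ U : I → Fin 3, (∀ i, i ∉ J → U i = 0) → h U = h' U) : sumOn J h = sumOn J h' := by
  unfold sumOn
  refine sum_congr rfl fun U _ => ?_
  split_ifs with hU
  · exact hh U hU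
  · rfl

theorem sumOn_const_mul (J : Finset I) (c : ℝ) (h : (I → Fin 3) → ℝ) :
    sumOn J (fun U => c * h U) = c * sumOn J h := by
  unfold sumOn
  rw [mul_sum]
  exact sum_congr rfl fun U _ => by split_ifs <;> simp

/-- Class sums with a factor depending on slot `e`, as aggregated sums. -/
theorem clsSum_agg (W V : Finset (I × Fin 3) → ℝ) (a e : I) (L : List I) (hL : L.Nodup)
    (heL : e ∉ L) (hJ : insert e L.toFinset = univ.erase a) (φ : Fin 3 → ℝ)
    (g : (I → Fin 3) → ℝ) (hg : ∀ U : I → Fin 3, U a = 0 →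
      W (gset U (univ.erase a)) * g U = φ (U e) * V (gset U (univ.erase a))) :
    clsSum (cw W) a g = ∑ u : Fin 3, φ u * agg L V {(e, u)} := by
  have he : e ∉ L.toFinset := fun h => heL (List.mem_toFinset.1 h)
  rw [clsSum_eq_sumOn, sumOn_congr _ _ (fun U => φ (U e) * V (gset U (univ.erase a)))
    (fun U hU => hg U (hU a (by simp))), ← hJ, sumOn_insert _ _ he]
  refine sum_congr rfl fun u _ => ?_
  rw [← sumOn_agg L hL, ← sumOn_const_mul]
  congr 1
  funext U
  rw [gset_insert U _ e he, Function.update_self]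
  rfl

theorem gset_univ_erase (U : I → Fin 3) (j : I) :
    (gset U univ).erase (j, U j) = gset U (univ.erase j) := by
  ext y
  simp only [mem_erase, mem_gset, mem_univ, true_and, and_true]
  constructor
  · rintro ⟨h1, h2⟩
    exact ⟨fun h => h1 (Prod.ext h (by rw [h2, h])), h2⟩
  · rintro ⟨h1, h2⟩
    exact ⟨fun h => h1 (by rw [h]), h2⟩

theorem starD_gset (W : Finset (I × Fin 3) → ℝ) (s : I → ℝ) (f : Finset (I × Fin 3) → ℝ)
    (F : I → (I → Fin 3) → ℝ) (hf : ∀ j U, f (gset U (univ.erase j)) = F j (Function.update U j 0))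
    (U : I → Fin 3) : starD W s f (gset U univ) = (1 / 2) * ∑ j : I, ∑ j' : I,
      min (s j * cw W j U) (s j' * cw W j' U) *
        (F j (Function.update U j 0) - F j' (Function.update U j' 0)) ^ 2 := by
  have hinj : ∀ J : Finset I, Set.InjOn (fun j => (j, U j)) (J : Set I) :=
    fun J a _ b _ h => congrArg Prod.fst h
  unfold starD
  congr 1
  have hs : ∀ g : I × Fin 3 → ℝ, ∑ y ∈ gset U univ, g y = ∑ j, g (j, U j) := fun g =>
    sum_image (hinj _)
  rw [hs]
  refine sum_congr rfl fun j _ => ?_
  rw [hs]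
  refine sum_congr rfl fun j' _ => ?_
  simp only [gset_univ_erase, hf, cw]

omit [Fintype I] in
/-- The doubled weight of slot `k` is controlled by the three class weights. -/
theorem dbl_le (n : ℕ) (W : Finset (I × Fin 3) → ℝ)
    (hpos : ∀ S : Finset (I × Fin 3), S.card = n → 0 < W S) (hA : AggHyp n W) (a e k : I)
    (hae : a ≠ e) (hak : a ≠ k) (hek : e ≠ k) (M : List I) (hM : M.Nodup) (ha : a ∉ M)
    (he : e ∉ M) (hk : k ∉ M) (hc : M.length + 2 = n) (u u' : Fin 3) :
    agg M (dbl W k) ∅ * agg M W {(a, u), (e, u')}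
      ≤ 6 * (agg (k :: M) W {(e, u')} * agg (k :: M) W {(a, u)}) := by
  have hp : ∀ (c : I) (v x : Fin 3), c ≠ k → c ∉ M → 0 < agg M W (insert (k, x) {(c, v)}) := by
    intro c v x hck hcM
    refine agg_pos n W hpos M hM _ ?_ ?_
    · intro y hy
      simp only [mem_insert, mem_singleton] at hy
      rcases hy with rfl | rfl
      · exact hk
      · exact hcM
    · rw [card_pair (by simp [hck.symm])]; omega
  have two : ∀ (c : I) (v x x' : Fin 3), c ≠ k → c ∉ M → x ≠ x' →
      agg M W (insert (k, x') {(c, v)}) + agg M W (insert (k, x) {(c, v)})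
        ≤ agg (k :: M) W {(c, v)} := by
    intro c v x x' hck hcM hxx
    rw [agg, ← sum_pair (f := fun z : Fin 3 => agg M W (insert (k, z) {(c, v)})) hxx.symm]
    exact sum_le_sum_of_subset_of_nonneg (subset_univ _) fun z _ _ => (hp c v z hck hcM).le
  have key : ∀ x x' : Fin 3, x ≠ x' →
      agg M W (insert (k, x) (insert (k, x') ∅)) * agg M W {(a, u), (e, u')}
        ≤ agg (k :: M) W {(e, u')} * agg (k :: M) W {(a, u)} := by
    intro x x' hxx
    have hne : ((k, x) : I × Fin 3) ≠ (k, x') := by simpa using hxx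
    have h := pair_ineq n W hpos hA M hM {(k, x), (k, x')} (by
      intro y hy
      simp only [mem_insert, mem_singleton] at hy
      rcases hy with rfl | rfl <;> exact hk) (by rw [card_pair hne]; omega) (a, u) (e, u')
      (by simp [hak]) (by simp [hek]) (by simp [hae]) ha he (fun _ => 1)
    have e1 : ({(k, x), (k, x')} : Finset (I × Fin 3)).erase (k, x) = {(k, x')} :=
      erase_insert (by simpa using hne)
    have e2 : ({(k, x), (k, x')} : Finset (I × Fin 3)).erase (k, x') = {(k, x)} := by
      rw [pair_comm]; exact erase_insert (by simpa using hne.symm)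
    simp only [bf, sum_pair hne, mat, if_true, if_neg hne, if_neg hne.symm, e1, e2,
      erase_singleton, one_mul, mul_one, zero_add, add_zero] at h
    have t1 := two e u' x x' hek he hxx
    have t2 := two a u x x' hak ha hxx
    have p1 := hp e u' x hek he
    have p2 := hp e u' x' hek he
    have p3 := hp a u x hak ha
    have p4 := hp a u x' hak ha
    rw [pair_comm (e, u') (k, x'), pair_comm (e, u') (k, x), pair_comm (a, u) (k, x'),
      pair_comm (a, u) (k, x)] at h
    have h2 := mul_le_mul t1 t2 (by linarith) (by linarith)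
    have e3 : (insert (k, x) (insert (k, x') ∅) : Finset (I × Fin 3)) = {(k, x), (k, x')} := rfl
    have e4 : (insert (a, u) (insert (e, u') ∅) : Finset (I × Fin 3)) = {(a, u), (e, u')} := rfl
    rw [e4] at h
    rw [e3]
    nlinarith
  rw [agg_dbl]
  have h01 := key 0 1 (by decide)
  have h02 := key 0 2 (by decide)
  have h10 := key 1 0 (by decide)
  have h12 := key 1 2 (by decide)
  have h20 := key 2 0 (by decide)
  have h21 := key 2 1 (by decide)
  simp only [Fin.sum_univ_three, if_true, show ((0 : Fin 3) = 1) = False by decide,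
    show ((0 : Fin 3) = 2) = False by decide, show ((1 : Fin 3) = 0) = False by decide,
    show ((1 : Fin 3) = 2) = False by decide, show ((2 : Fin 3) = 0) = False by decide,
    show ((2 : Fin 3) = 1) = False by decide, if_false]
  linarith

set_option maxHeartbeats 1000000 in
theorem transport_pos (n : ℕ) (hI : Fintype.card I = n + 1) (W : Finset (I × Fin 3) → ℝ)
    (hpos : ∀ S : Finset (I × Fin 3), S.card = n → 0 < W S) (hA : AggHyp n W) :
    Transport (cw W) := by
  intro s hs a e hae φ C hφ F lam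
  obtain ⟨f, hf⟩ := exists_lift F
  set L : List I := ((univ.erase a).erase e).toList with hLdef
  have hL : L.Nodup := nodup_toList _
  have hLF : L.toFinset = (univ.erase a).erase e := toList_toFinset _
  have hmem : ∀ k, k ∈ L ↔ k ≠ e ∧ k ≠ a := fun k => by simp [hLdef]
  have haL : a ∉ L := fun h => ((hmem a).1 h).2 rfl
  have heL : e ∉ L := fun h => ((hmem e).1 h).1 rfl
  have hlen : L.length + 1 = n := by
    have h1 : 1 < Fintype.card I := Fintype.one_lt_card_iff.2 ⟨a, e, hae⟩
    rw [hLdef, length_toList, card_erase_of_mem (by simp [hae.symm]), card_erase_of_mem (by simp),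
      card_univ, hI]
    omega
  have hJa : insert e L.toFinset = univ.erase a := by
    rw [hLF]; exact insert_erase (by simp [hae.symm])
  have hJe : insert a L.toFinset = univ.erase e := by
    rw [hLF, erase_right_comm]; exact insert_erase (by simp [hae])
  set Na : Fin 3 → ℝ := fun u' => agg L W {(e, u')} with hNa
  set Ne : Fin 3 → ℝ := fun u => agg L W {(a, u)} with hNe
  set A' : Fin 3 → ℝ := fun u' => agg L (fun S => W S * f S) {(e, u')} with hA'
  set E' : Fin 3 → ℝ := fun u => agg L (fun S => W S * f S) {(a, u)} with hE'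
  have hNa0 : ∀ u, 0 < Na u := fun u => agg_pos n W hpos L hL _ (by simpa using heL)
    (by rw [card_singleton]; omega)
  have hNe0 : ∀ u, 0 < Ne u := fun u => agg_pos n W hpos L hL _ (by simpa using haL)
    (by rw [card_singleton]; omega)
  have upd : ∀ (U : I → Fin 3) (j : I), U j = 0 → Function.update U j 0 = U := by
    intro U j h; rw [← h]; exact Function.update_eq_self j U
  have c1 : clsSum (cw W) a (fun U => φ (U e) * F a U) = ∑ u, φ u * A' u :=
    clsSum_agg W _ a e L hL heL hJa φ _ fun U hU => by rw [hf, upd U a hU]; ring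
  have c2 : clsSum (cw W) a (fun U => φ (U e)) = ∑ u, φ u * Na u :=
    clsSum_agg W W a e L hL heL hJa φ _ fun U _ => by ring
  have c3 : clsSum (cw W) a (fun _ => 1) = ∑ u, Na u := by
    rw [clsSum_agg W W a e L hL heL hJa (fun _ => 1) _ fun U _ => by ring]; simp [hNa]
  have c4 : clsSum (cw W) e (fun _ => 1) = ∑ u, Ne u := by
    rw [clsSum_agg W W e a L hL haL hJe (fun _ => 1) _ fun U _ => by ring]; simp [hNe]
  have c5 : clsSum (cw W) e (F e) = ∑ u, E' u := by
    rw [clsSum_agg W (fun S => W S * f S) e a L hL haL hJe (fun _ => 1) _ fun U hU => by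
      rw [hf, upd U e hU]; ring]
    simp [hE']
  set NA := ∑ u, Na u with hNA
  set NE := ∑ u, Ne u with hNE
  have hNA0 : 0 < NA := sum_pos (fun u _ => hNa0 u) univ_nonempty
  have hNE0 : 0 < NE := sum_pos (fun u _ => hNe0 u) univ_nonempty
  -- class weights of the remaining slots
  set Nk : I → ℝ := fun k => clsSum (cw W) k (fun _ => 1) with hNk
  set H : I → ℝ := fun k => agg (L.erase k) (dbl W k) ∅ with hH
  have hMk : ∀ k ∈ L, (L.erase k).Nodup ∧ a ∉ L.erase k ∧ e ∉ L.erase k ∧ k ∉ L.erase k ∧
      (L.erase k).length + 2 = n := by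
    intro k hk
    refine ⟨hL.erase k, fun h => haL (List.mem_of_mem_erase h),
      fun h => heL (List.mem_of_mem_erase h), hL.not_mem_erase, ?_⟩
    have := List.length_pos_of_mem hk
    rw [List.length_erase_of_mem hk]; omega
  have cK : ∀ k ∈ L, Nk k = ∑ u, ∑ u', agg (L.erase k) W {(a, u), (e, u')} := by
    intro k hk
    obtain ⟨h1, h2, h3, -, -⟩ := hMk k hk
    have hnd : (e :: L.erase k).Nodup := List.nodup_cons.2 ⟨h3, h1⟩
    have := clsSum_agg W W k a (e :: L.erase k) hnd (by
      simp only [List.mem_cons, not_or]; exact ⟨hae, h2⟩) (by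
      ext i
      have := (hmem k).1 hk
      simp only [List.toFinset_cons, mem_insert, List.mem_toFinset, hL.mem_erase_iff, hmem,
        mem_erase, mem_univ, and_true]
      by_cases hia : i = a
      · simp [hia, this.2.symm]
      · by_cases hie : i = e
        · simp [hie, this.1.symm]
        · simp [hia, hie]) (fun _ => 1) (fun _ => 1) fun U _ => by ring
    simp only [hNk, this, one_mul, agg]
    exact sum_congr rfl fun u _ => sum_congr rfl fun u' _ => by rw [pair_comm]
  have hNk0 : ∀ k ∈ L, 0 < Nk k := by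
    intro k hk
    obtain ⟨h1, h2, h3, -, h5⟩ := hMk k hk
    rw [cK k hk]
    refine sum_pos (fun u _ => sum_pos (fun u' _ => agg_pos n W hpos _ h1 _ ?_ ?_) univ_nonempty)
      univ_nonempty
    · intro y hy
      simp only [mem_insert, mem_singleton] at hy
      rcases hy with rfl | rfl
      · exact h2
      · exact h3
    · rw [card_pair (by simp [hae])]; omega
  have hH0 : ∀ k ∈ L, 0 ≤ H k := by
    intro k hk
    obtain ⟨h1, -, -, h4, h5⟩ := hMk k hk
    simp only [hH, agg_dbl]
    refine sum_nonneg fun x _ => sum_nonneg fun x' _ => ?_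
    split_ifs with hxx
    · exact le_rfl
    · refine (agg_pos n W hpos _ h1 _ ?_ ?_).le
      · intro y hy
        simp only [mem_insert, notMem_empty, or_false] at hy
        rcases hy with rfl | rfl <;> exact h4
      · rw [card_insert_of_notMem (by simpa using hxx)]; simp; omega
  have hHle : ∀ k ∈ L, H k * Nk k ≤ 6 * (NA * NE) := by
    intro k hk
    obtain ⟨h1, h2, h3, h4, h5⟩ := hMk k hk
    have hk' := (hmem k).1 hk
    have hperm : ∀ A, agg (k :: L.erase k) W A = agg L W A := fun A =>
      (agg_perm (List.perm_cons_erase hk) W A).symm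
    rw [cK k hk, mul_sum, hNA, hNE, mul_comm (∑ u, Na u), sum_mul_sum, mul_sum]
    refine sum_le_sum fun u _ => ?_
    rw [mul_sum, mul_sum]
    refine sum_le_sum fun u' _ => ?_
    have := dbl_le n W hpos hA a e k hae hk'.2.symm hk'.1.symm _ h1 h2 h3 h4 h5 u u'
    rw [hperm, hperm] at this
    simpa [hNa, hNe, mul_comm] using this
  have hD : ∑ u, ∑ u', agg L (starD W s f) {(a, u), (e, u')} = dirMin (cw W) s F := by
    have hnd : (e :: a :: L).Nodup := by
      simp only [List.nodup_cons, List.mem_cons, not_or]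
      exact ⟨⟨hae.symm, heL⟩, haL, hL⟩
    have hun : (e :: a :: L).toFinset = univ := by
      ext i
      simp only [List.toFinset_cons, mem_insert, List.mem_toFinset, hmem, mem_univ, iff_true]
      tauto
    have h1 := sumOn_agg (e :: a :: L) hnd (starD W s f) ∅
    rw [hun] at h1
    rw [sum_comm]
    change agg (e :: a :: L) (starD W s f) ∅ = _
    rw [← h1]
    unfold sumOn dirMin
    rw [mul_sum]
    refine sum_congr rfl fun U _ => ?_
    rw [if_pos (by simp)]
    simp only [empty_union]
    rw [starD_gset W s f F hf]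
  -- the flow inequality at each root
  have root : ∀ u u' : Fin 3,
      2 * (lam * φ u' * Ne u / NE * A' u' - lam * φ u' * Na u' / NE * E' u)
        ≤ lam ^ 2 * C ^ 2 * (Ne u / NE * Na u' / s a + Na u' / NE * (NA / NE) * Ne u / s e
            + ∑ k ∈ L.toFinset, Ne u / NE * (Na u' / NE) * (H k / s k))
          + agg L (starD W s f) {(a, u), (e, u')} := by
    intro u u'
    have hne : ((a, u) : I × Fin 3) ≠ (e, u') := by simp [hae]
    have e1 : ({(a, u), (e, u')} : Finset (I × Fin 3)).erase (a, u) = {(e, u')} :=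
      erase_insert (by simpa using hne)
    have e2 : ({(a, u), (e, u')} : Finset (I × Fin 3)).erase (e, u') = {(a, u)} := by
      rw [pair_comm]; exact erase_insert (by simpa using hne.symm)
    let μ : I × Fin 3 → ℝ := fun y =>
      if y.1 = a then lam * φ u' * Ne u / NE else -(lam * φ u' * Na u' / NE)
    have m1 : μ (a, u) = lam * φ u' * Ne u / NE := if_pos rfl
    have m2 : μ (e, u') = -(lam * φ u' * Na u' / NE) := if_neg hae.symm
    have h := flow_ind n W hpos hA s hs f L hL {(a, u), (e, u')} (by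
      intro y hy
      simp only [mem_insert, mem_singleton] at hy
      rcases hy with rfl | rfl
      · exact haL
      · exact heL) (by rw [card_pair hne]; omega) μ (by
      rw [sum_pair hne, e1, e2, m1, m2]
      change _ * Na u' + _ * Ne u = 0
      ring)
    have hq : ∀ k ∈ L.toFinset, 1 / (2 * s k) * QQ W k (L.erase k) {(a, u), (e, u')} μ
        = lam ^ 2 * φ u' ^ 2 * (Ne u / NE * (Na u' / NE) * (H k / s k)) := by
      intro k _
      simp only [QQ, bf, sum_pair hne, mat, if_true, if_neg hne, if_neg hne.symm, e1, e2,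
        erase_singleton, m1, m2]
      change 1 / (2 * s k) * -(_ + _ * H k * _ + (_ * H k * _ + _)) = _
      have := (hs k).ne'
      field_simp
      ring
    rw [sum_pair hne, sum_pair hne, e1, e2, m1, m2, sum_congr rfl hq, ← mul_sum] at h
    change 2 * (_ * A' u' + _ * E' u) ≤ _ * Na u' / s a + _ * Ne u / s e + _ + _ at h
    have hφ2 : φ u' ^ 2 ≤ C ^ 2 := sq_le_sq' (abs_le.1 (hφ u')).1 (abs_le.1 (hφ u')).2
    have r1 : Ne u / NE ≤ 1 :=
      (div_le_one hNE0).2 (single_le_sum (fun z _ => (hNe0 z).le) (mem_univ u))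
    have r2 : Na u' / NE ≤ NA / NE :=
      div_le_div_of_nonneg_right (single_le_sum (fun z _ => (hNa0 z).le) (mem_univ u')) hNE0.le
    have p1 := hNe0 u
    have p2 := hNa0 u'
    have p3 := hs a
    have p4 := hs e
    have hS0 : 0 ≤ ∑ k ∈ L.toFinset, Ne u / NE * (Na u' / NE) * (H k / s k) :=
      sum_nonneg fun k hk => by
        have := hH0 k (List.mem_toFinset.1 hk); have := hs k; positivity
    have t1 : (lam * φ u' * Ne u / NE) ^ 2 * Na u' / s a
        ≤ lam ^ 2 * C ^ 2 * (Ne u / NE * Na u' / s a) := by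
      have : (lam * φ u' * Ne u / NE) ^ 2 * Na u' / s a
          = lam ^ 2 * (φ u' ^ 2 * (Ne u / NE)) * (Ne u / NE * Na u' / s a) := by ring
      rw [this]
      gcongr
      calc φ u' ^ 2 * (Ne u / NE) ≤ φ u' ^ 2 * 1 := by gcongr
        _ ≤ C ^ 2 := by linarith
    have t2 : (-(lam * φ u' * Na u' / NE)) ^ 2 * Ne u / s e
        ≤ lam ^ 2 * C ^ 2 * (Na u' / NE * (NA / NE) * Ne u / s e) := by
      have : (-(lam * φ u' * Na u' / NE)) ^ 2 * Ne u / s e
          = lam ^ 2 * φ u' ^ 2 * (Na u' / NE * (Na u' / NE) * Ne u / s e) := by ring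
      rw [this]
      gcongr
    have t3 : lam ^ 2 * φ u' ^ 2 * ∑ k ∈ L.toFinset, Ne u / NE * (Na u' / NE) * (H k / s k)
        ≤ lam ^ 2 * C ^ 2 * ∑ k ∈ L.toFinset, Ne u / NE * (Na u' / NE) * (H k / s k) := by
      gcongr
    nlinarith
  have total := sum_le_sum fun u (_ : u ∈ (univ : Finset (Fin 3))) =>
    sum_le_sum fun u' (_ : u' ∈ (univ : Finset (Fin 3))) => root u u'
  have eL : ∑ u, ∑ u', 2 * (lam * φ u' * Ne u / NE * A' u' - lam * φ u' * Na u' / NE * E' u)
      = 2 * lam * (∑ u, φ u * A' u - (∑ u, φ u * Na u) / NE * ∑ u, E' u) := by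
    have hne := hNE0.ne'
    have : NE = Ne 0 + Ne 1 + Ne 2 := by rw [hNE, Fin.sum_univ_three]
    simp only [Fin.sum_univ_three]
    field_simp
    rw [this]
    ring
  have eR : ∑ u, ∑ u', lam ^ 2 * C ^ 2 * (Ne u / NE * Na u' / s a
        + Na u' / NE * (NA / NE) * Ne u / s e
        + ∑ k ∈ L.toFinset, Ne u / NE * (Na u' / NE) * (H k / s k))
      = lam ^ 2 * C ^ 2 * (NA / s a + NA ^ 2 / (s e * NE)
        + NA / NE * ∑ k ∈ L.toFinset, H k / s k) := by
    have hne := hNE0.ne'
    have h1 : NE = Ne 0 + Ne 1 + Ne 2 := by rw [hNE, Fin.sum_univ_three]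
    have h2 : NA = Na 0 + Na 1 + Na 2 := by rw [hNA, Fin.sum_univ_three]
    have := (hs a).ne'
    have := (hs e).ne'
    simp only [← mul_sum]
    generalize ∑ k ∈ L.toFinset, H k / s k = Y
    simp only [Fin.sum_univ_three]
    congr 1
    field_simp
    rw [h1, h2]
    ring
  have eS : ∀ g h : Fin 3 → Fin 3 → ℝ, ∑ u, ∑ u', (g u u' + h u u')
      = ∑ u, ∑ u', g u u' + ∑ u, ∑ u', h u u' := fun g h => by simp only [sum_add_distrib]
  rw [eS, hD, eL, eR] at total
  rw [c1, c2, c3, c4, c5]
  refine total.trans (add_le_add ?_ le_rfl)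
  have hsplit : ∑ j, 1 / (s j * Nk j)
      = 1 / (s a * NA) + (1 / (s e * NE) + ∑ k ∈ L.toFinset, 1 / (s k * Nk k)) := by
    rw [← add_sum_erase univ _ (mem_univ a), ← add_sum_erase (univ.erase a) _
      (show e ∈ univ.erase a by simp [hae.symm]), hLF]
    simp only [hNk, c3, c4]
  have hk : NA / NE * ∑ k ∈ L.toFinset, H k / s k
      ≤ 6 * NA ^ 2 * ∑ k ∈ L.toFinset, 1 / (s k * Nk k) := by
    rw [mul_sum, mul_sum]
    refine sum_le_sum fun k hk => ?_
    have hk' := List.mem_toFinset.1 hk
    have q1 := hHle k hk'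
    have q2 := hNk0 k hk'
    have q3 := hs k
    rw [div_mul_div_comm, mul_one_div, div_le_div_iff₀ (by positivity) (by positivity)]
    have := mul_le_mul_of_nonneg_left q1 (show 0 ≤ NA * s k by positivity)
    nlinarith
  have p3 := hs a
  have p4 := hs e
  have g1 : NA / s a ≤ 6 * NA ^ 2 * (1 / (s a * NA)) := by
    have : 6 * NA ^ 2 * (1 / (s a * NA)) = 6 * (NA / s a) := by field_simp
    have h0 : 0 ≤ NA / s a := by positivity
    linarith
  have g2 : NA ^ 2 / (s e * NE) ≤ 6 * NA ^ 2 * (1 / (s e * NE)) := by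
    have : 6 * NA ^ 2 * (1 / (s e * NE)) = 6 * (NA ^ 2 / (s e * NE)) := by ring
    have h0 : 0 ≤ NA ^ 2 / (s e * NE) := by positivity
    linarith
  change _ ≤ lam ^ 2 * (6 * C ^ 2 * NA ^ 2 * ∑ j, 1 / (s j * Nk j))
  rw [hsplit]
  have : lam ^ 2 * (6 * C ^ 2 * NA ^ 2 * (1 / (s a * NA)
      + (1 / (s e * NE) + ∑ k ∈ L.toFinset, 1 / (s k * Nk k))))
      = lam ^ 2 * C ^ 2 * (6 * NA ^ 2 * (1 / (s a * NA)) + 6 * NA ^ 2 * (1 / (s e * NE))
        + 6 * NA ^ 2 * ∑ k ∈ L.toFinset, 1 / (s k * Nk k)) := by ring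
  rw [this]
  exact mul_le_mul_of_nonneg_left (by linarith) (by positivity)

end Vale.Agent.P317
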