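import Vale.Agent.P317.Agg

/-! The triangular flow: inductive energy bound on finsets. -/

namespace Vale.Agent.P317

open Finset

section forms
variable {G : Type} [DecidableEq G]

omit [DecidableEq G] in
theorem bf_congr (T : Finset G) (A A' : G → G → ℝ) (u u' v v' : G → ℝ)
    (hA : ∀ y ∈ T, ∀ y' ∈ T, A y y' = A' y y') (hu : ∀ y ∈ T, u y = u' y)
    (hv : ∀ y ∈ T, v y = v' y) : bf T A u v = bf T A' u' v' := by
  unfold bf
  refine sum_congr rfl fun y hy => sum_congr rfl fun y' hy' => ?_
  rw [hA y hy y' hy', hu y hy, hv y' hy']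

theorem bf_mat_insert (V : Finset G → ℝ) (R : Finset G) (g : G) (hg : g ∉ R) (ν : G → ℝ) :
    bf (insert g R) (mat V (insert g R)) ν ν
      = bf R (mat (fun S => V (insert g S)) R) ν ν + 2 * ν g * ∑ y ∈ R, ν y * V (R.erase y) := by
  have hne : ∀ y ∈ R, y ≠ g := fun y hy h => hg (h ▸ hy)
  have h1 : ∀ y ∈ R, mat V (insert g R) g y = V (R.erase y) := by
    intro y hy
    unfold mat
    rw [if_neg (hne y hy).symm, erase_insert hg]
  have h2 : ∀ y ∈ R, ∀ y' ∈ R,
      mat V (insert g R) y y' = mat (fun S => V (insert g S)) R y y' := by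
    intro y hy y' hy'
    unfold mat
    split_ifs
    · rfl
    · rw [erase_insert_of_ne (hne y hy).symm, erase_insert_of_ne (hne y' hy').symm]
  unfold bf
  rw [sum_insert hg, sum_insert hg]
  have h0 : mat V (insert g R) g g = 0 := by simp [mat]
  have e1 : ∑ y' ∈ R, ν g * mat V (insert g R) g y' * ν y' = ν g * ∑ y ∈ R, ν y * V (R.erase y) := by
    rw [mul_sum]
    exact sum_congr rfl fun y hy => by rw [h1 y hy]; ring
  have e2 : ∑ y ∈ R, ∑ y' ∈ insert g R, ν y * mat V (insert g R) y y' * ν y'
      = ν g * ∑ y ∈ R, ν y * V (R.erase y)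
        + ∑ y ∈ R, ∑ y' ∈ R, ν y * mat (fun S => V (insert g S)) R y y' * ν y' := by
    rw [mul_sum, ← sum_add_distrib]
    refine sum_congr rfl fun y hy => ?_
    rw [sum_insert hg, mat_symm, h1 y hy]
    congr 1
    · ring
    · exact sum_congr rfl fun y' hy' => by rw [h2 y hy y' hy']
  rw [h0, e1, e2]
  ring

theorem bf_mat_sum {ι : Type} (s : Finset ι) (V : ι → Finset G → ℝ) (R : Finset G) (ν : G → ℝ) :
    bf R (mat (fun S => ∑ i ∈ s, V i S) R) ν ν = ∑ i ∈ s, bf R (mat (V i) R) ν ν := by
  unfold bf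
  symm
  rw [sum_comm]
  refine sum_congr rfl fun y _ => ?_
  rw [sum_comm]
  refine sum_congr rfl fun y' _ => ?_
  unfold mat
  split_ifs
  · simp
  · rw [mul_sum, sum_mul]

omit [DecidableEq G] in
/-- Energy inequality on one star. -/
theorem star_ineq (T : Finset G) (a p f : G → ℝ) (hp : ∀ y ∈ T, 0 < p y)
    (ha : ∑ y ∈ T, a y = 0) :
    2 * ∑ y ∈ T, a y * f y ≤ ∑ y ∈ T, a y ^ 2 / p y
      + (1 / 2) * ∑ y ∈ T, ∑ y' ∈ T, min (p y) (p y') * (f y - f y') ^ 2 := by
  rcases T.eq_empty_or_nonempty with rfl | hT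
  · simp
  have hP : 0 < ∑ y ∈ T, p y := sum_pos hp hT
  set P := ∑ y ∈ T, p y with hPdef
  set c := (∑ y ∈ T, p y * f y) / P with hc
  have h1 : ∑ y ∈ T, a y * f y = ∑ y ∈ T, a y * (f y - c) := by
    simp only [mul_sub, sum_sub_distrib, ← sum_mul, ha, zero_mul, sub_zero]
  have h2 : 2 * ∑ y ∈ T, a y * (f y - c)
      ≤ ∑ y ∈ T, a y ^ 2 / p y + ∑ y ∈ T, p y * (f y - c) ^ 2 := by
    rw [mul_sum, ← sum_add_distrib]
    refine sum_le_sum fun y hy => ?_
    have hpy := hp y hy
    have : a y ^ 2 / p y + p y * (f y - c) ^ 2 - 2 * (a y * (f y - c))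
        = (a y - p y * (f y - c)) ^ 2 / p y := by field_simp; ring
    have h' : 0 ≤ (a y - p y * (f y - c)) ^ 2 / p y := by positivity
    linarith
  have hcen : ∑ y ∈ T, p y * (f y - c) = 0 := by
    simp only [mul_sub, sum_sub_distrib, ← sum_mul]
    rw [hc, ← hPdef]; field_simp; ring
  have h3 : ∑ y ∈ T, ∑ y' ∈ T, p y * p y' / P * (f y - f y') ^ 2
      = 2 * ∑ y ∈ T, p y * (f y - c) ^ 2 := by
    have : ∀ y y', p y * p y' / P * (f y - f y') ^ 2
        = (p y * (f y - c) ^ 2) * p y' / P + p y * (p y' * (f y' - c) ^ 2) / P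
          - 2 / P * ((p y * (f y - c)) * (p y' * (f y' - c))) := by
      intro y y'; ring
    simp only [this, sum_sub_distrib, sum_add_distrib, ← sum_div, ← mul_sum, ← sum_mul, hcen]
    rw [← hPdef]; field_simp; ring
  have h4 : ∑ y ∈ T, ∑ y' ∈ T, p y * p y' / P * (f y - f y') ^ 2
      ≤ ∑ y ∈ T, ∑ y' ∈ T, min (p y) (p y') * (f y - f y') ^ 2 := by
    refine sum_le_sum fun y hy => sum_le_sum fun y' hy' => ?_
    refine mul_le_mul_of_nonneg_right ?_ (sq_nonneg _)
    have l1 : p y ≤ P := single_le_sum (fun z hz => (hp z hz).le) hy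
    have l2 : p y' ≤ P := single_le_sum (fun z hz => (hp z hz).le) hy'
    have := hp y hy; have := hp y' hy'
    refine le_min ?_ ?_ <;> rw [div_le_iff₀ hP] <;> nlinarith
  rw [h1]
  linarith

end forms

variable {I : Type} [DecidableEq I]

theorem agg_insert (L : List I) (f : Finset (I × Fin 3) → ℝ) (g : I × Fin 3)
    (A : Finset (I × Fin 3)) : agg L f (insert g A) = agg L (fun S => f (insert g S)) A := by
  induction L generalizing A with
  | nil => rfl
  | cons l L ih =>
    simp only [agg]
    exact sum_congr rfl fun x _ => by rw [Finset.insert_comm, ih]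

theorem agg_sum {ι : Type} (s : Finset ι) (L : List I) (f : ι → Finset (I × Fin 3) → ℝ)
    (A : Finset (I × Fin 3)) :
    agg L (fun S => ∑ i ∈ s, f i S) A = ∑ i ∈ s, agg L (f i) A := by
  induction L generalizing A with
  | nil => rfl
  | cons l L ih =>
    simp only [agg, ih]
    rw [sum_comm]

theorem agg_zero (L : List I) (A : Finset (I × Fin 3)) : agg L (fun _ => 0) A = 0 := by
  induction L generalizing A with
  | nil => rfl
  | cons l L ih => simp only [agg, ih, sum_const_zero]

theorem agg_perm {L L' : List I} (h : L.Perm L') (f : Finset (I × Fin 3) → ℝ)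
    (A : Finset (I × Fin 3)) : agg L f A = agg L' f A := by
  induction h generalizing A with
  | nil => rfl
  | cons x _ ih => simp only [agg, ih]
  | swap x y l =>
    simp only [agg]
    rw [sum_comm]
    exact sum_congr rfl fun _ _ => sum_congr rfl fun _ _ => by rw [Finset.insert_comm]
  | trans _ _ ih1 ih2 => rw [ih1, ih2]

theorem agg_pos (n : ℕ) (W : Finset (I × Fin 3) → ℝ)
    (hpos : ∀ S : Finset (I × Fin 3), S.card = n → 0 < W S) (L : List I) (hL : L.Nodup)
    (A : Finset (I × Fin 3)) (hA : ∀ y ∈ A, y.1 ∉ L) (hc : A.card + L.length = n) :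
    0 < agg L W A := by
  induction L generalizing A with
  | nil => exact hpos A (by simpa using hc)
  | cons l L ih =>
    simp only [agg]
    rw [List.nodup_cons] at hL
    refine sum_pos (fun x _ => ih hL.2 _ ?_ ?_) univ_nonempty
    · intro y hy
      rcases mem_insert.1 hy with rfl | hy
      · exact hL.1
      · exact fun h => hA y hy (List.mem_cons_of_mem _ h)
    · rw [card_insert_of_notMem fun h => hA _ h (List.mem_cons_self ..)]
      simp only [List.length_cons] at hc
      omega

/-- Weight of two distinct elements added in slot `k`. -/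
def dbl (W : Finset (I × Fin 3) → ℝ) (k : I) (A : Finset (I × Fin 3)) : ℝ :=
  ∑ x : Fin 3, ∑ x' : Fin 3, if x = x' then 0 else W (insert (k, x) (insert (k, x') A))

theorem agg_dbl (L : List I) (W : Finset (I × Fin 3) → ℝ) (k : I) (A : Finset (I × Fin 3)) :
    agg L (dbl W k) A = ∑ x : Fin 3, ∑ x' : Fin 3,
      if x = x' then 0 else agg L W (insert (k, x) (insert (k, x') A)) := by
  unfold dbl
  rw [agg_sum]
  refine sum_congr rfl fun x _ => ?_
  rw [agg_sum]
  refine sum_congr rfl fun x' _ => ?_
  split_ifs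
  · exact agg_zero L A
  · rw [agg_insert, agg_insert]

/-- The conserved quadratic quantity for slot `k`. -/
def QQ (W : Finset (I × Fin 3) → ℝ) (k : I) (L : List I) (R : Finset (I × Fin 3))
    (μ : I × Fin 3 → ℝ) : ℝ :=
  -bf R (mat (agg L (dbl W k)) R) μ μ

/-- Star Dirichlet form of a full transversal. -/
noncomputable def starD (W : Finset (I × Fin 3) → ℝ) (s : I → ℝ) (f : Finset (I × Fin 3) → ℝ)
    (U : Finset (I × Fin 3)) : ℝ :=
  (1 / 2) * ∑ y ∈ U, ∑ y' ∈ U, min (s y.1 * W (U.erase y)) (s y'.1 * W (U.erase y'))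
    * (f (U.erase y) - f (U.erase y')) ^ 2

/-- Two new elements of slot `k`: the three-vector inequality. -/
theorem pair_ineq (n : ℕ) (W : Finset (I × Fin 3) → ℝ)
    (hpos : ∀ S : Finset (I × Fin 3), S.card = n → 0 < W S) (hA : AggHyp n W)
    (L : List I) (hL : L.Nodup) (R : Finset (I × Fin 3)) (hR : ∀ y ∈ R, y.1 ∉ L)
    (hc : R.card + L.length = n) (g g' : I × Fin 3) (hg : g ∉ R) (hg' : g' ∉ R) (hne : g ≠ g')
    (hgL : g.1 ∉ L) (hgL' : g'.1 ∉ L) (μ : I × Fin 3 → ℝ) :
    agg L W R * bf R (mat (fun S => agg L W (insert g (insert g' S))) R) μ μ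
      ≤ 2 * (∑ y ∈ R, μ y * agg L W (insert g' (R.erase y)))
          * (∑ y ∈ R, μ y * agg L W (insert g (R.erase y))) := by
  have hg2 : g ∉ insert g' R := by simp [hne, hg]
  have hH : Hyp (insert g (insert g' R)) (mat (agg L W) (insert g (insert g' R))) := by
    refine hA L _ hL ?_ ?_
    · intro y hy
      rcases mem_insert.1 hy with rfl | hy
      · exact hgL
      rcases mem_insert.1 hy with rfl | hy
      · exact hgL'
      · exact hR y hy
    · rw [card_insert_of_notMem hg2, card_insert_of_notMem hg']; omega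
  have hω : mat (agg L W) (insert g (insert g' R)) g g' = agg L W R := by
    unfold mat
    rw [if_neg hne, erase_insert hg2, erase_insert hg']
  let ν : I × Fin 3 → ℝ := fun y => if y ∈ R then μ y else 0
  have hν : ∀ y ∈ R, ν y = μ y := fun y hy => if_pos hy
  have hνg : ν g = 0 := if_neg hg
  have hνg' : ν g' = 0 := if_neg hg'
  have key := hyp_three _ _ (mat_symm _ _) hH g g' (mem_insert_self _ _)
    (mem_insert_of_mem (mem_insert_self _ _)) (by simp [mat]) (by simp [mat])
    (by rw [hω]; exact agg_pos n W hpos L hL R hR hc) ν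
  rw [hω, bf_mat_insert _ _ _ hg2, bf_mat_insert _ _ _ hg', hνg, hνg'] at key
  have hne1 : ∀ y ∈ R, y ≠ g := fun y hy h => hg (h ▸ hy)
  have hne2 : ∀ y ∈ R, y ≠ g' := fun y hy h => hg' (h ▸ hy)
  have e1 : ∑ y ∈ insert g (insert g' R), ν y * mat (agg L W) (insert g (insert g' R)) y g
      = ∑ y ∈ R, μ y * agg L W (insert g' (R.erase y)) := by
    rw [sum_insert hg2, sum_insert hg', hνg, hνg', zero_mul, zero_mul, zero_add, zero_add]
    refine sum_congr rfl fun y hy => ?_
    rw [hν y hy, mat_symm]
    unfold mat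
    rw [if_neg (hne1 y hy).symm, erase_insert hg2, erase_insert_of_ne (hne2 y hy).symm]
  have e2 : ∑ y ∈ insert g (insert g' R), ν y * mat (agg L W) (insert g (insert g' R)) y g'
      = ∑ y ∈ R, μ y * agg L W (insert g (R.erase y)) := by
    rw [sum_insert hg2, sum_insert hg', hνg, hνg', zero_mul, zero_mul, zero_add, zero_add]
    refine sum_congr rfl fun y hy => ?_
    rw [hν y hy, mat_symm]
    unfold mat
    rw [if_neg (hne2 y hy).symm, erase_insert_of_ne hne, erase_insert hg',
      erase_insert_of_ne (hne1 y hy).symm]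
  rw [e1, e2, bf_congr R _ (mat (fun S => agg L W (insert g (insert g' S))) R) ν μ ν μ
    (fun _ _ _ _ => rfl) hν hν] at key
  simpa using key

theorem flow_ind (n : ℕ) (W : Finset (I × Fin 3) → ℝ)
    (hpos : ∀ S : Finset (I × Fin 3), S.card = n → 0 < W S) (hA : AggHyp n W)
    (s : I → ℝ) (hs : ∀ j, 0 < s j) (f : Finset (I × Fin 3) → ℝ) (L : List I) (hL : L.Nodup)
    (R : Finset (I × Fin 3)) (hR : ∀ y ∈ R, y.1 ∉ L) (hc : R.card + L.length = n + 1)
    (μ : I × Fin 3 → ℝ) (hK : ∑ y ∈ R, μ y * agg L W (R.erase y) = 0) :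
    2 * ∑ y ∈ R, μ y * agg L (fun S => W S * f S) (R.erase y)
      ≤ ∑ y ∈ R, μ y ^ 2 * agg L W (R.erase y) / s y.1
        + ∑ k ∈ L.toFinset, 1 / (2 * s k) * QQ W k (L.erase k) R μ
        + agg L (starD W s f) R := by
  induction L generalizing R μ with
  | nil =>
    simp only [agg, List.toFinset_nil, sum_empty, add_zero] at hK ⊢
    have hW : ∀ y ∈ R, 0 < W (R.erase y) := fun y hy => hpos _ (by
      rw [card_erase_of_mem hy]; simp only [List.length_nil] at hc; omega)
    have := star_ineq R (fun y => μ y * W (R.erase y)) (fun y => s y.1 * W (R.erase y))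
      (fun y => f (R.erase y)) (fun y hy => mul_pos (hs _) (hW y hy)) hK
    unfold starD
    refine le_trans (le_of_eq ?_) (this.trans (le_of_eq ?_))
    · congr 1
      exact sum_congr rfl fun y _ => by ring
    · congr 1
      refine sum_congr rfl fun y hy => ?_
      have := (hW y hy).ne'
      have := (hs y.1).ne'
      field_simp
  | cons k L ih =>
    rw [List.nodup_cons] at hL
    simp only [List.length_cons] at hc
    have hRL : ∀ y ∈ R, y.1 ∉ L := fun y hy h => hR y hy (List.mem_cons_of_mem _ h)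
    have hkR : ∀ x : Fin 3, (k, x) ∉ R := fun x h => hR _ h (List.mem_cons_self ..)
    have hne : ∀ x : Fin 3, ∀ y ∈ R, y ≠ (k, x) := fun x y hy h => hkR x (h ▸ hy)
    have hω : 0 < agg L W R := agg_pos n W hpos L hL.2 R hRL (by omega)
    set ω := agg L W R with hωdef
    let b : Fin 3 → ℝ := fun x => ∑ y ∈ R, μ y * agg L W (insert (k, x) (R.erase y))
    let m : Fin 3 → ℝ := fun x => -b x / ω
    have hb : ∑ x, b x = 0 := by
      rw [← hK, sum_comm]
      exact sum_congr rfl fun y _ => by rw [agg, mul_sum]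
    have hm : ∑ x, m x = 0 := by
      simp only [m, ← sum_div, sum_neg_distrib, hb, neg_zero, zero_div]
    have hbm : ∀ x, b x = -(ω * m x) := fun x => by simp only [m]; field_simp
    let ν : Fin 3 → I × Fin 3 → ℝ := fun x => Function.update μ (k, x) (m x)
    have hν : ∀ x, ∀ y ∈ R, ν x y = μ y := fun x y hy => Function.update_of_ne (hne x y hy) _ _
    have hνk : ∀ x, ν x (k, x) = m x := fun x => Function.update_self _ _ _
    have expand : ∀ (x : Fin 3) (V : Finset (I × Fin 3) → ℝ) (φ : ℝ → I → ℝ),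
        ∑ y ∈ insert (k, x) R, φ (ν x y) y.1 * V ((insert (k, x) R).erase y)
          = φ (m x) k * V R + ∑ y ∈ R, φ (μ y) y.1 * V (insert (k, x) (R.erase y)) := by
      intro x V φ
      rw [sum_insert (hkR x), erase_insert (hkR x), hνk]
      congr 1
      refine sum_congr rfl fun y hy => ?_
      rw [hν x y hy, erase_insert_of_ne (hne x y hy).symm]
    have IH : ∀ x : Fin 3,
        2 * (m x * agg L (fun S => W S * f S) R
          + ∑ y ∈ R, μ y * agg L (fun S => W S * f S) (insert (k, x) (R.erase y)))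
        ≤ (m x ^ 2 / s k * ω
            + ∑ y ∈ R, μ y ^ 2 / s y.1 * agg L W (insert (k, x) (R.erase y)))
          + ∑ k' ∈ L.toFinset, 1 / (2 * s k') * QQ W k' (L.erase k') (insert (k, x) R) (ν x)
          + agg L (starD W s f) (insert (k, x) R) := by
      intro x
      have h := ih hL.2 (insert (k, x) R) (by
        intro y hy
        rcases mem_insert.1 hy with rfl | hy
        · exact hL.1
        · exact hRL y hy) (by rw [card_insert_of_notMem (hkR x)]; omega) (ν x) (by
        have := expand x (agg L W) fun r _ => r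
        rw [this]
        have := hbm x
        simp only [b] at this
        rw [this]; ring)
      have e1 := expand x (agg L fun S => W S * f S) fun r _ => r
      have e2 := expand x (agg L W) fun r j => r ^ 2 / s j
      rw [e1] at h
      rw [← e2]
      refine h.trans (le_of_eq ?_)
      congr 2
      exact sum_congr rfl fun y _ => by ring
    have hsum := sum_le_sum fun x (_ : x ∈ (univ : Finset (Fin 3))) => IH x
    -- the left side
    have eL : ∑ x : Fin 3, 2 * (m x * agg L (fun S => W S * f S) R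
          + ∑ y ∈ R, μ y * agg L (fun S => W S * f S) (insert (k, x) (R.erase y)))
        = 2 * ∑ y ∈ R, μ y * agg (k :: L) (fun S => W S * f S) (R.erase y) := by
      rw [← mul_sum, sum_add_distrib, ← sum_mul, hm, zero_mul, zero_add, sum_comm]
      congr 1
      exact sum_congr rfl fun y _ => by rw [agg, mul_sum]
    have eE : ∑ x : Fin 3, ∑ y ∈ R, μ y ^ 2 / s y.1 * agg L W (insert (k, x) (R.erase y))
        = ∑ y ∈ R, μ y ^ 2 * agg (k :: L) W (R.erase y) / s y.1 := by
      rw [sum_comm]
      refine sum_congr rfl fun y _ => ?_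
      rw [agg, ← mul_sum]; ring
    have eQ : ∑ x : Fin 3, ∑ k' ∈ L.toFinset,
          1 / (2 * s k') * QQ W k' (L.erase k') (insert (k, x) R) (ν x)
        = ∑ k' ∈ L.toFinset, 1 / (2 * s k') * QQ W k' ((k :: L).erase k') R μ := by
      rw [sum_comm]
      refine sum_congr rfl fun k' hk' => ?_
      have hkk : k ≠ k' := fun h => hL.1 (h ▸ List.mem_toFinset.1 hk')
      rw [← mul_sum, List.erase_cons_tail (by simpa using hkk)]
      congr 1
      unfold QQ
      have : ∀ x : Fin 3, bf (insert (k, x) R)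
          (mat (agg (L.erase k') (dbl W k')) (insert (k, x) R)) (ν x) (ν x)
          = bf R (mat (fun S => agg (L.erase k') (dbl W k') (insert (k, x) S)) R) μ μ
            + m x * (2 * ∑ y ∈ R, μ y * agg (L.erase k') (dbl W k') (R.erase y)) := by
        intro x
        rw [bf_mat_insert _ _ _ (hkR x), hνk,
          bf_congr R _ _ (ν x) μ (ν x) μ (fun _ _ _ _ => rfl) (hν x) (hν x),
          sum_congr rfl fun y hy => by rw [hν x y hy]]
        ring
      simp only [this, sum_neg_distrib, sum_add_distrib, ← sum_mul, hm, zero_mul, add_zero]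
      rw [← bf_mat_sum]
      rfl
    have eN : ∑ x : Fin 3, m x ^ 2 / s k * ω ≤ 1 / (2 * s k) * QQ W k L R μ := by
      have hp : ∀ x x' : Fin 3, x ≠ x' →
          bf R (mat (fun S => agg L W (insert (k, x) (insert (k, x') S))) R) μ μ
            ≤ 2 * ω * (m x * m x') := by
        intro x x' hxx
        have := pair_ineq n W hpos hA L hL.2 R hRL (by omega) (k, x) (k, x') (hkR x) (hkR x')
          (by simpa using hxx) hL.1 hL.1 μ
        change ω * _ ≤ 2 * b x' * b x at this
        rw [hbm, hbm] at this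
        refine le_of_mul_le_mul_left (this.trans (le_of_eq ?_)) hω
        ring
      have hQ : QQ W k L R μ = -∑ x : Fin 3, ∑ x' : Fin 3, if x = x' then 0 else
          bf R (mat (fun S => agg L W (insert (k, x) (insert (k, x') S))) R) μ μ := by
        unfold QQ
        congr 1
        have : agg L (dbl W k) = fun S => ∑ x : Fin 3, ∑ x' : Fin 3,
            if x = x' then 0 else agg L W (insert (k, x) (insert (k, x') S)) :=
          funext fun S => agg_dbl L W k S
        rw [this, bf_mat_sum]
        refine sum_congr rfl fun x _ => ?_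
        rw [bf_mat_sum]
        refine sum_congr rfl fun x' _ => ?_
        split_ifs
        · simp [bf, mat]
        · rfl
      have h01 := hp 0 1 (by decide)
      have h02 := hp 0 2 (by decide)
      have h10 := hp 1 0 (by decide)
      have h12 := hp 1 2 (by decide)
      have h20 := hp 2 0 (by decide)
      have h21 := hp 2 1 (by decide)
      have hQ' : 2 * ω * (m 0 ^ 2 + m 1 ^ 2 + m 2 ^ 2) ≤ QQ W k L R μ := by
        rw [hQ]
        simp only [Fin.sum_univ_three] at hm ⊢
        simp only [if_true, show ((0 : Fin 3) = 1) = False by decide,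
          show ((0 : Fin 3) = 2) = False by decide, show ((1 : Fin 3) = 0) = False by decide,
          show ((1 : Fin 3) = 2) = False by decide, show ((2 : Fin 3) = 0) = False by decide,
          show ((2 : Fin 3) = 1) = False by decide, if_false]
        have hsq : m 0 ^ 2 + m 1 ^ 2 + m 2 ^ 2
            = -(2 * (m 0 * m 1 + m 0 * m 2 + m 1 * m 2)) := by
          have : m 2 = -m 0 - m 1 := by linarith
          rw [this]; ring
        rw [hsq]
        nlinarith
      have hsk := hs k
      rw [Fin.sum_univ_three]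
      calc m 0 ^ 2 / s k * ω + m 1 ^ 2 / s k * ω + m 2 ^ 2 / s k * ω
          = 1 / (2 * s k) * (2 * ω * (m 0 ^ 2 + m 1 ^ 2 + m 2 ^ 2)) := by field_simp
        _ ≤ _ := mul_le_mul_of_nonneg_left hQ' (by positivity)
    rw [eL] at hsum
    simp only [sum_add_distrib] at hsum
    rw [eE, eQ] at hsum
    have hkL : k ∉ L.toFinset := fun h => hL.1 (List.mem_toFinset.1 h)
    rw [List.toFinset_cons, sum_insert hkL, List.erase_cons_head]
    have eD : agg (k :: L) (starD W s f) R
        = ∑ x : Fin 3, agg L (starD W s f) (insert (k, x) R) := rfl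
    rw [eD]
    linarith

end Vale.Agent.P317
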