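import Mathlib

/-! Hyperbolic quadratic forms and complete log-concavity in removal form. -/

namespace Vale.Agent.P317

open Finset

variable {G : Type} [DecidableEq G]

/-- Bilinear form of the matrix `A` on the index set `T`. -/
def bf (T : Finset G) (A : G → G → ℝ) (u v : G → ℝ) : ℝ :=
  ∑ y ∈ T, ∑ y' ∈ T, u y * A y y' * v y'

/-- At most one positive direction (reverse Cauchy-Schwarz). -/
def Hyp (T : Finset G) (A : G → G → ℝ) : Prop :=
  ∀ a z : G → ℝ, 0 < bf T A a a → bf T A a a * bf T A z z ≤ (bf T A a z) ^ 2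

/-- Matrix of two-element removals from `T`. -/
def mat (W : Finset G → ℝ) (T : Finset G) (y y' : G) : ℝ :=
  if y = y' then 0 else W ((T.erase y).erase y')

/-- Removal derivative in direction `v`. -/
def rem (v : G → ℝ) (W : Finset G → ℝ) (T : Finset G) : ℝ :=
  ∑ z ∈ T, v z * W (T.erase z)

/-- Iterated removal derivative. -/
def rems : List (G → ℝ) → (Finset G → ℝ) → Finset G → ℝ
  | [], W => W
  | v :: vs, W => rem v (rems vs W)

theorem mat_symm (W : Finset G → ℝ) (T : Finset G) (y y' : G) : mat W T y y' = mat W T y' y := by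
  unfold mat
  by_cases h : y = y'
  · simp [h]
  · rw [if_neg h, if_neg (Ne.symm h), Finset.erase_right_comm]

omit [DecidableEq G] in
theorem bf_comm (T : Finset G) {A : G → G → ℝ} (hsym : ∀ y y', A y y' = A y' y) (u v : G → ℝ) :
    bf T A u v = bf T A v u := by
  unfold bf
  rw [sum_comm]
  exact sum_congr rfl fun y _ => sum_congr rfl fun y' _ => by rw [hsym]; ring

omit [DecidableEq G] in
theorem bf_sub_left (T : Finset G) (A : G → G → ℝ) (u u' v : G → ℝ) (c : ℝ) :
    bf T A (fun y => u y - c * u' y) v = bf T A u v - c * bf T A u' v := by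
  unfold bf
  rw [mul_sum, ← sum_sub_distrib]
  refine sum_congr rfl fun y _ => ?_
  rw [mul_sum, ← sum_sub_distrib]
  exact sum_congr rfl fun y' _ => by ring

omit [DecidableEq G] in
theorem bf_sub_sub (T : Finset G) {A : G → G → ℝ} (hsym : ∀ y y', A y y' = A y' y)
    (u u' : G → ℝ) (c : ℝ) :
    bf T A (fun y => u y - c * u' y) (fun y => u y - c * u' y) =
      bf T A u u - 2 * c * bf T A u' u + c ^ 2 * bf T A u' u' := by
  rw [bf_sub_left, bf_comm T hsym u, bf_comm T hsym u', bf_sub_left, bf_sub_left,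
    bf_comm T hsym u u']
  ring

omit [DecidableEq G] in
theorem bf_eq_sum (T : Finset G) (A : G → G → ℝ) (u v : G → ℝ) :
    bf T A u v = ∑ y ∈ T, u y * ∑ y' ∈ T, A y y' * v y' :=
  sum_congr rfl fun y _ => by rw [mul_sum]; exact sum_congr rfl fun y' _ => by ring

omit [DecidableEq G] in
/-- Negative semidefinite on a hyperplane implies hyperbolic. -/
theorem hyp_of_nsd (T : Finset G) (A : G → G → ℝ) (hsym : ∀ y y', A y y' = A y' y)
    (l : G → ℝ) (h : ∀ z : G → ℝ, ∑ y ∈ T, l y * z y = 0 → bf T A z z ≤ 0) : Hyp T A := by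
  intro a z ha
  have hl : ∑ y ∈ T, l y * a y ≠ 0 := fun h0 => absurd (h a h0) ha.not_ge
  have h1 := h (fun y => z y - (∑ y ∈ T, l y * z y) / (∑ y ∈ T, l y * a y) * a y) (by
    simp only [mul_sub, sum_sub_distrib, mul_left_comm (l _), ← mul_sum]
    rw [div_mul_cancel₀ _ hl, sub_self])
  rw [bf_sub_sub T hsym] at h1
  generalize (∑ y ∈ T, l y * z y) / (∑ y ∈ T, l y * a y) = c at h1
  nlinarith [sq_nonneg (c * bf T A a a - bf T A a z), mul_le_mul_of_nonneg_left h1 ha.le]

theorem bf_single (T : Finset G) (A : G → G → ℝ) (u : G → ℝ) {p : G} (hp : p ∈ T) :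
    bf T A u (fun y => if y = p then 1 else 0) = ∑ y ∈ T, u y * A y p := by
  simp [bf, hp]

/-- Three-vector inequality for two null basis vectors. -/
theorem hyp_three (T : Finset G) (A : G → G → ℝ) (hsym : ∀ y y', A y y' = A y' y)
    (hH : Hyp T A) (p p' : G) (hp : p ∈ T) (hp' : p' ∈ T) (h0 : A p p = 0) (h0' : A p' p' = 0)
    (hpos : 0 < A p p') (m : G → ℝ) :
    A p p' * bf T A m m ≤ 2 * (∑ y ∈ T, m y * A y p) * (∑ y ∈ T, m y * A y p') := by
  set e : G → ℝ := fun y => if y = p then 1 else 0 with he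
  set e' : G → ℝ := fun y => if y = p' then 1 else 0 with he'
  have h1 : bf T A e e = 0 := by rw [bf_single T A e hp]; simp [he, hp, h0]
  have h2 : bf T A e' e' = 0 := by rw [bf_single T A e' hp']; simp [he', hp', h0']
  have h3 : bf T A e e' = A p p' := by rw [bf_single T A e hp']; simp [he, hp]
  have h4 : bf T A e' e = A p p' := by rw [bf_comm T hsym, h3]
  rw [← bf_single T A m hp, ← bf_single T A m hp', ← he, ← he']
  have hne := hpos.ne'
  set z : G → ℝ := fun y => (m y - bf T A m e' / A p p' * e y) - bf T A m e / A p p' * e' y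
    with hz
  have hzu : ∀ u, bf T A z u = bf T A m u - bf T A m e' / A p p' * bf T A e u -
      bf T A m e / A p p' * bf T A e' u := fun u => by
    rw [hz, bf_sub_left (u := fun y => m y - bf T A m e' / A p p' * e y), bf_sub_left]
  have z1 : bf T A e z = 0 := by rw [bf_comm T hsym, hzu, h1, h4]; field_simp; ring
  have z2 : bf T A e' z = 0 := by rw [bf_comm T hsym, hzu, h2, h3]; field_simp; ring
  have z3 : A p p' * bf T A z z = A p p' * bf T A m m - 2 * bf T A m e * bf T A m e' := by
    rw [hzu, z1, z2, bf_comm T hsym m z, hzu, bf_comm T hsym e m, bf_comm T hsym e' m]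
    field_simp
    ring
  have h5 := hH (fun y => e y - (-1) * e' y) z
    (by rw [bf_sub_sub T hsym, h1, h2, h4]; linarith)
  rw [bf_sub_sub T hsym, bf_sub_left (u := e), h1, h2, h4, z1, z2] at h5
  nlinarith

omit [DecidableEq G] in
theorem exists_solve (T : Finset G) (L : G → G → ℝ)
    (hinj : ∀ x : G → ℝ, (∀ y ∈ T, ∑ y' ∈ T, L y y' * x y' = 0) → ∀ y ∈ T, x y = 0)
    (b : G → ℝ) : ∃ x : G → ℝ, ∀ y ∈ T, ∑ y' ∈ T, L y y' * x y' = b y := by
  classical
  let N : Matrix T T ℝ := Matrix.of fun y y' => L y y'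
  have key : ∀ (x : T → ℝ) (y : T), N.mulVecLin x y =
      ∑ y' ∈ T, L y y' * (if h : y' ∈ T then x ⟨y', h⟩ else 0) := fun x y => by
    rw [← sum_coe_sort T]
    simp [N, Matrix.mulVec, dotProduct]
  have h1 : Function.Injective N.mulVecLin := by
    rw [injective_iff_map_eq_zero]
    intro x hx
    funext y
    have := hinj (fun y' => if h : y' ∈ T then x ⟨y', h⟩ else 0)
      (fun y hy => (key x ⟨y, hy⟩).symm.trans (congrFun hx _)) y y.2
    simpa using this
  obtain ⟨x, hx⟩ := LinearMap.injective_iff_surjective.1 h1 fun y => b y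
  exact ⟨_, fun y hy => (key x ⟨y, hy⟩).symm.trans (congrFun hx _)⟩

omit [DecidableEq G] in
theorem dirichlet_eq (T : Finset G) {c : G → G → ℝ} (hsym : ∀ y y', c y y' = c y' y)
    (x : G → ℝ) :
    ∑ y ∈ T, ∑ y' ∈ T, c y y' * (x y - x y') ^ 2 =
      2 * (∑ y ∈ T, (∑ y' ∈ T, c y y') * x y ^ 2 - bf T c x x) := by
  have h1 : ∑ y ∈ T, ∑ y' ∈ T, c y y' * x y' ^ 2 = ∑ y ∈ T, ∑ y' ∈ T, c y y' * x y ^ 2 := by
    rw [sum_comm]
    exact sum_congr rfl fun y _ => sum_congr rfl fun y' _ => by rw [hsym]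
  have h2 : ∑ y ∈ T, ∑ y' ∈ T, c y y' * (x y - x y') ^ 2 =
      ∑ y ∈ T, ∑ y' ∈ T, c y y' * x y ^ 2 + ∑ y ∈ T, ∑ y' ∈ T, c y y' * x y' ^ 2
        - 2 * bf T c x x := by
    simp only [bf, mul_sum, ← sum_add_distrib, ← sum_sub_distrib]
    exact sum_congr rfl fun y _ => sum_congr rfl fun y' _ => by ring
  rw [h2, h1]
  simp only [sum_mul]
  ring

omit [DecidableEq G] in
/-- The Bochner inequality for a connected reversible chain forces a nonpositive second
eigenvalue. -/
theorem markov_nsd (T : Finset G) {c : G → G → ℝ} (hsym : ∀ y y', c y y' = c y' y)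
    (h0 : ∀ y ∈ T, ∀ y' ∈ T, 0 ≤ c y y') (h1 : ∀ y ∈ T, ∀ y' ∈ T, y ≠ y' → 0 < c y y')
    (hπ : ∀ y ∈ T, 0 < ∑ y' ∈ T, c y y')
    (h : ∀ x : G → ℝ, bf T c x x ≤ ∑ y ∈ T, (∑ y' ∈ T, c y y' * x y') ^ 2 / ∑ y' ∈ T, c y y')
    (x : G → ℝ) (hx : ∑ y ∈ T, (∑ y' ∈ T, c y y') * x y = 0) : bf T c x x ≤ 0 := by
  classical
  rcases T.eq_empty_or_nonempty with rfl | hne
  · simp [bf]
  obtain ⟨π, hπ'⟩ : ∃ π : G → ℝ, ∀ y, ∑ y' ∈ T, c y y' = π y := ⟨_, fun _ => rfl⟩
  simp only [hπ'] at hπ h hx
  have hP : 0 < ∑ y ∈ T, π y := sum_pos hπ hne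
  have hL : ∀ (z : G → ℝ), ∀ y ∈ T,
      ∑ y' ∈ T, ((if y = y' then π y else 0) - c y y' + π y * π y') * z y' =
        π y * z y - ∑ y' ∈ T, c y y' * z y' + π y * ∑ y' ∈ T, π y' * z y' := fun z y hy => by
    simp [add_mul, sub_mul, sum_add_distrib, sum_sub_distrib, hy, mul_sum, mul_assoc]
  have hcol : ∀ z : G → ℝ, ∑ y ∈ T, ∑ y' ∈ T, c y y' * z y' = ∑ y ∈ T, π y * z y := fun z => by
    rw [sum_comm]
    refine sum_congr rfl fun y _ => ?_
    rw [← sum_mul, ← hπ']
    exact congrArg (· * z y) (sum_congr rfl fun y' _ => hsym _ _)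
  have hnn : ∀ z : G → ℝ, 0 ≤ ∑ y ∈ T, ∑ y' ∈ T, c y y' * (z y - z y') ^ 2 := fun z =>
    sum_nonneg fun y hy => sum_nonneg fun y' hy' => mul_nonneg (h0 y hy y' hy') (sq_nonneg _)
  have hsum : ∀ (z b : G → ℝ), (∀ y ∈ T,
      ∑ y' ∈ T, ((if y = y' then π y else 0) - c y y' + π y * π y') * z y' = b y) →
      ∑ y ∈ T, b y = 0 → ∑ y' ∈ T, π y' * z y' = 0 := fun z b hz hb => by
    rw [← sum_congr rfl hz, sum_congr rfl (hL z), sum_add_distrib, sum_sub_distrib, hcol,
      sub_self, zero_add, ← sum_mul] at hb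
    exact (mul_eq_zero.1 hb).resolve_left hP.ne'
  obtain ⟨z, hz⟩ := exists_solve T (fun y y' => (if y = y' then π y else 0) - c y y' + π y * π y')
    (fun z hz => by
      have e1 := hsum z (fun _ => 0) hz (by simp)
      have e2 : ∑ y ∈ T, ∑ y' ∈ T, c y y' * (z y - z y') ^ 2 = 0 := by
        rw [dirichlet_eq T hsym, bf_eq_sum, ← sum_sub_distrib, sum_eq_zero, mul_zero]
        intro y hy
        have := hz y hy
        rw [hL z y hy, e1] at this
        rw [hπ']
        linear_combination z y * this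
      have e3 : ∀ y ∈ T, ∀ y' ∈ T, z y' = z y := fun y hy y' hy' => by
        by_contra hcon
        have e4 := (sum_eq_zero_iff_of_nonneg fun y hy => sum_nonneg fun y' hy' =>
          mul_nonneg (h0 y hy y' hy') (sq_nonneg (z y - z y'))).1 e2 y hy
        have e5 := (sum_eq_zero_iff_of_nonneg fun y' hy' =>
          mul_nonneg (h0 y hy y' hy') (sq_nonneg (z y - z y'))).1 e4 y' hy'
        have e6 := h1 y hy y' hy' fun e => hcon (e ▸ rfl)
        exact hcon (by simpa [e6.ne', sub_eq_zero, eq_comm] using e5)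
      intro y hy
      rw [sum_congr rfl fun y' hy' => by rw [e3 y hy y' hy'], ← sum_mul] at e1
      exact (mul_eq_zero.1 e1).resolve_left hP.ne')
    (fun y => π y * x y)
  have e1 := hsum z _ hz hx
  have e2 : ∀ y ∈ T, ∑ y' ∈ T, c y y' * z y' = π y * (z y - x y) := fun y hy => by
    have := hz y hy
    rw [hL z y hy, e1] at this
    linarith
  have e3 := h z
  have e4 := hnn fun y => x y - 1 * z y
  rw [dirichlet_eq T hsym, bf_sub_sub T hsym, bf_comm T hsym z x] at e4
  have e5 : bf T c z z = ∑ y ∈ T, π y * (z y * (z y - x y)) := by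
    rw [bf_eq_sum]; exact sum_congr rfl fun y hy => by rw [e2 y hy]; ring
  have e6 : bf T c x z = ∑ y ∈ T, π y * (x y * (z y - x y)) := by
    rw [bf_eq_sum]; exact sum_congr rfl fun y hy => by rw [e2 y hy]; ring
  have e7 : ∑ y ∈ T, (∑ y' ∈ T, c y y' * z y') ^ 2 / π y = ∑ y ∈ T, π y * (x y - 1 * z y) ^ 2 :=
    sum_congr rfl fun y hy => by rw [e2 y hy]; have := (hπ y hy).ne'; field_simp; ring
  have e8 : ∑ y ∈ T, π y * (x y - 1 * z y) ^ 2 =
      ∑ y ∈ T, π y * (z y * (z y - x y)) - ∑ y ∈ T, π y * (x y * (z y - x y)) := by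
    rw [← sum_sub_distrib]; exact sum_congr rfl fun y _ => by ring
  simp only [hπ'] at e4
  rw [e7] at e3
  linarith

omit [DecidableEq G] in
/-- One Bochner step for a symmetric three-tensor. -/
theorem bochner (T : Finset G) (C : G → G → G → ℝ) (hs1 : ∀ y y' z, C y y' z = C y' y z)
    (hs2 : ∀ y y' z, C y y' z = C y z y') (v : G → ℝ) (hv : ∀ y, 0 < v y)
    (h0 : ∀ y ∈ T, ∀ y' ∈ T, 0 ≤ ∑ z ∈ T, C y y' z * v z)
    (h1 : ∀ y ∈ T, ∀ y' ∈ T, y ≠ y' → 0 < ∑ z ∈ T, C y y' z * v z)
    (hT : 1 < T.card) (hH : ∀ y ∈ T, Hyp T (C y)) :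
    Hyp T fun y y' => ∑ z ∈ T, C y y' z * v z := by
  classical
  set M : G → G → ℝ := fun y y' => ∑ z ∈ T, C y y' z * v z with hM
  have hM' : ∀ y y', ∑ z ∈ T, C y y' z * v z = M y y' := fun _ _ => rfl
  simp only [hM'] at h0 h1
  have hsym : ∀ y y', M y y' = M y' y := fun y y' => sum_congr rfl fun z _ => by rw [hs1]
  have hπ : ∀ y ∈ T, 0 < ∑ y' ∈ T, v y * M y y' * v y' := fun y hy => by
    obtain ⟨y', hy', hne⟩ := exists_mem_ne hT y
    exact sum_pos' (fun y' hy' => mul_nonneg (mul_nonneg (hv y).le (h0 y hy y' hy')) (hv y').le)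
      ⟨y', hy', mul_pos (mul_pos (hv y) (h1 y hy y' hy' hne.symm)) (hv y')⟩
  have hbf : ∀ x : G → ℝ, bf T (fun y y' => v y * M y y' * v y') x x =
      bf T M (fun y => v y * x y) fun y => v y * x y := fun x =>
    sum_congr rfl fun y _ => sum_congr rfl fun y' _ => by ring
  have hC : ∀ (y : G) (u : G → ℝ), v y * bf T (C y) v u = ∑ y' ∈ T, v y * M y y' * u y' :=
    fun y u => by
      rw [bf_comm T (hs2 y), bf_eq_sum, mul_sum]
      exact sum_congr rfl fun y' _ => by rw [hM']; ring
  refine hyp_of_nsd T M hsym (fun y => (∑ y' ∈ T, v y * M y y' * v y') / v y) fun ξ hξ => ?_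
  have := markov_nsd T (c := fun y y' => v y * M y y' * v y') (fun y y' => by rw [hsym]; ring)
    (fun y hy y' hy' => mul_nonneg (mul_nonneg (hv y).le (h0 y hy y' hy')) (hv y').le)
    (fun y hy y' hy' hne => mul_pos (mul_pos (hv y) (h1 y hy y' hy' hne)) (hv y')) hπ
    (fun x => by
      rw [hbf]
      set u : G → ℝ := fun y => v y * x y with hu
      have e1 : bf T M u u = ∑ y ∈ T, v y * bf T (C y) u u := by
        simp only [bf, hM, mul_sum, sum_mul]
        conv_rhs => rw [sum_comm]
        refine sum_congr rfl fun y _ => ?_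
        rw [sum_comm]
        refine sum_congr rfl fun z _ => sum_congr rfl fun y' _ => ?_
        rw [hs2 y y' z, hs1 y z y']
        ring
      rw [e1]
      refine sum_le_sum fun y hy => ?_
      have e2 : ∑ y' ∈ T, v y * M y y' * v y' * x y' = v y * bf T (C y) v u := by
        rw [hC]; exact sum_congr rfl fun y' _ => by rw [hu]; ring
      have e3 := hπ y hy
      rw [e2, le_div_iff₀ e3, ← hC y v]
      rw [← hC y v] at e3
      have e4 := hH y hy v u (pos_of_mul_pos_right e3 (hv y).le)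
      nlinarith [mul_le_mul_of_nonneg_left e4 (sq_nonneg (v y))])
    (fun y => ξ y / v y) (by rw [← hξ]; exact sum_congr rfl fun y _ => by ring)
  rw [hbf] at this
  simpa only [mul_div_cancel₀ _ (hv _).ne'] using this

theorem rems_pos (n : ℕ) (W : Finset G → ℝ) (hpos : ∀ S : Finset G, S.card = n → 0 < W S)
    (vs : List (G → ℝ)) (hv : ∀ v ∈ vs, ∀ y, 0 < v y) (S : Finset G)
    (hS : S.card = n + vs.length) : 0 < rems vs W S := by
  induction vs generalizing S with
  | nil => exact hpos S hS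
  | cons v vs ih =>
    rw [List.length_cons] at hS
    refine sum_pos (fun z hz => mul_pos (hv v (by simp) z) (ih (fun u hu => hv u (by simp [hu])) _
      (by rw [card_erase_of_mem hz]; omega))) (card_pos.1 (by omega))

theorem clc_pos (n : ℕ) (W : Finset G → ℝ) (hpos : ∀ S : Finset G, S.card = n → 0 < W S)
    (hloc : ∀ T : Finset G, T.card = n + 2 → Hyp T (mat W T))
    (vs : List (G → ℝ)) (hv : ∀ v ∈ vs, ∀ y, 0 < v y) (T : Finset G)
    (hT : T.card = n + 2 + vs.length) : Hyp T (mat (rems vs W) T) := by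
  induction vs generalizing T with
  | nil => exact hloc T hT
  | cons v vs ih =>
    have hp := rems_pos n W hpos (v :: vs) hv
    rw [List.length_cons] at hT hp
    set C : G → G → G → ℝ := fun y y' z => if y = y' ∨ y = z ∨ y' = z then 0 else
      rems vs W (((T.erase y).erase y').erase z) with hC
    have hM : ∀ y y', mat (rems (v :: vs) W) T y y' = ∑ z ∈ T, C y y' z * v z := fun y y' => by
      unfold mat
      split_ifs with h
      · simp [hC, h]
      · change ∑ z ∈ (T.erase y).erase y', _ = _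
        rw [← sum_subset ((erase_subset _ _).trans (erase_subset y T))]
        · refine sum_congr rfl fun z hz => ?_
          simp only [mem_erase] at hz
          rw [hC, mul_comm]
          dsimp only
          rw [if_neg (by tauto)]
        · intro z hz hz'
          simp only [mem_erase] at hz'
          rw [hC]
          dsimp only
          rw [if_pos (by tauto), zero_mul]
    have h1 : ∀ y ∈ T, ∀ y' ∈ T, y ≠ y' → 0 < ∑ z ∈ T, C y y' z * v z := fun y hy y' hy' hne => by
      rw [← hM, mat, if_neg hne]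
      refine hp _ ?_
      rw [card_erase_of_mem (mem_erase.2 ⟨hne.symm, hy'⟩), card_erase_of_mem hy]
      omega
    rw [funext₂ hM]
    refine bochner T C (fun y y' z => ?_) (fun y y' z => ?_) v (hv v (by simp))
      (fun y hy y' hy' => ?_) h1 (by omega) fun y hy => ?_
    · simp only [hC]
      rw [erase_right_comm (a := y)]
      exact if_congr (by tauto) rfl rfl
    · simp only [hC]
      rw [erase_right_comm (a := y')]
      exact if_congr (by tauto) rfl rfl
    · by_cases h : y = y'
      · simp [hC, h]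
      · exact (h1 y hy y' hy' h).le
    · have e : ∀ u u' : G → ℝ, bf T (C y) u u' =
          bf (T.erase y) (mat (rems vs W) (T.erase y)) u u' := fun u u' => by
        unfold bf
        rw [← add_sum_erase _ _ hy, sum_eq_zero fun z _ => by simp [hC], zero_add]
        refine sum_congr rfl fun y' hy' => ?_
        rw [← add_sum_erase _ _ hy, show C y y' y = 0 by simp [hC], mul_zero, zero_mul, zero_add]
        refine sum_congr rfl fun z hz => ?_
        simp [hC, mat, (ne_of_mem_erase hy').symm, (ne_of_mem_erase hz).symm]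
      intro a z
      simp only [e]
      exact ih (fun u hu => hv u (by simp [hu])) _ (by rw [card_erase_of_mem hy]; omega) a z

omit [DecidableEq G] in
/-- Hyperbolicity passes to limits. -/
theorem hyp_of_limit (T : Finset G) (A : ℝ → G → G → ℝ) (hc : ∀ y y', Continuous fun t => A t y y')
    (h : ∀ t, 0 < t → Hyp T (A t)) : Hyp T (A 0) := by
  intro a z ha
  have hb : ∀ u u' : G → ℝ, Filter.Tendsto (fun t => bf T (A t) u u') (nhdsWithin 0 (Set.Ioi 0))
      (nhds (bf T (A 0) u u')) := fun u u' =>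
    (Continuous.tendsto (by unfold bf; fun_prop) 0).mono_left nhdsWithin_le_nhds
  refine le_of_tendsto_of_tendsto ((hb a a).mul (hb z z)) ((hb a z).pow 2) ?_
  filter_upwards [(hb a a).eventually (lt_mem_nhds ha), self_mem_nhdsWithin] with t h1 h2
  exact h t h2 a z h1

theorem continuous_rems (W : Finset G → ℝ) (vs : List (G → ℝ)) (S : Finset G) :
    Continuous fun t : ℝ => rems (vs.map fun v y => v y + t) W S := by
  induction vs generalizing S with
  | nil => exact continuous_const
  | cons v vs ih =>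
    simp only [List.map_cons, rems, rem]
    exact continuous_finsetSum _ fun z _ => (continuous_const.add continuous_id).mul (ih _)

/-- Complete log-concavity in removal form (Bochner induction, then a limit in the directions). -/
theorem clc (n : ℕ) (W : Finset G → ℝ) (hpos : ∀ S : Finset G, S.card = n → 0 < W S)
    (hloc : ∀ T : Finset G, T.card = n + 2 → Hyp T (mat W T))
    (vs : List (G → ℝ)) (hv : ∀ v ∈ vs, ∀ y, 0 ≤ v y) (T : Finset G)
    (hT : T.card = n + 2 + vs.length) : Hyp T (mat (rems vs W) T) := by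
  have := hyp_of_limit T (fun t => mat (rems (vs.map fun v y => v y + t) W) T)
    (fun y y' => by
      unfold mat
      split_ifs
      exacts [continuous_const, continuous_rems W vs _])
    fun t ht => clc_pos n W hpos hloc _ (fun u hu y => by
      obtain ⟨v, hv', rfl⟩ := List.mem_map.1 hu
      exact add_pos_of_nonneg_of_pos (hv v hv' y) ht) T (by rwa [List.length_map])
  simpa using this

end Vale.Agent.P317
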