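import Vale.Agent.P317.RandE

/-! Cost-free semantics, frame rule, generic running-time bound. -/

namespace Vale.Agent.P317

variable {n : ℕ}

open Classical in
/-- Execution without the step counter. -/
noncomputable def run (M₁ M₂ : Matroid (Fin n)) : Cmd → Mem → Rand Mem
  | .store a i e, m => .ret (m.set a (i.eval m) (e.eval m))
  | .seq c d, m => (run M₁ M₂ c m).bind (run M₁ M₂ d)
  | .ifz e c d, m => if e.eval m = 0 then run M₁ M₂ c m else run M₁ M₂ d m
  | .loop e c, m => iter (run M₁ M₂ c) (e.eval m) m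
  | .coin a, m => .flip (.ret (m.set a 0 0)) (.ret (m.set a 0 1))
  | .query b q a, m =>
      .ret (m.set a 0 (if (if b then M₂ else M₁).Indep {x : Fin n | m q x ≠ 0} then 1 else 0))

theorem exec_sim_run (M₁ M₂ : Matroid (Fin n)) (c : Cmd) (m : Mem) (t : ℕ) :
    Sim (fun s m' => s.1 = m') (exec M₁ M₂ c (m, t)) (run M₁ M₂ c m) := by
  induction c generalizing m t with
  | store a i e => exact rfl
  | seq c d ihc ihd =>
    refine (ihc m t).bind ?_
    rintro ⟨m', t'⟩ b rfl
    exact ihd m' t'
  | ifz e c d ihc ihd =>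
    simp only [exec, run]
    split_ifs
    · exact ihc _ _
    · exact ihd _ _
  | loop e c ih =>
    simp only [exec, run]
    refine Sim.iter _ rfl ?_
    rintro ⟨m', t'⟩ b rfl
    exact ih _ _
  | coin a => exact ⟨rfl, rfl⟩
  | query b q a => exact rfl

@[simp] theorem Mem.set_self (m : Mem) (a i v : ℕ) : m.set a i v a i = v := by
  simp [Mem.set]

theorem Mem.set_apply (m : Mem) (a i v a' i' : ℕ) :
    m.set a i v a' i' = if a' = a ∧ i' = i then v else m a' i' := by
  unfold Mem.set
  by_cases ha : a' = a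
  · subst ha
    by_cases hi : i' = i
    · subst hi; simp
    · simp [hi]
  · simp [ha]

@[simp] theorem Mem.set_of_ne (m : Mem) {a a' : ℕ} (i v : ℕ) (h : a' ≠ a) :
    m.set a i v a' = m a' := by
  simp [Mem.set, h]

theorem Mem.set_same (m : Mem) (a i v i' : ℕ) :
    m.set a i v a i' = if i' = i then v else m a i' := by
  simp [Mem.set_apply]

/-- Arrays a command may write. -/
def Cmd.writes : Cmd → List ℕ
  | .store a _ _ => [a]
  | .seq c d => c.writes ++ d.writes
  | .ifz _ c d => c.writes ++ d.writes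
  | .loop _ c => c.writes
  | .coin a => [a]
  | .query _ _ a => [a]

/-- `m'` agrees with `m` outside the arrays in `W`. -/
def Fr (W : List ℕ) (m m' : Mem) : Prop := ∀ a, a ∉ W → m' a = m a

theorem Fr.refl (W : List ℕ) (m : Mem) : Fr W m m := fun _ _ => rfl

theorem Fr.trans {W : List ℕ} {m m' m'' : Mem} (h : Fr W m m') (h' : Fr W m' m'') :
    Fr W m m'' := fun a ha => (h' a ha).trans (h a ha)

theorem Fr.mono {W W' : List ℕ} {m m' : Mem} (h : Fr W m m') (hW : ∀ a ∈ W, a ∈ W') :
    Fr W' m m' := fun a ha => h a fun h' => ha (hW a h')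

theorem Fr.set {W : List ℕ} (m : Mem) {a : ℕ} (ha : a ∈ W) (i v : ℕ) : Fr W m (m.set a i v) :=
  fun _ hb => Mem.set_of_ne m i v fun h => hb (h ▸ ha)

theorem run_frame (M₁ M₂ : Matroid (Fin n)) (c : Cmd) (W : List ℕ) (hW : ∀ a ∈ c.writes, a ∈ W)
    (m : Mem) : (run M₁ M₂ c m).All (Fr W m) := by
  induction c generalizing m with
  | store a i e => exact Fr.set m (hW a (by simp [Cmd.writes])) _ _
  | seq c d ihc ihd =>
    refine Rand.All_bind (ihc (fun a ha => hW a (by simp [Cmd.writes, ha])) m) fun m' hm' => ?_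
    exact Rand.All_mono (fun m'' h => hm'.trans h)
      (ihd (fun a ha => hW a (by simp [Cmd.writes, ha])) m')
  | ifz e c d ihc ihd =>
    simp only [run]
    split_ifs
    · exact ihc (fun a ha => hW a (by simp [Cmd.writes, ha])) m
    · exact ihd (fun a ha => hW a (by simp [Cmd.writes, ha])) m
  | loop e c ih =>
    simp only [run]
    exact All_iter _ (Fr.refl W m) fun m' hm' =>
      Rand.All_mono (fun m'' h => hm'.trans h) (ih hW m')
  | coin a =>
    exact ⟨Fr.set m (hW a (by simp [Cmd.writes])) _ _, Fr.set m (hW a (by simp [Cmd.writes])) _ _⟩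
  | query b q a => exact Fr.set m (hW a (by simp [Cmd.writes])) _ _

/-- Add the frame property to a simulation. -/
theorem Sim.frame {β : Type} {M₁ M₂ : Matroid (Fin n)} {c : Cmd} {m : Mem} {R : Mem → β → Prop}
    {t : Rand β} (h : Sim R (run M₁ M₂ c m) t) (W : List ℕ) (hW : ∀ a ∈ c.writes, a ∈ W) :
    Sim (fun m' b => R m' b ∧ Fr W m m') (run M₁ M₂ c m) t :=
  h.and_All (run_frame M₁ M₂ c W hW m)

/-- Loop bounds that are visibly at most a parameter or a small constant. -/
def Expr.okBound (Ps : List ℕ) : Expr → Bool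
  | .const c => decide (c ≤ 64)
  | .load a (.const 0) => decide (a ∈ Ps)
  | .sub e _ => e.okBound Ps
  | _ => false

def Cmd.okLoops (Ps : List ℕ) : Cmd → Bool
  | .store _ _ _ => true
  | .seq c d => c.okLoops Ps && d.okLoops Ps
  | .ifz _ c d => c.okLoops Ps && d.okLoops Ps
  | .loop e c => e.okBound Ps && c.okLoops Ps
  | .coin _ => true
  | .query _ _ _ => true

/-- Step bound when every loop bound and `n` are at most `B`. -/
def Cmd.costBound (B : ℕ) : Cmd → ℕ
  | .store _ i e => i.cost + e.cost + 1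
  | .seq c d => c.costBound B + d.costBound B
  | .ifz e c d => e.cost + 1 + c.costBound B + d.costBound B
  | .loop e c => e.cost + 1 + B * (c.costBound B + 1)
  | .coin _ => 1
  | .query _ _ _ => B + 1

end Vale.Agent.P317
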