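import Vale.Agent.P317.Spec

/-! The level schedule. -/

namespace Vale.Agent.P317

theorem lev_zero (n P : ℕ) : lev n P 0 = fun _ => 0 := by
  funext c; simp [lev]

theorem slotAt_val (n P t : ℕ) (hP : 0 < P) (ht : t < n * P) : (slotAt n P t).val = t / P := by
  have : t / P < n := (Nat.div_lt_iff_lt_mul hP).2 ht
  simp [slotAt, min_eq_left this.le]

theorem slotAt_ne_last (n P t : ℕ) (hP : 0 < P) (ht : t < n * P) : slotAt n P t ≠ Fin.last n := by
  intro h
  have h1 := slotAt_val n P t hP ht
  have : t / P < n := (Nat.div_lt_iff_lt_mul hP).2 ht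
  rw [h] at h1
  simp at h1
  omega

theorem lev_slotAt (n P t : ℕ) (hP : 0 < P) (ht : t < n * P) :
    lev n P t (slotAt n P t) = t % P := by
  unfold lev
  rw [slotAt_val n P t hP ht]
  have h1 := Nat.div_add_mod' t P
  have h2 := Nat.mod_lt t hP
  omega

theorem lev_succ (n P t : ℕ) (hP : 0 < P) (ht : t < n * P) :
    lev n P (t + 1) = Function.update (lev n P t) (slotAt n P t) (lev n P t (slotAt n P t) + 1) := by
  funext c
  have h1 := Nat.div_add_mod' t P
  have h2 := Nat.mod_lt t hP
  by_cases hc : c = slotAt n P t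
  · rw [hc, Function.update_self, lev_slotAt n P t hP ht]
    unfold lev
    rw [slotAt_val n P t hP ht]
    omega
  · rw [Function.update_of_ne hc]
    have hne : c.val ≠ t / P := fun h => hc (Fin.ext (h.trans (slotAt_val n P t hP ht).symm))
    unfold lev
    rcases lt_or_gt_of_ne hne with h | h
    · have : (c.val + 1) * P ≤ t / P * P := Nat.mul_le_mul_right P h
      rw [Nat.add_mul] at this
      omega
    · have : (t / P + 1) * P ≤ c.val * P := Nat.mul_le_mul_right P h
      rw [Nat.add_mul] at this
      omega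

theorem lev_last (n P t : ℕ) (ht : t ≤ n * P) : lev n P t (Fin.last n) = 0 := by
  simp [lev, Nat.sub_eq_zero_of_le ht]

theorem lev_le (n P t : ℕ) (c : Fin (n + 1)) : lev n P t c ≤ P := min_le_left _ _

end Vale.Agent.P317
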