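import Vale.Agent.P317.Rank
import Vale.Agent.P317.Counts

/-! Transport inequality for the true weights (limit of positive deformations) and the
negative-Sobolev bound. -/

namespace Vale.Agent.P317

open Finset

theorem continuous_clsSum {I : Type} [DecidableEq I] [Fintype I]
    {w : ℝ → I → (I → Fin 3) → ℝ} (hc : ∀ j U, Continuous fun t => w t j U) (j : I)
    (g : (I → Fin 3) → ℝ) : Continuous fun t => clsSum (w t) j g := by
  refine continuous_finsetSum _ fun U _ => ?_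
  split_ifs
  exacts [(hc j U).mul continuous_const, continuous_const]

theorem transport_limit {I : Type} [DecidableEq I] [Fintype I] (w : ℝ → I → (I → Fin 3) → ℝ)
    (hc : ∀ j U, Continuous fun t => w t j U) (h0 : ∀ j, clsSum (w 0) j (fun _ => 1) ≠ 0)
    (h : ∀ t, 0 < t → t ≤ 1 → Transport (w t)) : Transport (w 0) := by
  intro s hs a e hae φ C hφ F lam
  have h1 := fun j g => (continuous_clsSum hc j g).continuousAt (x := 0)
  have h2 : ContinuousAt (fun t => dirMin (w t) s F) 0 := by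
    refine Continuous.continuousAt ?_
    unfold dirMin
    fun_prop
  refine le_of_tendsto_of_tendsto (b := nhdsWithin (0 : ℝ) (Set.Ioi 0))
    (Filter.Tendsto.mono_left (ContinuousAt.tendsto (f := fun t =>
      2 * lam * (clsSum (w t) a (fun U => φ (U e) * F a U) - clsSum (w t) a (fun U => φ (U e)) /
        clsSum (w t) e (fun _ => 1) * clsSum (w t) e (F e))) ?_) nhdsWithin_le_nhds)
    (Filter.Tendsto.mono_left (ContinuousAt.tendsto (f := fun t =>
      lam ^ 2 * (6 * C ^ 2 * (clsSum (w t) a (fun _ => 1)) ^ 2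
        * ∑ j, 1 / (s j * clsSum (w t) j (fun _ => 1))) + dirMin (w t) s F) ?_)
      nhdsWithin_le_nhds) ?_
  · exact continuousAt_const.mul ((h1 _ _).sub (((h1 _ _).div (h1 _ _) (h0 e)).mul (h1 _ _)))
  · refine (continuousAt_const.mul ((continuousAt_const.mul ((h1 _ _).pow 2)).mul ?_)).add h2
    exact tendsto_finsetSum _ fun j _ => continuousAt_const.div
      (continuousAt_const.mul (h1 _ _)) (mul_ne_zero (hs j).ne' (h0 j))
  · filter_upwards [Ioc_mem_nhdsGT zero_lt_one] with t ht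
    exact h t ht.1 ht.2 s hs a e hae φ C hφ F lam

variable {n : ℕ}

/-- Transport for the true weights: apply `transport_pos` to
`W_t S = (∏ y ∈ S, (ew kk y.1 y.2 + t)) * t ^ (S.card - rk S)` and let `t → 0+`. -/
theorem transport_cwt (M₁ M₂ : Matroid (Fin n)) (kk : Fin (n + 1) → ℕ)
    (hlast : kk (Fin.last n) = 0) : Transport (cwt M₁ M₂ kk) := by
  let W : ℝ → Finset (Fin (n + 1) × Fin 3) → ℝ := fun t S =>
    (∏ y ∈ S, (ew kk y.1 y.2 + t)) * t ^ (S.card - rk M₁ M₂ S)
  have h0 : cw (W 0) = cwt M₁ M₂ kk := by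
    funext j U
    have e1 : ∏ y ∈ gset U (univ.erase j), (ew kk y.1 y.2 + 0) =
        ∏ c ∈ univ.erase j, ew kk c (U c) := by
      rw [gset, prod_image fun a _ b _ h => congrArg Prod.fst h]
      simp
    simp only [cw, W, cwt]
    rw [e1]
    by_cases hU : j ≠ Fin.last n → U (Fin.last n) = 0
    · congr 1
      have h1 := rk_gset_iff M₁ M₂ j U hU
      have h2 := rk_le_card M₁ M₂ (gset U (univ.erase j))
      split_ifs with h
      · rw [h1.2 h, Nat.sub_self, pow_zero]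
      · exact zero_pow (by have := mt h1.1 h; omega)
    · push Not at hU
      rw [prod_eq_zero (mem_erase.2 ⟨hU.1.symm, mem_univ _⟩) (by simp [ew, bw, hU.2, hlast]),
        zero_mul, zero_mul]
  rw [← h0]
  refine transport_limit (fun t => cw (W t)) (fun j U => by simp only [cw, W]; fun_prop)
    (fun j => ?_) fun t ht0 ht1 => ?_
  · rw [h0]
    exact (zero_lt_one.trans_le (one_le_clsN M₁ M₂ kk j)).ne'
  · have hw : ∀ y : Fin (n + 1) × Fin 3, 0 < ew kk y.1 y.2 + t := fun y =>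
      add_pos_of_nonneg_of_pos (ew_nonneg kk _ _) ht0
    have hpos : ∀ S : Finset (Fin (n + 1) × Fin 3), S.card = n → 0 < W t S := fun S _ =>
      mul_pos (prod_pos fun y _ => hw y) (pow_pos ht0 _)
    exact transport_pos n (Fintype.card_fin _) (W t) hpos (aggHyp_of_loc n (W t) hpos fun T _ =>
      hyp_of_rank (rk M₁ M₂) (rk_mono M₁ M₂) (rk_insert M₁ M₂) (rk_submod M₁ M₂)
        (rk_le_card M₁ M₂) _ hw t ht0 ht1 T)

/-- Negative-Sobolev bound for mean-zero functions of the class and the option in slot `e`. -/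
theorem hminus (M₁ M₂ : Matroid (Fin n)) (kk τ : Fin (n + 1) → ℕ)
    (hlast : kk (Fin.last n) = 0) (hbal : Bal M₁ M₂ kk τ) (e : Fin (n + 1))
    (φ : Fin (n + 1) → Fin 3 → ℝ) (C : ℝ) (hφ : ∀ j x, |φ j x| ≤ C)
    (h0 : mean M₁ M₂ kk (sOf τ) (fun x => φ x.1 (x.2 e)) = 0) (f : St n → ℝ) :
    (mean M₁ M₂ kk (sOf τ) fun x => φ x.1 (x.2 e) * f x) ^ 2
      ≤ 180 * C ^ 2 * ((n : ℝ) + 1) ^ 2
        * (dirMin (cwt M₁ M₂ kk) (sOf τ) (fun j U => f (j, U)) / Zs M₁ M₂ kk (sOf τ)) := by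
  have hs : ∀ j, 0 < sOf τ j := fun j => by unfold sOf; positivity
  have hN : ∀ j, 0 < clsN M₁ M₂ kk j := fun j => zero_lt_one.trans_le (one_le_clsN M₁ M₂ kk j)
  have hZe := Zs_eq M₁ M₂ kk (sOf τ)
  have hZ : 0 < Zs M₁ M₂ kk (sOf τ) :=
    hZe ▸ sum_pos (fun j _ => mul_pos (hs j) (hN j)) univ_nonempty
  have hmean : ∀ g : St n → ℝ, mean M₁ M₂ kk (sOf τ) g * Zs M₁ M₂ kk (sOf τ) =
      ∑ j, sOf τ j * clsSum (cwt M₁ M₂ kk) j fun U => g (j, U) := fun g => by
    rw [← sum_wt_mul, mean, sum_mul]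
    refine sum_congr rfl fun x _ => ?_
    rw [pr]
    field_simp
  have hD : 0 ≤ dirMin (cwt M₁ M₂ kk) (sOf τ) fun j U => f (j, U) := by
    refine mul_nonneg (by norm_num) (sum_nonneg fun U _ => sum_nonneg fun j _ =>
      sum_nonneg fun j' _ => mul_nonneg (le_min ?_ ?_) (sq_nonneg _)) <;>
    exact mul_nonneg (hs _).le (cwt_nonneg _ _ _ _ _)
  have hS : ∑ j, 1 / (sOf τ j * clsN M₁ M₂ kk j) ≤
      30 * ((n : ℝ) + 1) ^ 2 / Zs M₁ M₂ kk (sOf τ) := by
    have : ∀ j ∈ (univ : Finset (Fin (n + 1))), 1 / (sOf τ j * clsN M₁ M₂ kk j) ≤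
        30 * ((n : ℝ) + 1) / Zs M₁ M₂ kk (sOf τ) := fun j _ => by
      rw [div_le_div_iff₀ (mul_pos (hs j) (hN j)) hZ, one_mul]
      exact hbal j
    refine (sum_le_card_nsmul _ _ _ this).trans_eq ?_
    simp
    ring
  set D := dirMin (cwt M₁ M₂ kk) (sOf τ) fun j U => f (j, U) with hDd
  set Z := Zs M₁ M₂ kk (sOf τ) with hZd
  set K := 6 * C ^ 2 * (30 * ((n : ℝ) + 1) ^ 2 / Z) with hK
  have hK0 : 0 ≤ K := by positivity
  have key : ∀ μ : ℝ, 2 * μ * (mean M₁ M₂ kk (sOf τ) fun x => φ x.1 (x.2 e) * f x) ≤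
      μ ^ 2 * K + D := fun μ => by
    have h1 : ∀ a, 2 * μ * (sOf τ a * clsSum (cwt M₁ M₂ kk) a (fun U => φ a (U e) * f (a, U))
        - sOf τ a * clsSum (cwt M₁ M₂ kk) a (fun U => φ a (U e)) *
          (clsSum (cwt M₁ M₂ kk) e (fun U => f (e, U)) / clsN M₁ M₂ kk e)) ≤
        sOf τ a * clsN M₁ M₂ kk a * (μ ^ 2 * K + D) := fun a => by
      have hsa := hs a
      have hNa := hN a
      by_cases hae : a = e
      · subst hae
        have e1 : ∀ g : (Fin (n + 1) → Fin 3) → ℝ,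
            clsSum (cwt M₁ M₂ kk) a (fun U => φ a (U a) * g U) =
              φ a 0 * clsSum (cwt M₁ M₂ kk) a g := fun g => by
          rw [clsSum, clsSum, mul_sum]
          refine sum_congr rfl fun U _ => ?_
          split_ifs with h
          · rw [h]; ring
          · simp
        have e2 := e1 fun _ => 1
        simp only [mul_one] at e2
        rw [e1, e2, ← clsN]
        refine le_trans (le_of_eq ?_) (by positivity : (0 : ℝ) ≤ _)
        field_simp
        ring
      · have e1 := transport_cwt M₁ M₂ kk hlast (sOf τ) hs a e hae (φ a) C (hφ a)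
          (fun j U => f (j, U)) (μ / clsN M₁ M₂ kk a)
        simp only [← clsN.eq_1] at e1
        have e2 : (μ / clsN M₁ M₂ kk a) ^ 2 * (6 * C ^ 2 * clsN M₁ M₂ kk a ^ 2 *
            ∑ j, 1 / (sOf τ j * clsN M₁ M₂ kk j)) ≤ μ ^ 2 * K := by
          calc _ = μ ^ 2 * (6 * C ^ 2 * ∑ j, 1 / (sOf τ j * clsN M₁ M₂ kk j)) := by field_simp
            _ ≤ _ := by rw [hK]; gcongr
        refine le_trans (le_of_eq ?_) (mul_le_mul_of_nonneg_left (e1.trans (add_le_add e2 le_rfl))
          (mul_pos hsa hNa).le)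
        field_simp
    have h2 := sum_le_sum fun a (_ : a ∈ univ) => h1 a
    rw [← mul_sum, sum_sub_distrib, ← sum_mul, ← sum_mul, ← hZe,
      ← hmean fun x => φ x.1 (x.2 e) * f x, ← hmean fun x => φ x.1 (x.2 e), h0] at h2
    refine le_of_mul_le_mul_left ?_ hZ
    linarith
  have h3 := discrim_le_zero (a := K)
    (b := -2 * mean M₁ M₂ kk (sOf τ) fun x => φ x.1 (x.2 e) * f x) (c := D)
    fun μ => by have := key μ; nlinarith
  rw [discrim] at h3
  have h4 : 180 * C ^ 2 * ((n : ℝ) + 1) ^ 2 * (D / Z) = K * D := by rw [hK]; ring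
  rw [h4]
  nlinarith

end Vale.Agent.P317
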