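import Vale.Agent.P317.Step
import Vale.Agent.P317.Lev

/-! One annealing stage loses little in total variation; errors add up. -/

namespace Vale.Agent.P317

open Finset

variable {n : ℕ}

theorem sOf_pos' (τ : Fin (n + 1) → ℕ) (j : Fin (n + 1)) : 0 < sOf τ j := by
  unfold sOf; positivity

theorem Zs_sOf_pos (M₁ M₂ : Matroid (Fin n)) (kk τ : Fin (n + 1) → ℕ) :
    0 < Zs M₁ M₂ kk (sOf τ) := by
  rw [Zs_eq]
  exact Finset.sum_pos (fun j _ =>
    mul_pos (sOf_pos' τ j) (zero_lt_one.trans_le (one_le_clsN M₁ M₂ kk j))) univ_nonempty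

theorem pr_nonneg' (M₁ M₂ : Matroid (Fin n)) (kk : Fin (n + 1) → ℕ) (s : Fin (n + 1) → ℝ)
    (hs : ∀ j, 0 ≤ s j) (hZ : 0 < Zs M₁ M₂ kk s) (x : St n) : 0 ≤ pr M₁ M₂ kk s x := by
  unfold pr wt
  refine div_nonneg ?_ hZ.le
  split_ifs
  · exact mul_nonneg (hs _) (cwt_nonneg _ _ _ _ _)
  · exact le_rfl

theorem sum_pr' (M₁ M₂ : Matroid (Fin n)) (kk : Fin (n + 1) → ℕ) (s : Fin (n + 1) → ℝ)
    (hZ : 0 < Zs M₁ M₂ kk s) : ∑ x, pr M₁ M₂ kk s x = 1 := by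
  unfold pr
  rw [← Finset.sum_div]
  exact div_self hZ.ne'

/-- One stage: start in the old distribution (old levels `kk`, any class factors `s`), run `Q` steps
of the chain for the new levels and balanced factors `τ`. -/
theorem stage_tv (M₁ M₂ : Matroid (Fin n)) (Q : ℕ) (hQ0 : 0 < Q) (kk τ : Fin (n + 1) → ℕ)
    (e : Fin (n + 1)) (s : Fin (n + 1) → ℝ) (hs : ∀ j, 0 ≤ s j) (hZ : 0 < Zs M₁ M₂ kk s)
    (hlast : Function.update kk e (kk e + 1) (Fin.last n) = 0)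
    (hbal : Bal M₁ M₂ (Function.update kk e (kk e + 1)) τ)
    (hQ : NoClip Q (Function.update kk e (kk e + 1)) τ)
    (σ : St n → ℝ) (hσ0 : ∀ x, 0 ≤ σ x) (hσ1 : ∀ x, σ x ≤ 1) :
    (mean M₁ M₂ kk s (fun x => (iter (stepR M₁ M₂ Q (Function.update kk e (kk e + 1)) τ) Q x).E σ)
        - mean M₁ M₂ (Function.update kk e (kk e + 1)) (sOf τ) σ) ^ 2
      ≤ 10 ^ 8 * ((n : ℝ) + 1) ^ 5 / Q := by
  have hraise := fun j => (clsN_raise M₁ M₂ kk e j).2
  have hcw := cwt_raise M₁ M₂ kk e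
  generalize Function.update kk e (kk e + 1) = kk' at *
  have hZ' := Zs_sOf_pos M₁ M₂ kk' τ
  have hn : (0 : ℝ) ≤ n := Nat.cast_nonneg n
  set θ : Fin 3 → ℝ := fun x => if x = 0 then 1 else if kk e = 0 then 0 else 1 / 2 with hθ
  have hθ0 : ∀ x, 0 ≤ θ x := fun x => by
    simp only [hθ]; split_ifs <;> norm_num
  have hθ1 : ∀ x, θ x ≤ 1 := fun x => by
    simp only [hθ]; split_ifs <;> norm_num
  set r : Fin (n + 1) → ℝ := fun j => s j / Zs M₁ M₂ kk s * (Zs M₁ M₂ kk' (sOf τ) / sOf τ j)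
    with hr
  have hr0 : ∀ j, 0 ≤ r j := fun j =>
    mul_nonneg (div_nonneg (hs j) hZ.le) (div_nonneg hZ'.le (sOf_pos' τ j).le)
  have hr1 : ∀ j, r j ≤ 150 * ((n : ℝ) + 1) := by
    intro j
    have h1 : s j * clsN M₁ M₂ kk j ≤ Zs M₁ M₂ kk s := by
      rw [Zs_eq]
      exact Finset.single_le_sum (f := fun j => s j * clsN M₁ M₂ kk j)
        (fun j _ => mul_nonneg (hs j) (zero_le_one.trans (one_le_clsN M₁ M₂ kk j))) (mem_univ j)
    have h2 : Zs M₁ M₂ kk' (sOf τ) / sOf τ j ≤ 150 * ((n : ℝ) + 1) * clsN M₁ M₂ kk j := by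
      rw [div_le_iff₀ (sOf_pos' τ j)]
      have h3 := mul_le_mul_of_nonneg_left (hraise j)
        (mul_nonneg (show (0 : ℝ) ≤ 30 * ((n : ℝ) + 1) by positivity) (sOf_pos' τ j).le)
      have := hbal j
      nlinarith
    have h4 : s j / Zs M₁ M₂ kk s * clsN M₁ M₂ kk j ≤ 1 := by
      rw [div_mul_eq_mul_div, div_le_one hZ]; exact h1
    have h5 := mul_le_mul_of_nonneg_left h2 (div_nonneg (hs j) hZ.le)
    have h6 := mul_le_mul_of_nonneg_left h4 (show (0 : ℝ) ≤ 150 * ((n : ℝ) + 1) by positivity)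
    simp only [hr]
    nlinarith
  have hφ : ∀ j x, |r j * θ x - 1| ≤ 150 * ((n : ℝ) + 1) := by
    intro j x
    have a := mul_nonneg (hr0 j) (hθ0 x)
    have b := mul_le_mul_of_nonneg_left (hθ1 x) (hr0 j)
    have c := hr1 j
    exact abs_le.2 ⟨by linarith, by linarith⟩
  have hpr : ∀ x : St n, pr M₁ M₂ kk s x = pr M₁ M₂ kk' (sOf τ) x * (r x.1 * θ (x.2 e)) := by
    intro x
    unfold pr wt
    split_ifs with hx
    · rw [hcw x.1 x.2 hx]
      have := (sOf_pos' τ x.1).ne'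
      simp only [hr, hθ]
      field_simp
    · simp
  have hmean : ∀ g : St n → ℝ, mean M₁ M₂ kk s g - mean M₁ M₂ kk' (sOf τ) g
      = ∑ x, pr M₁ M₂ kk' (sOf τ) x * ((r x.1 * θ (x.2 e) - 1) * g x) := by
    intro g
    unfold mean
    rw [← Finset.sum_sub_distrib]
    exact Finset.sum_congr rfl fun x _ => by rw [hpr x]; ring
  have h0 : mean M₁ M₂ kk' (sOf τ) (fun x => r x.1 * θ (x.2 e) - 1) = 0 := by
    have h1 := hmean fun _ => 1
    simp only [mean, mul_one, sum_pr' M₁ M₂ kk s hZ, sum_pr' M₁ M₂ kk' _ hZ', sub_self] at h1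
    exact h1.symm
  have hrev := step_rev M₁ M₂ Q kk' τ hQ
  have hK : ∀ f : St n → ℝ,
      (∑ x, pr M₁ M₂ kk' (sOf τ) x * ((r x.1 * θ (x.2 e) - 1) * f x)) ^ 2
        ≤ (180 * (150 * ((n : ℝ) + 1)) ^ 2 * ((n : ℝ) + 1) ^ 2 * (8 * ((n : ℝ) + 1)))
          * dir (pr M₁ M₂ kk' (sOf τ)) (stepR M₁ M₂ Q kk' τ) f := by
    intro f
    have h1 := hminus M₁ M₂ kk' τ hlast hbal e (fun j x => r j * θ x - 1) _ hφ h0 f
    have h2 := mul_le_mul_of_nonneg_left (step_dir M₁ M₂ Q kk' τ hQ f)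
      (show (0 : ℝ) ≤ 180 * (150 * ((n : ℝ) + 1)) ^ 2 * ((n : ℝ) + 1) ^ 2 by positivity)
    calc _ ≤ _ := h1
      _ ≤ _ := h2
      _ = _ := by ring
  have hd := decay (pr M₁ M₂ kk' (sOf τ))
    (pr_nonneg' M₁ M₂ kk' _ (fun j => (sOf_pos' τ j).le) hZ') (sum_pr' M₁ M₂ kk' _ hZ')
    (stepR M₁ M₂ Q kk' τ) hrev (step_lazy M₁ M₂ Q kk' τ) (fun x => r x.1 * θ (x.2 e) - 1) _
    (by positivity) hK σ (fun x => abs_le.2 ⟨by linarith [hσ0 x], hσ1 x⟩) Q hQ0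
  have hst : mean M₁ M₂ kk' (sOf τ) σ
      = mean M₁ M₂ kk' (sOf τ) fun x => (iter (stepR M₁ M₂ Q kk' τ) Q x).E σ :=
    (stationary _ _ hrev Q σ).symm
  rw [hst, hmean]
  refine hd.trans ?_
  have hQ' : (0 : ℝ) < Q := by exact_mod_cast hQ0
  refine div_le_div_of_nonneg_right ?_ hQ'.le
  have : (0 : ℝ) ≤ ((n : ℝ) + 1) ^ 5 := by positivity
  calc _ = 64800000 * ((n : ℝ) + 1) ^ 5 := by ring
    _ ≤ _ := by nlinarith

/-- The sampler is close to the target distribution of stage `t`. -/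
theorem sample_tv (M₁ M₂ : Matroid (Fin n)) (P Q : ℕ) (hP : 0 < P) (hQ0 : 0 < Q)
    (hist : ℕ → Fin (n + 1) → ℕ) (η : ℝ) (hη0 : 0 ≤ η)
    (hη : 10 ^ 8 * ((n : ℝ) + 1) ^ 5 / Q ≤ η ^ 2) (t : ℕ) (ht : t < n * P)
    (hbal : ∀ t', t' ≤ t → Bal M₁ M₂ (lev n P (t' + 1)) (hist t'))
    (hQ : ∀ t', t' ≤ t → NoClip Q (lev n P (t' + 1)) (hist t'))
    (σ : St n → ℝ) (hσ0 : ∀ x, 0 ≤ σ x) (hσ1 : ∀ x, σ x ≤ 1) :
    |(sampleR M₁ M₂ P Q hist (t + 1)).E σ - mean M₁ M₂ (lev n P (t + 1)) (sOf (hist t)) σ|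
      ≤ ((t : ℝ) + 1) * η := by
  have stage : ∀ u, u ≤ t → ∀ s : Fin (n + 1) → ℝ, (∀ j, 0 ≤ s j) → 0 < Zs M₁ M₂ (lev n P u) s →
      ∀ σ : St n → ℝ, (∀ x, 0 ≤ σ x) → (∀ x, σ x ≤ 1) →
      |mean M₁ M₂ (lev n P u) s
          (fun x => (iter (stepR M₁ M₂ Q (lev n P (u + 1)) (hist u)) Q x).E σ)
        - mean M₁ M₂ (lev n P (u + 1)) (sOf (hist u)) σ| ≤ η := by
    intro u hu s hs hZ σ h0 h1
    have hu' : u < n * P := lt_of_le_of_lt hu ht
    have e := lev_succ n P u hP hu'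
    have h := stage_tv M₁ M₂ Q hQ0 (lev n P u) (hist u) (slotAt n P u) s hs hZ
      (by rw [← e]; exact lev_last n P (u + 1) hu') (by rw [← e]; exact hbal u hu)
      (by rw [← e]; exact hQ u hu) σ h0 h1
    rw [← e] at h
    exact abs_le_of_sq_le_sq' (h.trans hη) hη0 |> abs_le.2
  have main : ∀ u, u ≤ t → ∀ σ : St n → ℝ, (∀ x, 0 ≤ σ x) → (∀ x, σ x ≤ 1) →
      |(sampleR M₁ M₂ P Q hist (u + 1)).E σ - mean M₁ M₂ (lev n P (u + 1)) (sOf (hist u)) σ|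
        ≤ ((u : ℝ) + 1) * η := by
    intro u
    induction u with
    | zero =>
      intro hu σ h0 h1
      have hZ : 0 < Zs M₁ M₂ (lev n P 0) (fun j => if j = Fin.last n then 1 else 0) := by
        rw [lev_zero, Zs_eq]
        simp [clsN_zero]
      have h := stage 0 hu (fun j => if j = Fin.last n then 1 else 0)
        (fun j => by split_ifs <;> norm_num) hZ σ h0 h1
      rw [lev_zero, mean_start] at h
      simpa [sampleR, iterIdx] using h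
    | succ u ih =>
      intro hu σ h0 h1
      have h := stage (u + 1) hu (sOf (hist u)) (fun j => (sOf_pos' _ j).le)
        (Zs_sOf_pos _ _ _ _) σ h0 h1
      have h' := ih (Nat.le_of_succ_le hu)
        (fun x => (iter (stepR M₁ M₂ Q (lev n P (u + 1 + 1)) (hist (u + 1))) Q x).E σ)
        (fun x => Rand.E_nonneg _ h0) (fun x => Rand.E_le_const _ h1)
      have e : (sampleR M₁ M₂ P Q hist (u + 1 + 1)).E σ = (sampleR M₁ M₂ P Q hist (u + 1)).E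
          fun x => (iter (stepR M₁ M₂ Q (lev n P (u + 1 + 1)) (hist (u + 1))) Q x).E σ := by
        rw [← Rand.E_bind]; rfl
      rw [e]
      have a := abs_le.1 h
      have b := abs_le.1 h'
      push_cast
      exact abs_le.2 ⟨by linarith [a.1, b.1], by linarith [a.2, b.2]⟩
  exact main t le_rfl σ hσ0 hσ1

end Vale.Agent.P317
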