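import Vale.Agent.P317.StageDet
import Vale.Agent.P317.Sample
import Vale.Agent.P317.Chernoff

/-! Correctness of the functional algorithm. -/

namespace Vale.Agent.P317

open Finset

variable {n : ℕ}

theorem Rand.prob_mono_imp {α : Type} (t : Rand α) {p q : α → Prop} (h : ∀ a, p a → q a) :
    t.prob p ≤ t.prob q := by
  rw [Rand.prob_eq_E, Rand.prob_eq_E]
  refine t.E_mono fun a => ?_
  by_cases hp : p a
  · simp [hp, h a hp]
  · simp only [hp, if_false]; split_ifs <;> norm_num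

theorem tally_inv (M₁ M₂ : Matroid (Fin n)) (P Q t : ℕ) (A : Acc n) :
    (tallyR M₁ M₂ P Q t A).All fun a =>
      (∀ c, a.1 c ≤ Q) ∧ a.2.1 = 2 * a.1 (Fin.last n) * A.2.1 := by
  unfold tallyR
  rw [iter_eq_iterIdx]
  refine All_iterIdx (p := fun i (a : Tally n) =>
    (∀ c, a.1 c ≤ i) ∧ a.2.1 = 2 * a.1 (Fin.last n) * A.2.1) Q ⟨fun _ => le_rfl, by simp⟩ ?_
  rintro i - a ⟨h1, h2⟩
  refine Rand.All_bind (Rand.All_of_forall (p := fun _ => True) (fun _ => trivial) _) ?_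
  intro s _
  refine ⟨fun c => ?_, ?_⟩
  · simp only [tallyUpd]
    by_cases hc : c = s.1
    · subst hc; rw [Function.update_self]; exact Nat.succ_le_succ (h1 _)
    · rw [Function.update_of_ne hc]; exact (h1 c).trans (Nat.le_succ i)
  · simp only [tallyUpd]
    by_cases hc : s.1 = Fin.last n
    · rw [if_pos hc, hc, Function.update_self, h2]; ring
    · rw [if_neg hc, Function.update_of_ne (Ne.symm hc), h2]

theorem noclip_aux (n P t : ℕ) (hP : 2 * n + 16 ≤ P) (ht : t < n * P) :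
    t * Nat.size (P ^ 40) + P ≤ P ^ 40 := by
  have h1 : Nat.size (P ^ 40) ≤ P * 40 := by
    rw [Nat.size_le, pow_mul]
    exact Nat.pow_lt_pow_left Nat.lt_two_pow_self (by norm_num)
  have h2 : t ≤ P * P := ht.le.trans (Nat.mul_le_mul_right P (by omega))
  have h3 : t * Nat.size (P ^ 40) ≤ P * P * (P * 40) := Nat.mul_le_mul h2 h1
  have h4 : P ≤ P * P * P := by
    have : 1 * 1 * P ≤ P * P * P :=
      Nat.mul_le_mul_right P (Nat.mul_le_mul (by omega) (by omega))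
    omega
  have h5 : 41 ≤ P ^ 37 := le_trans (by norm_num : 41 ≤ 16 ^ 37) (Nat.pow_le_pow_left (by omega) 37)
  calc t * Nat.size (P ^ 40) + P ≤ P * P * (P * 40) + P * P * P := Nat.add_le_add h3 h4
    _ = P ^ 3 * 41 := by ring
    _ ≤ P ^ 3 * P ^ 37 := Nat.mul_le_mul_left _ h5
    _ = P ^ 40 := by ring

theorem fail_aux (n P : ℕ) (hP : 2 * n + 16 ≤ P) :
    ((n : ℝ) + 2) * (2 * Real.exp (-(((P ^ 40 : ℕ) : ℝ) * (1 / (2 * (P : ℝ) ^ 7)) ^ 2 / 4)))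
      ≤ (1 / 2 : ℝ) ^ P / (P : ℝ) ^ 2 := by
  have hPr : (16 : ℝ) ≤ P := by exact_mod_cast (by omega : 16 ≤ P)
  have hP0 : (0 : ℝ) < P := by linarith
  have hnP : ((n : ℝ) + 2) * 2 ≤ P := by exact_mod_cast (by omega : (n + 2) * 2 ≤ P)
  have h1 : ((P ^ 40 : ℕ) : ℝ) * (1 / (2 * (P : ℝ) ^ 7)) ^ 2 / 4 = (P : ℝ) ^ 26 / 16 := by
    push_cast; field_simp; norm_num
  have h2 : 4 * (P : ℝ) ≤ (P : ℝ) ^ 26 / 16 := by
    have : (64 : ℝ) ≤ (P : ℝ) ^ 25 :=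
      le_trans (by norm_num : (64 : ℝ) ≤ 16 ^ 25) (pow_le_pow_left₀ (by norm_num) hPr 25)
    have h3 := mul_le_mul_of_nonneg_left this hP0.le
    have : (P : ℝ) * (P : ℝ) ^ 25 = (P : ℝ) ^ 26 := by ring
    linarith
  have h3 : (P : ℝ) ≤ Real.exp P := by linarith [Real.add_one_le_exp (P : ℝ)]
  have h4 : (2 : ℝ) ^ P ≤ Real.exp P := by
    have : (2 : ℝ) ≤ Real.exp 1 := by linarith [Real.add_one_le_exp (1 : ℝ)]
    calc (2 : ℝ) ^ P ≤ Real.exp 1 ^ P := pow_le_pow_left₀ (by norm_num) this P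
      _ = Real.exp P := by rw [← Real.exp_nat_mul, mul_one]
  have h5 : (P : ℝ) ^ 3 * 2 ^ P ≤ Real.exp (4 * P) := by
    calc (P : ℝ) ^ 3 * 2 ^ P ≤ Real.exp P ^ 3 * Real.exp P :=
          mul_le_mul (pow_le_pow_left₀ hP0.le h3 3) h4 (by positivity) (by positivity)
      _ = Real.exp (4 * P) := by
          rw [← Real.exp_nat_mul, ← Real.exp_add]; congr 1; push_cast; ring
  have h6 : (P : ℝ) ^ 3 * 2 ^ P ≤ Real.exp ((P : ℝ) ^ 26 / 16) := h5.trans (Real.exp_le_exp.2 h2)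
  rw [h1, Real.exp_neg, one_div, inv_pow]
  have h7 : 0 < Real.exp ((P : ℝ) ^ 26 / 16) := Real.exp_pos _
  generalize Real.exp ((P : ℝ) ^ 26 / 16) = E at h6 h7
  have h8 : E⁻¹ ≤ ((P : ℝ) ^ 3 * 2 ^ P)⁻¹ := inv_anti₀ (by positivity) h6
  calc ((n : ℝ) + 2) * (2 * E⁻¹) = ((n : ℝ) + 2) * 2 * E⁻¹ := by ring
    _ ≤ P * ((P : ℝ) ^ 3 * 2 ^ P)⁻¹ := mul_le_mul hnP h8 (by positivity) hP0.le
    _ = _ := by field_simp

/-- Probabilistic part of a stage. -/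
theorem stage_good (M₁ M₂ : Matroid (Fin n)) (P t : ℕ) (hP : 2 * n + 16 ≤ P)
    (ht : t < n * P) (A : Acc n) (hA : Good M₁ M₂ P (P ^ 40) t A) :
    1 - (1 / 2 : ℝ) ^ P / (P : ℝ) ^ 2
      ≤ (stageR M₁ M₂ P (P ^ 40) t A).prob (Good M₁ M₂ P (P ^ 40) (t + 1)) := by
  have hP0 : 0 < P := by omega
  have hQ0 : 0 < P ^ 40 := by positivity
  have hPr : (16 : ℝ) ≤ P := by exact_mod_cast (by omega : 16 ≤ P)
  have hP0' : (0 : ℝ) < P := by linarith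
  have hfail := fail_aux n P hP
  have hη0 : (0 : ℝ) ≤ 1 / (2 * (P : ℝ) ^ 7) := by positivity
  have hη1 : 1 / (2 * (P : ℝ) ^ 7) ≤ 1 := by
    rw [div_le_one (by positivity)]
    have : (1 : ℝ) ≤ (P : ℝ) ^ 7 := one_le_pow₀ (by linarith)
    linarith
  have hden : (0 : ℝ) < A.2.2 := by exact_mod_cast hA.2.2.1
  -- the sampler is accurate
  have htv : ∀ σ : St n → ℝ, (∀ x, 0 ≤ σ x) → (∀ x, σ x ≤ 1) →
      |(sampleR M₁ M₂ P (P ^ 40) A.1 (t + 1)).E σ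
        - mean M₁ M₂ (lev n P (t + 1)) (sOf (A.1 t)) σ| ≤ 1 / (2 * (P : ℝ) ^ 7) := by
    intro σ h0 h1
    have hη : 10 ^ 8 * ((n : ℝ) + 1) ^ 5 / ((P ^ 40 : ℕ) : ℝ) ≤ (1 / (P : ℝ) ^ 9) ^ 2 := by
      have e1 : (n : ℝ) + 1 ≤ P := by exact_mod_cast (by omega : n + 1 ≤ P)
      have e2 : ((n : ℝ) + 1) ^ 5 ≤ (P : ℝ) ^ 5 := pow_le_pow_left₀ (by positivity) e1 5
      have e3 : (10 : ℝ) ^ 8 ≤ (P : ℝ) ^ 17 :=
        le_trans (by norm_num : (10 : ℝ) ^ 8 ≤ 16 ^ 17) (pow_le_pow_left₀ (by norm_num) hPr 17)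
      push_cast
      rw [div_le_iff₀ (by positivity)]
      calc 10 ^ 8 * ((n : ℝ) + 1) ^ 5 ≤ (P : ℝ) ^ 17 * (P : ℝ) ^ 5 :=
            mul_le_mul e3 e2 (by positivity) (by positivity)
        _ = _ := by field_simp
    refine (sample_tv M₁ M₂ P (P ^ 40) hP0 hQ0 A.1 (1 / (P : ℝ) ^ 9) (by positivity) hη t ht
      (fun t' h => hA.1 t' h (lt_of_le_of_lt h ht)) (fun t' h j => ?_) σ h0 h1).trans ?_
    · have e1 := hA.2.1 t' h j
      have e2 := lev_le n P (t' + 1) j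
      have e3 := noclip_aux n P t' hP (lt_of_le_of_lt h ht)
      omega
    · have e1 : 2 * (t + 1) ≤ P * P := by
        have : 2 * n * P ≤ P * P := Nat.mul_le_mul_right P (by omega)
        have e : 2 * n * P = 2 * (n * P) := by ring
        omega
      have e2 : 2 * ((t : ℝ) + 1) ≤ P * P := by exact_mod_cast e1
      rw [mul_one_div, div_le_div_iff₀ (by positivity) (by positivity)]
      calc ((t : ℝ) + 1) * (2 * (P : ℝ) ^ 7) = 2 * ((t : ℝ) + 1) * (P : ℝ) ^ 7 := by ring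
        _ ≤ P * P * (P : ℝ) ^ 7 := mul_le_mul_of_nonneg_right e2 (by positivity)
        _ = _ := by ring
  have hcomb : ∀ (v e m : ℝ),
      ¬ (1 / (2 * (P : ℝ) ^ 7) * ((P ^ 40 : ℕ) : ℝ) < |v - e * ((P ^ 40 : ℕ) : ℝ)|) →
      |e - m| ≤ 1 / (2 * (P : ℝ) ^ 7) →
      |v - ((P ^ 40 : ℕ) : ℝ) * m| ≤ ((P ^ 40 : ℕ) : ℝ) / (P : ℝ) ^ 7 := by
    intro v e m h1 h2
    have hQ : (0 : ℝ) ≤ ((P ^ 40 : ℕ) : ℝ) := Nat.cast_nonneg _
    generalize ((P ^ 40 : ℕ) : ℝ) = Q at h1 hQ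
    have e1 : Q / (P : ℝ) ^ 7 = 1 / (2 * (P : ℝ) ^ 7) * Q + 1 / (2 * (P : ℝ) ^ 7) * Q := by
      field_simp; norm_num
    rw [e1]
    obtain ⟨a1, a2⟩ := abs_le.1 (not_lt.1 h1)
    obtain ⟨a3, a4⟩ := abs_le.1 h2
    have a5 := mul_le_mul_of_nonneg_right a3 hQ
    have a6 := mul_le_mul_of_nonneg_right a4 hQ
    rw [abs_le]
    constructor <;> linarith
  unfold stageR
  rw [prob_bind_ret]
  let φ : Option (Fin (n + 1)) → St n → ℝ := fun i x =>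
    match i with
    | some c => if x.1 = c then 1 else 0
    | none => if x.1 = Fin.last n then
        (if x.2 (slotAt n P t) = 0 then 1 else if t % P = 0 then 0 else 1 / 2) else 0
  let stat : Option (Fin (n + 1)) → Tally n → ℝ := fun i a =>
    match i with
    | some c => (a.1 c : ℝ)
    | none => (a.2.2 : ℝ) / (2 * A.2.2)
  have hφ0 : ∀ i x, 0 ≤ φ i x := by
    rintro (_ | c) x <;> simp only [φ] <;> split_ifs <;> norm_num
  have hφ1 : ∀ i x, φ i x ≤ 1 := by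
    rintro (_ | c) x <;> simp only [φ] <;> split_ifs <;> norm_num
  have hstat : ∀ i a x, stat i (tallyUpd P t A.2.1 A.2.2 a x) = stat i a + φ i x := by
    rintro (_ | c) a x
    · simp only [stat, φ, tallyUpd]
      split_ifs
      · push_cast; field_simp; ring
      · simp
      · push_cast; field_simp
      · simp
    · simp only [stat, φ, tallyUpd]
      by_cases hc : x.1 = c
      · subst hc; simp
      · rw [Function.update_of_ne (Ne.symm hc), if_neg hc, add_zero]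
  have h0 : ∀ i, stat i (fun _ => 0, 0, 0) = 0 := by
    rintro (_ | c) <;> simp [stat]
  have hun := prob_union (tallyR M₁ M₂ P (P ^ 40) t A)
    (fun (i : Option (Fin (n + 1))) a => 1 / (2 * (P : ℝ) ^ 7) * ((P ^ 40 : ℕ) : ℝ)
      < |stat i a - (sampleR M₁ M₂ P (P ^ 40) A.1 (t + 1)).E (φ i) * ((P ^ 40 : ℕ) : ℝ)|)
    (fun a => Good M₁ M₂ P (P ^ 40) (t + 1)
      (Function.update A.1 (t + 1) (fun c => A.1 t c + Nat.size (a.1 c)), a.2.1, a.2.2))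
    _ (tally_inv M₁ M₂ P (P ^ 40) t A) _
    (fun i => chernoff (sampleR M₁ M₂ P (P ^ 40) A.1 (t + 1)) (tallyUpd P t A.2.1 A.2.2)
      (stat i) (φ i) (hφ0 i) (hφ1 i) (hstat i) _ (h0 i) (P ^ 40) _ hη0 hη1)
    (fun a hinv hgood => good_step M₁ M₂ P (P ^ 40) t hP hQ0 ht A hA a hinv.1 hinv.2
      (fun c => hcomb _ _ _ (hgood (some c)) (htv _ (hφ0 (some c)) (hφ1 (some c))))
      (hcomb _ _ _ (hgood none) (htv _ (hφ0 none) (hφ1 none))))
  refine le_trans ?_ hun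
  have hc : (Fintype.card (Option (Fin (n + 1))) : ℝ) = n + 2 := by
    simp only [Fintype.card_option, Fintype.card_fin]; push_cast; ring
  rw [hc]
  linarith

/-- Correctness of the functional algorithm. -/
theorem alg_correct (M₁ M₂ : Matroid (Fin n)) (h₁ : M₁.E = Set.univ) (h₂ : M₂.E = Set.univ)
    (hr : M₁.eRank = M₂.eRank) (P k : ℕ) (hP : 2 * n + k + 16 ≤ P) (ε : ℝ) (hε1 : ε < 1)
    (hk : 1 ≤ ε * k) :
    1 - (1 / 2 : ℝ) ^ P ≤ (algR M₁ M₂ P (P ^ 40)).prob fun out : ℕ =>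
      (1 - ε) * (nCommon M₁ M₂ : ℝ) ≤ (out : ℝ) ∧ (out : ℝ) ≤ (1 + ε) * (nCommon M₁ M₂ : ℝ) := by
  have hP0 : 0 < P := by omega
  have hP0' : (0 : ℝ) < P := by exact_mod_cast hP0
  have h1 := prob_iterIdx (Good M₁ M₂ P (P ^ 40)) (stageR M₁ M₂ P (P ^ 40))
    ((1 / 2 : ℝ) ^ P / (P : ℝ) ^ 2) (by positivity) (n * P) (fun _ _ => 0, 1, 1)
    (good_zero M₁ M₂ P _ hP0) fun i hi b hb => stage_good M₁ M₂ P i (by omega) hi b hb
  unfold algR
  rw [prob_bind_ret]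
  refine le_trans ?_ (h1.trans (Rand.prob_mono_imp _ fun A hA =>
    good_final M₁ M₂ h₁ h₂ hr P (P ^ 40) k hP ε hε1 hk A hA))
  have h2 : ((n * P : ℕ) : ℝ) ≤ (P : ℝ) ^ 2 := by
    have : n * P ≤ P ^ 2 := by rw [pow_two]; exact Nat.mul_le_mul_right P (by omega)
    exact_mod_cast this
  have h3 : ((n * P : ℕ) : ℝ) * ((1 / 2 : ℝ) ^ P / (P : ℝ) ^ 2) ≤ (1 / 2 : ℝ) ^ P := by
    calc ((n * P : ℕ) : ℝ) * ((1 / 2 : ℝ) ^ P / (P : ℝ) ^ 2)
        ≤ (P : ℝ) ^ 2 * ((1 / 2 : ℝ) ^ P / (P : ℝ) ^ 2) :=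
          mul_le_mul_of_nonneg_right h2 (by positivity)
      _ = _ := by field_simp
  linarith

end Vale.Agent.P317
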