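import Vale.Agent.P317.Cost
import Vale.Agent.P317.Stage

/-! The final theorem. -/

namespace Vale.Agent.P317

theorem fpras : ∃ (prog : Cmd) (C d : ℕ), ∀ (n : ℕ) (M₁ M₂ : Matroid (Fin n)),
    M₁.E = Set.univ → M₂.E = Set.univ → M₁.eRank = M₂.eRank →
    ∀ ε δ : ℚ, 0 < ε → ε < 1 → 0 < δ → δ < 1 →
      (exec M₁ M₂ prog (input n ε δ, 0)).All
          (fun s => (s.2 : ℝ) ≤ C * ((n : ℝ) + 1 / (ε : ℝ) + Real.log (1 / (δ : ℝ))) ^ d) ∧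
        1 - (δ : ℝ) ≤ (exec M₁ M₂ prog (input n ε δ, 0)).prob fun s =>
          (1 - (ε : ℝ)) * ({B : Set (Fin n) | M₁.IsBase B ∧ M₂.IsBase B}.ncard : ℝ) ≤ (s.1 1 0 : ℝ) ∧
          (s.1 1 0 : ℝ) ≤ (1 + (ε : ℝ)) * ({B : Set (Fin n) | M₁.IsBase B ∧ M₂.IsBase B}.ncard : ℝ) := by
  obtain ⟨C, d, hC⟩ := progC_cost
  refine ⟨progC, C * 20 ^ d, d, fun n M₁ M₂ h₁ h₂ hr ε δ hε0 hε1 hδ0 hδ1 => ⟨?_, ?_⟩⟩
  · refine Rand.All_mono (fun s hs => ?_) (hC n M₁ M₂ ε δ)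
    have h1 : (s.2 : ℝ) ≤ C * (parP n ε δ : ℝ) ^ d := by exact_mod_cast hs
    have h2 := pow_le_pow_left₀ (Nat.cast_nonneg _) (parP_le n ε δ hε0 hε1 hδ0 hδ1) d
    rw [mul_pow] at h2
    push_cast
    calc (s.2 : ℝ) ≤ C * (parP n ε δ : ℝ) ^ d := h1
      _ ≤ C * (20 ^ d * ((n : ℝ) + 1 / (ε : ℝ) + Real.log (1 / (δ : ℝ))) ^ d) :=
          mul_le_mul_of_nonneg_left h2 (Nat.cast_nonneg _)
      _ = _ := by ring
  · have hP : 2 * n + (ε.den / ε.num.toNat + 1) + 16 ≤ parP n ε δ := by unfold parP; omega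
    have hε1' : (ε : ℝ) < 1 := by exact_mod_cast hε1
    have h1 := alg_correct M₁ M₂ h₁ h₂ hr (parP n ε δ) _ hP ε hε1' (parP_eps ε hε0)
    have h2 := parP_delta n ε δ hδ0
    refine le_trans (by linarith) (h1.trans ((progC_sim M₁ M₂ h₂ ε δ).prob_le ?_))
    rintro s out rfl h
    exact h

end Vale.Agent.P317
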