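import Vale.Agent.P317.RandE

/-! Decay of a negative-Sobolev perturbation under a lazy reversible chain. -/

namespace Vale.Agent.P317

open Finset

variable {Ω : Type} [Fintype Ω]

/-- Dirichlet form of the kernel `K` with respect to `π`. -/
noncomputable def dir (π : Ω → ℝ) (K : Ω → Rand Ω) (f : Ω → ℝ) : ℝ :=
  (1 / 2) * ∑ x, π x * (K x).E fun y => (f x - f y) ^ 2

/-- Self-adjointness (reversibility). -/
def Rev (π : Ω → ℝ) (K : Ω → Rand Ω) : Prop :=
  ∀ f g : Ω → ℝ, ∑ x, π x * (g x * (K x).E f) = ∑ x, π x * (f x * (K x).E g)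

/-- Holding probability at least 1/4. -/
def Lazy (K : Ω → Rand Ω) : Prop :=
  ∀ (x : Ω) (f : Ω → ℝ), (∀ y, 0 ≤ f y) → (1 / 4) * f x ≤ (K x).E f

theorem stat_one (π : Ω → ℝ) (K : Ω → Rand Ω) (hrev : Rev π K) (σ : Ω → ℝ) :
    ∑ x, π x * (K x).E σ = ∑ x, π x * σ x := by
  have := hrev σ fun _ => 1
  simpa [Rand.E_const] using this

omit [Fintype Ω] in
theorem E_iter_succ (K : Ω → Rand Ω) (T : ℕ) (σ : Ω → ℝ) (x : Ω) :
    (iter K (T + 1) x).E σ = (K x).E fun y => (iter K T y).E σ := by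
  rw [iter, Rand.E_bind]

theorem stationary (π : Ω → ℝ) (K : Ω → Rand Ω) (hrev : Rev π K) (T : ℕ) (σ : Ω → ℝ) :
    ∑ x, π x * (iter K T x).E σ = ∑ x, π x * σ x := by
  induction T with
  | zero => simp [iter]
  | succ T ih =>
    simp only [E_iter_succ]
    rw [stat_one π K hrev, ih]

omit [Fintype Ω] in
theorem E_sq_affine (t : Rand Ω) (f : Ω → ℝ) (c e : ℝ) :
    (t.E fun y => (c + e * f y) ^ 2)
      = c ^ 2 + 2 * c * e * t.E f + e ^ 2 * t.E fun y => f y ^ 2 := by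
  have h : (fun y => (c + e * f y) ^ 2)
      = fun y => (c ^ 2 + (2 * c * e) * f y) + e ^ 2 * f y ^ 2 := by
    funext y; ring
  rw [h, Rand.E_add, Rand.E_add, Rand.E_const, Rand.E_const_mul, Rand.E_const_mul]

theorem sum_E_sq (π : Ω → ℝ) (K : Ω → Rand Ω) (hrev : Rev π K) (f : Ω → ℝ) (e : ℝ) :
    ∑ x, π x * (K x).E (fun y => (f x + e * f y) ^ 2)
      = (1 + e ^ 2) * ∑ x, π x * f x ^ 2 + 2 * e * ∑ x, π x * (f x * (K x).E f) := by
  have h := stat_one π K hrev fun y => f y ^ 2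
  simp only [E_sq_affine]
  rw [add_mul, one_mul, ← h, Finset.mul_sum, Finset.mul_sum]
  conv_rhs => rw [h]
  rw [← Finset.sum_add_distrib, ← Finset.sum_add_distrib]
  exact Finset.sum_congr rfl fun x _ => by ring

theorem dir_eq (π : Ω → ℝ) (K : Ω → Rand Ω) (hrev : Rev π K) (f : Ω → ℝ) :
    dir π K f = ∑ x, π x * f x ^ 2 - ∑ x, π x * (f x * (K x).E f) := by
  have h := sum_E_sq π K hrev f (-1)
  unfold dir
  have h2 : ∀ x, (fun y => (f x - f y) ^ 2) = fun y => (f x + (-1) * f y) ^ 2 := by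
    intro x; funext y; ring
  simp only [h2]
  rw [h]; ring

theorem dir_mono (π : Ω → ℝ) (hπ0 : ∀ x, 0 ≤ π x) (K : Ω → Rand Ω) (hrev : Rev π K)
    (f : Ω → ℝ) : dir π K (fun x => (K x).E f) ≤ dir π K f := by
  have h := sum_E_sq π K hrev (fun x => f x - (K x).E f) 1
  have h0 : 0 ≤ ∑ x, π x * (K x).E
      (fun y => ((f x - (K x).E f) + 1 * (f y - (K y).E f)) ^ 2) :=
    Finset.sum_nonneg fun x _ => mul_nonneg (hπ0 x) (Rand.E_nonneg _ fun y => sq_nonneg _)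
  rw [h] at h0
  rw [dir_eq π K hrev, dir_eq π K hrev]
  have h1 := hrev (fun x => (K x).E f) f
  simp only [Rand.E_sub] at h0
  have e1 : ∑ x, π x * (f x - (K x).E f) ^ 2
      = ∑ x, π x * f x ^ 2 - 2 * ∑ x, π x * (f x * (K x).E f)
        + ∑ x, π x * ((K x).E f) ^ 2 := by
    rw [Finset.mul_sum, ← Finset.sum_sub_distrib, ← Finset.sum_add_distrib]
    exact Finset.sum_congr rfl fun x _ => by ring
  have e2 : ∑ x, π x * ((f x - (K x).E f) * ((K x).E f - (K x).E fun y => (K y).E f))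
      = ∑ x, π x * (f x * (K x).E f) - ∑ x, π x * (f x * (K x).E fun y => (K y).E f)
        - ∑ x, π x * ((K x).E f) ^ 2
        + ∑ x, π x * ((K x).E f * (K x).E fun y => (K y).E f) := by
    rw [← Finset.sum_sub_distrib, ← Finset.sum_sub_distrib, ← Finset.sum_add_distrib]
    exact Finset.sum_congr rfl fun x _ => by ring
  have e3 : ∑ x, π x * ((K x).E f * (K x).E f) = ∑ x, π x * ((K x).E f) ^ 2 :=
    Finset.sum_congr rfl fun x _ => by ring
  rw [e1, e2] at h0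
  rw [e3] at h1
  linarith

theorem norm_drop (π : Ω → ℝ) (hπ0 : ∀ x, 0 ≤ π x) (K : Ω → Rand Ω) (hrev : Rev π K)
    (hlazy : Lazy K) (f : Ω → ℝ) :
    ∑ x, π x * ((K x).E f) ^ 2 + (1 / 2) * dir π K f ≤ ∑ x, π x * f x ^ 2 := by
  rw [← stat_one π K hrev fun y => f y ^ 2]
  unfold dir
  rw [← mul_assoc, Finset.mul_sum, ← Finset.sum_add_distrib]
  refine Finset.sum_le_sum fun x _ => ?_
  have h2 : (fun y => (f x - f y) ^ 2) = fun y => (f x + (-1) * f y) ^ 2 := by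
    funext y; ring
  have h3 := hlazy x (fun y => ((f x + 4 / 3 * ((K x).E f - f x)) + (-1) * f y) ^ 2)
    fun y => sq_nonneg _
  rw [h2, E_sq_affine]
  rw [E_sq_affine] at h3
  have h4 : ((K x).E f) ^ 2 + 1 / 2 * (1 / 2) * (f x ^ 2 + 2 * f x * (-1) * (K x).E f
      + (-1) ^ 2 * (K x).E fun y => f y ^ 2) ≤ (K x).E fun y => f y ^ 2 := by
    nlinarith
  have h5 := mul_le_mul_of_nonneg_left h4 (hπ0 x)
  linarith

theorem decay (π : Ω → ℝ) (hπ0 : ∀ x, 0 ≤ π x) (hπ1 : ∑ x, π x = 1) (K : Ω → Rand Ω)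
    (hrev : Rev π K) (hlazy : Lazy K) (h : Ω → ℝ) (c : ℝ) (hc : 0 ≤ c)
    (hK : ∀ f : Ω → ℝ, (∑ x, π x * (h x * f x)) ^ 2 ≤ c * dir π K f)
    (σ : Ω → ℝ) (hσ : ∀ x, |σ x| ≤ 1) (T : ℕ) (hT : 0 < T) :
    (∑ x, π x * (h x * (iter K T x).E σ)) ^ 2 ≤ 2 * c / T := by
  have key : ∀ t : ℕ, ∑ x, π x * ((iter K t x).E σ) ^ 2
      + (t : ℝ) / 2 * dir π K (fun x => (iter K t x).E σ) ≤ 1 := by
    intro t
    induction t with
    | zero =>
      simp only [iter, Rand.E_ret, Nat.cast_zero, zero_div, zero_mul, add_zero]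
      rw [← hπ1]
      refine Finset.sum_le_sum fun x _ => ?_
      have h1 : σ x ^ 2 ≤ 1 := by
        have := abs_le.1 (hσ x)
        nlinarith [this.1, this.2]
      have := mul_le_mul_of_nonneg_left h1 (hπ0 x)
      linarith
    | succ t ih =>
      simp only [E_iter_succ]
      have h1 := norm_drop π hπ0 K hrev hlazy fun x => (iter K t x).E σ
      have h2 := dir_mono π hπ0 K hrev fun x => (iter K t x).E σ
      have h3 := mul_le_mul_of_nonneg_left h2
        (show (0 : ℝ) ≤ ((t + 1 : ℕ) : ℝ) / 2 by positivity)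
      push_cast at h3 ⊢
      nlinarith
  have h1 := key T
  have h2 : 0 ≤ ∑ x, π x * ((iter K T x).E σ) ^ 2 :=
    Finset.sum_nonneg fun x _ => mul_nonneg (hπ0 x) (sq_nonneg _)
  have hT' : (0 : ℝ) < T := by exact_mod_cast hT
  have h3 : dir π K (fun x => (iter K T x).E σ) ≤ 2 / T := by
    rw [le_div_iff₀ hT']; linarith
  calc _ ≤ c * dir π K (fun x => (iter K T x).E σ) := hK _
    _ ≤ c * (2 / T) := mul_le_mul_of_nonneg_left h3 hc
    _ = 2 * c / T := by ring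

end Vale.Agent.P317
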