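import Mathlib

/-!
Machine model for P317: a random-access machine with bounded loops, fair coins and two
independence oracles. Arithmetic has no multiplication, so each executed node adds at most one
bit to the largest number in memory.
-/

namespace Vale.Agent.P317

/-- Finite trees of fair coin flips with outcomes at the leaves. -/
inductive Rand (α : Type) : Type
  | ret : α → Rand α
  | flip : Rand α → Rand α → Rand α

/-- Sequential composition: continue at every leaf. -/
def Rand.bind {α β : Type} : Rand α → (α → Rand β) → Rand β
  | .ret a, f => f a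
  | .flip l r, f => .flip (l.bind f) (r.bind f)

/-- Every possible outcome satisfies `p`. -/
def Rand.All {α : Type} (p : α → Prop) : Rand α → Prop
  | .ret a => p a
  | .flip l r => l.All p ∧ r.All p

open Classical in
/-- Probability that the outcome satisfies `p`. -/
noncomputable def Rand.prob {α : Type} (p : α → Prop) : Rand α → ℝ
  | .ret a => if p a then 1 else 0
  | .flip l r => (l.prob p + r.prob p) / 2

/-- Run `f` a given number of times in a row. -/
def iter {α : Type} (f : α → Rand α) : ℕ → α → Rand α
  | 0, a => .ret a
  | k + 1, a => (f a).bind (iter f k)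

/-- Memory: arrays of natural numbers; `m a i` is cell `i` of array `a`. -/
abbrev Mem : Type := ℕ → ℕ → ℕ

/-- Write `v` into cell `i` of array `a`. -/
def Mem.set (m : Mem) (a i v : ℕ) : Mem := Function.update m a (Function.update (m a) i v)

/-- Expressions: constants, memory reads, sum, truncated difference, quotient, remainder,
bit length. -/
inductive Expr : Type
  | const : ℕ → Expr
  | load : ℕ → Expr → Expr
  | add : Expr → Expr → Expr
  | sub : Expr → Expr → Expr
  | div : Expr → Expr → Expr
  | mod : Expr → Expr → Expr
  | len : Expr → Expr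

def Expr.eval (m : Mem) : Expr → ℕ
  | .const c => c
  | .load a i => m a (i.eval m)
  | .add e f => e.eval m + f.eval m
  | .sub e f => e.eval m - f.eval m
  | .div e f => e.eval m / f.eval m
  | .mod e f => e.eval m % f.eval m
  | .len e => Nat.size (e.eval m)

/-- Steps needed to evaluate an expression: one per node. -/
def Expr.cost : Expr → ℕ
  | .const _ => 1
  | .load _ i => i.cost + 1
  | .add e f => e.cost + f.cost + 1
  | .sub e f => e.cost + f.cost + 1
  | .div e f => e.cost + f.cost + 1
  | .mod e f => e.cost + f.cost + 1
  | .len e => e.cost + 1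

/-- Programs. -/
inductive Cmd : Type
  | store : ℕ → Expr → Expr → Cmd
  | seq : Cmd → Cmd → Cmd
  | ifz : Expr → Cmd → Cmd → Cmd
  | loop : Expr → Cmd → Cmd
  | coin : ℕ → Cmd
  | query : Bool → ℕ → ℕ → Cmd

open Classical in
/-- Execution on a pair (memory, steps used so far). The matroids are reached only through
`query`, which asks whether the set marked by the nonzero cells of an array is independent. -/
noncomputable def exec {n : ℕ} (M₁ M₂ : Matroid (Fin n)) : Cmd → Mem × ℕ → Rand (Mem × ℕ)
  | .store a i e, s => .ret (s.1.set a (i.eval s.1) (e.eval s.1), s.2 + i.cost + e.cost + 1)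
  | .seq c d, s => (exec M₁ M₂ c s).bind (exec M₁ M₂ d)
  | .ifz e c d, s =>
      if e.eval s.1 = 0 then exec M₁ M₂ c (s.1, s.2 + e.cost + 1)
      else exec M₁ M₂ d (s.1, s.2 + e.cost + 1)
  | .loop e c, s =>
      iter (fun u => exec M₁ M₂ c (u.1, u.2 + 1)) (e.eval s.1) (s.1, s.2 + e.cost + 1)
  | .coin a, s => .flip (.ret (s.1.set a 0 0, s.2 + 1)) (.ret (s.1.set a 0 1, s.2 + 1))
  | .query b q a, s =>
      .ret (s.1.set a 0
        (if (if b then M₂ else M₁).Indep {x : Fin n | s.1 q x ≠ 0} then 1 else 0), s.2 + n + 1)

/-- Initial memory: array 0 holds `n` and the numerators and denominators of `ε` and `δ`;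
every other cell is 0. -/
def input (n : ℕ) (ε δ : ℚ) : Mem :=
  fun a i => if a = 0 then [n, ε.num.toNat, ε.den, δ.num.toNat, δ.den].getD i 0 else 0

end Vale.Agent.P317
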