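import Vale.Agent.P317.RandE
import Vale.Agent.P317.Flow

/-! Functional description of the algorithm and the weights it targets.
Slots are `Fin (n+1)`; the options in a slot are 0 (free), 1 (in), 2 (out). -/

namespace Vale.Agent.P317

open Finset

/-- A state: the hole and the option chosen in every slot (0 at the hole). -/
abbrev St (n : ℕ) : Type := Fin (n + 1) × (Fin (n + 1) → Fin 3)

section
variable {n : ℕ}

def inS (U : Fin (n + 1) → Fin 3) : Set (Fin n) := {e | U e.castSucc = 1}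

def outS (U : Fin (n + 1) → Fin 3) : Set (Fin n) := {e | U e.castSucc = 2}

/-- The chosen `in` elements are independent in `M₁`, the `out` elements coindependent in `M₂`. -/
def feas (M₁ M₂ : Matroid (Fin n)) (U : Fin (n + 1) → Fin 3) : Prop :=
  M₁.Indep (inS U) ∧ M₂.Coindep (outS U)

/-- Weight of a real element at level `k`. -/
def bw (k : ℕ) : ℝ := if k = 0 then 0 else 2 ^ k

/-- Weight of option `x` in slot `c`. -/
def ew (kk : Fin (n + 1) → ℕ) (c : Fin (n + 1)) (x : Fin 3) : ℝ :=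
  if x = 0 then 1 else bw (kk c)

/-- Binary logarithm of a nonzero option weight. -/
def ex (kk : Fin (n + 1) → ℕ) (c : Fin (n + 1)) (x : Fin 3) : ℕ := if x = 0 then 0 else kk c

open Classical in
/-- Weight of the state with hole `j`, before the class factor. -/
noncomputable def cwt (M₁ M₂ : Matroid (Fin n)) (kk : Fin (n + 1) → ℕ) (j : Fin (n + 1))
    (U : Fin (n + 1) → Fin 3) : ℝ :=
  (∏ c ∈ univ.erase j, ew kk c (U c)) * (if feas M₁ M₂ (Function.update U j 0) then 1 else 0)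

/-- Total weight of class `j`. -/
noncomputable def clsN (M₁ M₂ : Matroid (Fin n)) (kk : Fin (n + 1) → ℕ) (j : Fin (n + 1)) : ℝ :=
  clsSum (cwt M₁ M₂ kk) j fun _ => 1

/-- Weight of a state with class factors `s`. -/
noncomputable def wt (M₁ M₂ : Matroid (Fin n)) (kk : Fin (n + 1) → ℕ) (s : Fin (n + 1) → ℝ)
    (x : St n) : ℝ :=
  if x.2 x.1 = 0 then s x.1 * cwt M₁ M₂ kk x.1 x.2 else 0

/-- Partition function. -/
noncomputable def Zs (M₁ M₂ : Matroid (Fin n)) (kk : Fin (n + 1) → ℕ) (s : Fin (n + 1) → ℝ) : ℝ :=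
  ∑ x : St n, wt M₁ M₂ kk s x

/-- Normalised distribution. -/
noncomputable def pr (M₁ M₂ : Matroid (Fin n)) (kk : Fin (n + 1) → ℕ) (s : Fin (n + 1) → ℝ)
    (x : St n) : ℝ :=
  wt M₁ M₂ kk s x / Zs M₁ M₂ kk s

/-- Mean of `f` under the normalised distribution. -/
noncomputable def mean (M₁ M₂ : Matroid (Fin n)) (kk : Fin (n + 1) → ℕ) (s : Fin (n + 1) → ℝ)
    (f : St n → ℝ) : ℝ :=
  ∑ x : St n, pr M₁ M₂ kk s x * f x

/-- Class factors `2^(-τ j)`. -/
noncomputable def sOf (τ : Fin (n + 1) → ℕ) (j : Fin (n + 1)) : ℝ := (1 / 2) ^ τ j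

/-- Every class has probability at least `1 / (30 (n+1))`. -/
def Bal (M₁ M₂ : Matroid (Fin n)) (kk τ : Fin (n + 1) → ℕ) : Prop :=
  ∀ j, Zs M₁ M₂ kk (sOf τ) ≤ 30 * ((n : ℝ) + 1) * (sOf τ j * clsN M₁ M₂ kk j)

def coinR : Rand ℕ := .flip (.ret 0) (.ret 1)

/-- A uniform number below `2^k`. -/
def bits (k : ℕ) : Rand ℕ := iter (fun r => coinR.bind fun c => .ret (r + r + c)) k 0

/-- 1 with probability `2^(-d)`, else 0. -/
def heads (d : ℕ) : Rand ℕ :=
  iter (fun acc => coinR.bind fun c => .ret (if c = 0 then 0 else acc)) d 1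

open Classical in
/-- Proposal: put option `x` into the hole, make `j` the new hole; Metropolis filter. -/
noncomputable def moveR (M₁ M₂ : Matroid (Fin n)) (Q : ℕ) (kk τ : Fin (n + 1) → ℕ) (s : St n)
    (x : Fin 3) (j : Fin (n + 1)) : Rand (St n) :=
  if j = s.1 ∨ (x ≠ 0 ∧ kk s.1 = 0) then .ret s
  else if feas M₁ M₂ (Function.update (Function.update s.2 s.1 x) j 0) then
    (heads (min Q ((τ j + ex kk j (s.2 j)) - (τ s.1 + ex kk s.1 x)))).bind fun acc =>
      .ret (if acc = 0 then s else (j, Function.update (Function.update s.2 s.1 x) j 0))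
  else .ret s

/-- One step of the chain. -/
noncomputable def stepR (M₁ M₂ : Matroid (Fin n)) (Q : ℕ) (kk τ : Fin (n + 1) → ℕ) (s : St n) :
    Rand (St n) :=
  (bits 2).bind fun x => (bits (Nat.size (n + 1))).bind fun j =>
    if h : x < 3 ∧ j < n + 1 then moveR M₁ M₂ Q kk τ s ⟨x, h.1⟩ ⟨j, h.2⟩ else .ret s

/-- Levels after `t` increments: slot 0 is raised `P` times, then slot 1, and so on. -/
def lev (n P t : ℕ) (c : Fin (n + 1)) : ℕ := min P (t - c.val * P)

/-- The slot raised by increment number `t` (counted from 0). -/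
def slotAt (n P t : ℕ) : Fin (n + 1) := ⟨min (t / P) n, Nat.lt_succ_of_le (min_le_right _ _)⟩

def start (n : ℕ) : St n := (Fin.last n, fun _ => 0)

/-- Anneal from the start state through the stages `0, …, t1 - 1`. -/
noncomputable def sampleR (M₁ M₂ : Matroid (Fin n)) (P Q : ℕ) (hist : ℕ → Fin (n + 1) → ℕ)
    (t1 : ℕ) : Rand (St n) :=
  iterIdx (fun t s => iter (stepR M₁ M₂ Q (lev n P (t + 1)) (hist t)) Q s) t1 (start n)

/-- Class counts, numerator accumulator, denominator accumulator. -/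
abbrev Tally (n : ℕ) : Type := (Fin (n + 1) → ℕ) × ℕ × ℕ

def tallyUpd (P t num den : ℕ) (a : Tally n) (s : St n) : Tally n :=
  (Function.update a.1 s.1 (a.1 s.1 + 1),
    if s.1 = Fin.last n then a.2.1 + (num + num) else a.2.1,
    if s.1 = Fin.last n then
      (if s.2 (slotAt n P t) = 0 then a.2.2 + (den + den)
        else if t % P = 0 then a.2.2 else a.2.2 + den)
    else a.2.2)

/-- Exponent history, numerator, denominator. -/
abbrev Acc (n : ℕ) : Type := (ℕ → Fin (n + 1) → ℕ) × ℕ × ℕ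

noncomputable def tallyR (M₁ M₂ : Matroid (Fin n)) (P Q t : ℕ) (A : Acc n) : Rand (Tally n) :=
  iter (fun a => (sampleR M₁ M₂ P Q A.1 (t + 1)).bind fun s =>
    .ret (tallyUpd P t A.2.1 A.2.2 a s)) Q (fun _ => 0, 0, 0)

noncomputable def stageR (M₁ M₂ : Matroid (Fin n)) (P Q t : ℕ) (A : Acc n) : Rand (Acc n) :=
  (tallyR M₁ M₂ P Q t A).bind fun a =>
    .ret (Function.update A.1 (t + 1) (fun c => A.1 t c + Nat.size (a.1 c)), a.2.1, a.2.2)

noncomputable def algR (M₁ M₂ : Matroid (Fin n)) (P Q : ℕ) : Rand ℕ :=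
  (iterIdx (stageR M₁ M₂ P Q) (n * P) (fun _ _ => 0, 1, 1)).bind fun A =>
    .ret ((A.2.1 + A.2.1 + A.2.2 * 2 ^ (n * P)) / (A.2.2 * 2 ^ (n * P) + A.2.2 * 2 ^ (n * P)))

/-- Number of common bases. -/
noncomputable def nCommon (M₁ M₂ : Matroid (Fin n)) : ℕ :=
  {B : Set (Fin n) | M₁.IsBase B ∧ M₂.IsBase B}.ncard

end

end Vale.Agent.P317
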