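import Vale.Agent.P317.Lang
import Vale.Agent.P317.Spec

/-! The program text and the representation relations. -/

namespace Vale.Agent.P317

abbrev aN : ℕ := 2
abbrev aN1 : ℕ := 3
abbrev aP : ℕ := 4
abbrev aQ : ℕ := 5
abbrev aKAP : ℕ := 6
abbrev aS : ℕ := 7
abbrev aX : ℕ := 10
abbrev aH : ℕ := 11
abbrev aKK : ℕ := 12
abbrev aTAU : ℕ := 13
abbrev aCNT : ℕ := 14
abbrev aNUM : ℕ := 15
abbrev aDEN : ℕ := 16
abbrev aNA : ℕ := 17
abbrev aDA : ℕ := 18
abbrev aT : ℕ := 19
abbrev aT2 : ℕ := 20
abbrev aPTR : ℕ := 21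
abbrev aTP : ℕ := 22
abbrev aR : ℕ := 23
abbrev aC : ℕ := 24
abbrev aX0 : ℕ := 25
abbrev aJ : ℕ := 26
abbrev aACC : ℕ := 27
abbrev aI : ℕ := 28
abbrev aQA : ℕ := 29
abbrev aOK : ℕ := 30
abbrev aANS : ℕ := 31
abbrev aOLD : ℕ := 32
abbrev aOLDH : ℕ := 33
abbrev aD : ℕ := 34
abbrev aTMP : ℕ := 35
abbrev aJUNK : ℕ := 36
abbrev aE1 : ℕ := 37
abbrev aE2 : ℕ := 38

/-- Scalar variable: cell 0 of an array. -/
def var (a : ℕ) : Expr := .load a (.const 0)

def asg (a : ℕ) (e : Expr) : Cmd := .store a (.const 0) e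

def skip : Cmd := asg aJUNK (.const 0)

/-- Minimum of a scalar variable and an expression. -/
def minE (p : ℕ) (e : Expr) : Expr := .sub (var p) (.sub (var p) e)

/-- `for I in 0 .. bound-1 do body`. -/
def forI (bound : Expr) (body : Cmd) : Cmd :=
  .seq (asg aI (.const 0)) (.loop bound (.seq body (asg aI (.add (var aI) (.const 1)))))

/-- `R :=` uniform number with `e` bits. -/
def bitsC (e : Expr) : Cmd :=
  .seq (asg aR (.const 0))
    (.loop e (.seq (.coin aC) (asg aR (.add (.add (var aR) (var aR)) (var aC)))))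

/-- `ACC :=` 1 iff `min Q D` coins all show 1. -/
def headsC : Cmd :=
  .seq (asg aACC (.const 1))
    (.loop (minE aQ (var aD)) (.seq (.coin aC) (.ifz (var aC) (asg aACC (.const 0)) skip)))

/-- `OK :=` 1 iff the options in `X` are feasible. -/
def feasC : Cmd :=
  .seq (forI (var aN) (.store aQA (var aI) (.mod (.load aX (var aI)) (.const 2))))
  (.seq (.query false aQA aOK)
  (.seq (forI (var aN) (.store aQA (var aI) (.const 0)))
  (.seq (forI (var aN) (.ifz (.div (.load aX (var aI)) (.const 2))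
      (.seq (.store aQA (var aI) (.const 1))
        (.seq (.query true aQA aANS) (.store aQA (var aI) (var aANS))))
      skip))
    (forI (var aN) (.ifz (.div (.load aX (var aI)) (.const 2))
      skip
      (.seq (.store aQA (var aI) (.const 1))
        (.seq (.query true aQA aANS)
          (.seq (.store aQA (var aI) (.const 0))
            (.ifz (var aANS) skip (asg aOK (.const 0)))))))))))

/-- `D :=` the Metropolis exponent. -/
def expoC : Cmd :=
  .seq (.ifz (var aOLD) (asg aE1 (.const 0)) (asg aE1 (.load aKK (var aJ))))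
  (.seq (.ifz (var aX0) (asg aE2 (.const 0)) (asg aE2 (.load aKK (var aH))))
    (asg aD (.sub (.add (.load aTAU (.add (var aPTR) (var aJ))) (var aE1))
      (.add (.load aTAU (.add (var aPTR) (var aH))) (var aE2)))))

def undoC : Cmd := .seq (.store aX (var aJ) (var aOLD)) (.store aX (var aH) (var aOLDH))

/-- The move proper, once it is known that `J ≠ H` and the new option has positive weight. -/
def tryC : Cmd :=
  .seq (asg aOLD (.load aX (var aJ)))
  (.seq (asg aOLDH (.load aX (var aH)))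
  (.seq (.store aX (var aH) (var aX0))
  (.seq (.store aX (var aJ) (.const 0))
  (.seq feasC
    (.ifz (var aOK) undoC
      (.seq expoC (.seq headsC (.ifz (var aACC) undoC (asg aH (var aJ))))))))))

def moveC : Cmd :=
  .ifz (.add (.sub (var aJ) (var aH)) (.sub (var aH) (var aJ))) skip
    (.ifz (var aX0) tryC (.ifz (.load aKK (var aH)) skip tryC))

def stepC : Cmd :=
  .seq (bitsC (.const 2))
  (.seq (asg aX0 (var aR))
  (.seq (bitsC (var aKAP))
  (.seq (asg aJ (var aR))
    (.ifz (.add (.div (var aX0) (.const 3)) (.sub (var aJ) (var aN))) moveC skip))))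

def sampleC : Cmd :=
  .seq (forI (var aN1) (.seq (.store aX (var aI) (.const 0)) (.store aKK (var aI) (.const 0))))
  (.seq (asg aH (var aN))
  (.seq (asg aT2 (.const 0))
  (.seq (asg aPTR (.const 0))
    (.loop (minE aQ (.add (var aT) (.const 1)))
      (.seq (.store aKK (.div (var aT2) (var aP))
          (.add (.load aKK (.div (var aT2) (var aP))) (.const 1)))
      (.seq (.loop (var aQ) stepC)
      (.seq (asg aT2 (.add (var aT2) (.const 1)))
        (asg aPTR (.add (var aPTR) (var aN1))))))))))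

def tallyC : Cmd :=
  .seq (.store aCNT (var aH) (.add (.load aCNT (var aH)) (.const 1)))
    (.ifz (.sub (var aN) (var aH))
      (.seq (asg aNA (.add (var aNA) (.add (var aNUM) (var aNUM))))
        (.ifz (.load aX (.div (var aT) (var aP)))
          (asg aDA (.add (var aDA) (.add (var aDEN) (var aDEN))))
          (.ifz (.mod (var aT) (var aP)) skip (asg aDA (.add (var aDA) (var aDEN))))))
      skip)

def stageC : Cmd :=
  .seq (forI (var aN1) (.store aCNT (var aI) (.const 0)))
  (.seq (asg aNA (.const 0))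
  (.seq (asg aDA (.const 0))
  (.seq (.loop (var aQ) (.seq sampleC tallyC))
  (.seq (asg aNUM (var aNA))
  (.seq (asg aDEN (var aDA))
  (.seq (forI (var aN1) (.store aTAU (.add (.add (var aTP) (var aN1)) (var aI))
      (.add (.load aTAU (.add (var aTP) (var aI))) (.len (.load aCNT (var aI))))))
  (.seq (asg aTP (.add (var aTP) (var aN1)))
    (asg aT (.add (var aT) (.const 1))))))))))

def mainC : Cmd :=
  .seq (asg aNUM (.const 1))
  (.seq (asg aDEN (.const 1))
  (.seq (asg aT (.const 0))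
  (.seq (asg aTP (.const 0))
  (.seq (.loop (var aS) stageC)
  (.seq (.loop (var aS) (asg aDEN (.add (var aDEN) (var aDEN))))
    (asg 1 (.div (.add (.add (var aNUM) (var aNUM)) (var aDEN)) (.add (var aDEN) (var aDEN)))))))))

/-- Straight-line part of the initialisation: `n`, `n+1`, the bit length of `n+1`, and `P`. -/
def init0C : Cmd :=
  .seq (asg aN (.load 0 (.const 0)))
  (.seq (asg aN1 (.add (var aN) (.const 1)))
  (.seq (asg aKAP (.len (var aN1)))
    (asg aP (.add (.add (.add (var aN) (var aN))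
        (.add (.div (.load 0 (.const 2)) (.load 0 (.const 1))) (.const 1)))
      (.add (.len (.div (.load 0 (.const 4)) (.load 0 (.const 3)))) (.const 16))))))

/-- `S := n * P` and `Q := P ^ 40` by repeated addition. -/
def init1C : Cmd :=
  .seq (asg aS (.const 0))
  (.seq (.loop (var aP) (asg aS (.add (var aS) (var aN))))
  (.seq (asg aQ (.const 1))
    (.loop (.const 40)
      (.seq (asg aTMP (.const 0))
      (.seq (.loop (var aP) (asg aTMP (.add (var aTMP) (var aQ))))
        (asg aQ (var aTMP)))))))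

def progC : Cmd := .seq init0C (.seq init1C mainC)

/-- The value of the main parameter. -/
def parP (n : ℕ) (ε δ : ℚ) : ℕ :=
  n + n + (ε.den / ε.num.toNat + 1) + (Nat.size (δ.den / δ.num.toNat) + 16)

variable {n : ℕ}

/-- The parameter arrays hold the right values. -/
def Par (n P Q : ℕ) (m : Mem) : Prop :=
  m aN 0 = n ∧ m aN1 0 = n + 1 ∧ m aP 0 = P ∧ m aQ 0 = Q ∧ m aKAP 0 = Nat.size (n + 1) ∧
    m aS 0 = n * P

def RepU (m : Mem) (U : Fin (n + 1) → Fin 3) : Prop := ∀ c : Fin (n + 1), m aX c = (U c).val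

def RepSt (m : Mem) (s : St n) : Prop := m aH 0 = s.1.val ∧ RepU m s.2

def RepK (m : Mem) (kk : Fin (n + 1) → ℕ) : Prop := ∀ c : Fin (n + 1), m aKK c = kk c

def RepTau (m : Mem) (τ : Fin (n + 1) → ℕ) : Prop :=
  ∀ c : Fin (n + 1), m aTAU (m aPTR 0 + c) = τ c

def RepHist (m : Mem) (hist : ℕ → Fin (n + 1) → ℕ) (t : ℕ) : Prop :=
  ∀ t', t' ≤ t → ∀ c : Fin (n + 1), m aTAU (t' * (n + 1) + c) = hist t' c

def RepTally (m : Mem) (a : Tally n) : Prop :=
  (∀ c : Fin (n + 1), m aCNT c = a.1 c) ∧ m aNA 0 = a.2.1 ∧ m aDA 0 = a.2.2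

def RepAcc (m : Mem) (t : ℕ) (A : Acc n) : Prop :=
  m aT 0 = t ∧ m aTP 0 = t * (n + 1) ∧ RepHist m A.1 t ∧ m aNUM 0 = A.2.1 ∧ m aDEN 0 = A.2.2

/-- Arrays written by the feasibility test, a chain step, the sampler, a stage. -/
def wFeas : List ℕ := [aI, aQA, aOK, aANS, aJUNK]
def wStep : List ℕ :=
  [aI, aQA, aOK, aANS, aJUNK, aX, aH, aR, aC, aX0, aJ, aACC, aOLD, aOLDH, aD, aE1, aE2]
def wSample : List ℕ := wStep ++ [aKK, aT2, aPTR]
def wStage : List ℕ := wSample ++ [aCNT, aNA, aDA, aNUM, aDEN, aTAU, aTP, aT]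

theorem feasC_writes : ∀ a ∈ feasC.writes, a ∈ wFeas := by decide
theorem stepC_writes : ∀ a ∈ stepC.writes, a ∈ wStep := by decide
theorem sampleC_writes : ∀ a ∈ sampleC.writes, a ∈ wSample := by decide
set_option maxRecDepth 8000 in
theorem stageC_writes : ∀ a ∈ stageC.writes, a ∈ wStage := by decide

end Vale.Agent.P317
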