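import Vale.Agent.P317.Spec

/-! Local hyperbolicity from a rank function; the rank function of the slot matroid. -/

namespace Vale.Agent.P317

open Finset

theorem psd_of_map {G K : Type} [DecidableEq K] (T : Finset G) (f : G → K) (u : G → ℝ) :
    0 ≤ ∑ y ∈ T, ∑ y' ∈ T, if f y = f y' then u y * u y' else 0 := by
  have : ∑ y ∈ T, ∑ y' ∈ T, (if f y = f y' then u y * u y' else 0) =
      ∑ k ∈ T.image f, (∑ y ∈ T, if f y = k then u y else 0) ^ 2 := by
    simp only [sq, sum_mul_sum]
    rw [sum_comm (s := T.image f)]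
    refine sum_congr rfl fun y hy => ?_
    rw [sum_comm (s := T.image f)]
    refine sum_congr rfl fun y' _ => ?_
    rw [sum_eq_single (f y)]
    · by_cases h : f y = f y'
      · simp [h]
      · simp [h, Ne.symm h]
    · intro k _ hk
      simp [Ne.symm hk]
    · intro h
      exact absurd (mem_image_of_mem f hy) h
  rw [this]
  exact sum_nonneg fun _ _ => sq_nonneg _

/-- For a matroid-like rank function, nullity weights have hyperbolic removal matrices. -/
theorem hyp_of_rank {G : Type} [DecidableEq G] (r : Finset G → ℕ)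
    (hmono : ∀ S T : Finset G, S ⊆ T → r S ≤ r T)
    (hins : ∀ (S : Finset G) (y : G), r (insert y S) ≤ r S + 1)
    (hsub : ∀ S T : Finset G, r (S ∩ T) + r (S ∪ T) ≤ r S + r T)
    (hle : ∀ S : Finset G, r S ≤ S.card)
    (w : G → ℝ) (hw : ∀ y, 0 < w y) (t : ℝ) (ht0 : 0 < t) (ht1 : t ≤ 1) (T : Finset G) :
    Hyp T (mat (fun S => (∏ y ∈ S, w y) * t ^ (S.card - r S)) T) := by
  have her : ∀ (S : Finset G) (y : G), r S ≤ r (S.erase y) + 1 := fun S y =>
    (hmono _ _ (subset_insert_iff.2 Subset.rfl)).trans (hins _ y)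
  have hm : ∀ (S : Finset G) (y : G), r (S.erase y) ≤ r S := fun S y => hmono _ _ (erase_subset _ _)
  have hco : ∀ y ∈ T, ∀ y', y ≠ y' → r (T.erase y) < r T →
      r ((T.erase y').erase y) < r (T.erase y') := fun y hy y' hne h => by
    have h1 := hsub (T.erase y') (T.erase y)
    have h2 : T.erase y' ∩ T.erase y = (T.erase y').erase y := by ext; simp; tauto
    have h3 : T.erase y' ∪ T.erase y = T := by
      ext a; simp only [mem_union, mem_erase]; constructor
      · tauto
      · intro ha; by_cases e : a = y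
        · exact Or.inl ⟨e ▸ hne, ha⟩
        · exact Or.inr ⟨e, ha⟩
    rw [h2, h3] at h1
    omega
  let E : G → G → Prop := fun y y' => y = y' ∨
    (r (T.erase y) = r T ∧ r (T.erase y') = r T ∧ r ((T.erase y).erase y') < r T)
  have Es : ∀ {y y'}, E y y' → E y' y := fun {y y'} h =>
    h.imp Eq.symm fun h => ⟨h.2.1, h.1, erase_right_comm (s := T) (a := y) ▸ h.2.2⟩
  have Et : ∀ {x y z}, E x y → E y z → E x z := by
    rintro x y z (rfl | h1) h2
    · exact h2
    rcases h2 with rfl | h2
    · exact Or.inr h1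
    by_cases e : x = z
    · exact Or.inl e
    refine Or.inr ⟨h1.1, h2.2.1, ?_⟩
    have h3 := hsub ((T.erase x).erase y) ((T.erase y).erase z)
    have h4 : (T.erase x).erase y ∩ (T.erase y).erase z = ((T.erase x).erase z).erase y := by
      ext; simp; tauto
    have h5 : (T.erase x).erase y ∪ (T.erase y).erase z = T.erase y := by
      ext a; simp only [mem_union, mem_erase]; constructor
      · tauto
      · intro ha; by_cases e' : a = x
        · exact Or.inr ⟨e' ▸ e, ha⟩
        · exact Or.inl ⟨ha.1, e', ha.2⟩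
    rw [h4, h5] at h3
    have h6 := her ((T.erase x).erase z) y
    omega
  classical
  have hE : ∀ y ∈ T, ∀ y' ∈ T, (T.filter (E y) = T.filter (E y') ↔ E y y') := fun y _ y' hy' =>
    ⟨fun h => (mem_filter.1 (h.ge (mem_filter.2 ⟨hy', Or.inl rfl⟩))).2,
      fun h => filter_congr fun x _ => ⟨Et (Es h), Et h⟩⟩
  set σ : G → ℝ := fun y => (if r (T.erase y) < r T then t else 1) / w y with hσ
  set c : ℝ := (∏ y ∈ T, w y) * (t ^ (T.card - 2) / t ^ r T) with hc
  have hc0 : 0 ≤ c := by have := prod_pos fun y (_ : y ∈ T) => hw y; positivity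
  have hA : ∀ y ∈ T, ∀ y' ∈ T, mat (fun S => (∏ y ∈ S, w y) * t ^ (S.card - r S)) T y y' =
      c * (σ y * σ y') * (1 - t * (if y = y' then 1 else 0) -
        (1 - t) * if T.filter (E y) = T.filter (E y') then 1 else 0) := fun y hy y' hy' => by
    simp only [hE y hy y' hy', mat]
    by_cases e : y = y'
    · rw [if_pos e, if_pos e, if_pos (Or.inl e)]; ring
    rw [if_neg e, if_neg e]
    have hy'' : y' ∈ T.erase y := mem_erase.2 ⟨Ne.symm e, hy'⟩
    have h1 : (∏ y ∈ T, w y) = w y * (w y' * ∏ x ∈ (T.erase y).erase y', w x) := by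
      rw [mul_prod_erase _ _ hy'', mul_prod_erase _ _ hy]
    have h2 : ((T.erase y).erase y').card = T.card - 2 := by
      rw [card_erase_of_mem hy'', card_erase_of_mem hy]; omega
    have h3 : t ^ (((T.erase y).erase y').card - r ((T.erase y).erase y')) =
        t ^ (T.card - 2) / t ^ r T * t ^ (r T - r ((T.erase y).erase y')) := by
      rw [pow_sub₀ _ ht0.ne' (hle _), pow_sub₀ _ ht0.ne' ((hm _ _).trans (hm _ _)), h2]
      field_simp
    have h4 : t ^ (r T - r ((T.erase y).erase y')) = (if r (T.erase y) < r T then t else 1) *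
        (if r (T.erase y') < r T then t else 1) * (1 - (1 - t) * if E y y' then 1 else 0) := by
      have a1 := her T y
      have a2 := her T y'
      have a3 := her (T.erase y) y'
      have a4 := her (T.erase y') y
      have a5 := hco y hy y' e
      have a6 := hco y' hy' y (Ne.symm e)
      have a7 := hm T y
      have a8 := hm T y'
      have a9 := hm (T.erase y) y'
      rw [erase_right_comm] at a4 a5
      by_cases b1 : r (T.erase y) < r T <;> by_cases b2 : r (T.erase y') < r T
      · rw [if_pos b1, if_pos b2, if_neg (fun h => h.elim e fun h => by omega),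
          show r T - r ((T.erase y).erase y') = 2 by omega]
        ring
      · rw [if_pos b1, if_neg b2, if_neg (fun h => h.elim e fun h => by omega),
          show r T - r ((T.erase y).erase y') = 1 by omega]
        ring
      · rw [if_neg b1, if_pos b2, if_neg (fun h => h.elim e fun h => by omega),
          show r T - r ((T.erase y).erase y') = 1 by omega]
        ring
      · rw [if_neg b1, if_neg b2]
        by_cases b3 : r ((T.erase y).erase y') < r T
        · rw [if_pos (Or.inr ⟨by omega, by omega, b3⟩),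
            show r T - r ((T.erase y).erase y') = 1 by omega]
          ring
        · rw [if_neg (fun h => h.elim e fun h => by omega), show r T - r ((T.erase y).erase y') = 0 by omega]
          ring
    rw [h3, h4, hc, h1, hσ]
    have := (hw y).ne'
    have := (hw y').ne'
    field_simp
    ring
  refine hyp_of_nsd T _ (mat_symm _ T) σ fun z hz => ?_
  have h1 := psd_of_map T (fun y => T.filter (E y)) fun y => σ y * z y
  have h2 := psd_of_map T id fun y => σ y * z y
  have h3 : bf T (mat (fun S => (∏ y ∈ S, w y) * t ^ (S.card - r S)) T) z z =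
      c * ((∑ y ∈ T, σ y * z y) * (∑ y ∈ T, σ y * z y) -
        t * (∑ y ∈ T, ∑ y' ∈ T, if id y = id y' then σ y * z y * (σ y' * z y') else 0) -
        (1 - t) * ∑ y ∈ T, ∑ y' ∈ T,
          if T.filter (E y) = T.filter (E y') then σ y * z y * (σ y' * z y') else 0) := by
    rw [sum_mul_sum]
    simp only [bf, mul_sum, ← sum_sub_distrib, id]
    refine sum_congr rfl fun y hy => sum_congr rfl fun y' hy' => ?_
    rw [hA y hy y' hy']
    split_ifs <;> ring
  rw [h3, hz]
  refine mul_nonpos_of_nonneg_of_nonpos hc0 ?_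
  nlinarith [mul_nonneg ht0.le h2, mul_nonneg (sub_nonneg.2 ht1) h1]

variable {n : ℕ}

/-- Rank of a set of slot elements in `M₁ ⊕ M₂✶ ⊕ free` (real options of the last slot are loops). -/
noncomputable def rk (M₁ M₂ : Matroid (Fin n)) (S : Finset (Fin (n + 1) × Fin 3)) : ℕ :=
  (M₁.eRk {e | (e.castSucc, (1 : Fin 3)) ∈ S}).toNat
    + (M₂✶.eRk {e | (e.castSucc, (2 : Fin 3)) ∈ S}).toNat
    + (S.filter fun y => y.2 = 0).card

theorem coe_toNat_eRk (M : Matroid (Fin n)) (X : Set (Fin n)) :
    ((M.eRk X).toNat : ℕ∞) = M.eRk X :=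
  ENat.natCast_toNat ((M.eRk_le_encard X).trans_lt (Set.toFinite X).encard_lt_top).ne

theorem nrk_mono (M : Matroid (Fin n)) {X Y : Set (Fin n)} (h : X ⊆ Y) :
    (M.eRk X).toNat ≤ (M.eRk Y).toNat := by
  have := M.eRk_mono h
  rw [← coe_toNat_eRk, ← coe_toNat_eRk M Y] at this
  exact_mod_cast this

theorem nrk_insert (M : Matroid (Fin n)) (X : Set (Fin n)) (e : Fin n) :
    (M.eRk (insert e X)).toNat ≤ (M.eRk X).toNat + 1 := by
  have := M.eRk_insert_le_add_one e X
  rw [← coe_toNat_eRk, ← coe_toNat_eRk M X] at this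
  exact_mod_cast this

theorem nrk_submod (M : Matroid (Fin n)) (X Y : Set (Fin n)) :
    (M.eRk (X ∩ Y)).toNat + (M.eRk (X ∪ Y)).toNat ≤ (M.eRk X).toNat + (M.eRk Y).toNat := by
  have := M.eRk_inter_add_eRk_union_le X Y
  rw [← coe_toNat_eRk, ← coe_toNat_eRk M X, ← coe_toNat_eRk M Y,
    ← coe_toNat_eRk M (X ∪ Y)] at this
  exact_mod_cast this

theorem nrk_le (M : Matroid (Fin n)) (X : Set (Fin n)) : (M.eRk X).toNat ≤ X.ncard := by
  have := M.eRk_le_encard X
  rw [← coe_toNat_eRk, ← (Set.toFinite X).cast_ncard_eq] at this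
  exact_mod_cast this

theorem nrk_eq_iff (M : Matroid (Fin n)) (X : Set (Fin n)) :
    (M.eRk X).toNat = X.ncard ↔ M.Indep X := by
  rw [Matroid.indep_iff_eRk_eq_encard_of_finite (Set.toFinite X), ← Nat.cast_inj (R := ℕ∞),
    coe_toNat_eRk, (Set.toFinite X).cast_ncard_eq]

theorem nrk_slot_insert (M : Matroid (Fin n)) (k : Fin 3) (S : Finset (Fin (n + 1) × Fin 3))
    (y : Fin (n + 1) × Fin 3) :
    (M.eRk {e | (e.castSucc, k) ∈ insert y S}).toNat ≤
      (M.eRk {e | (e.castSucc, k) ∈ S}).toNat + if y.2 = k then 1 else 0 := by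
  by_cases h : ∃ e0 : Fin n, y = (e0.castSucc, k)
  · obtain ⟨e0, rfl⟩ := h
    rw [if_pos rfl]
    refine (nrk_mono M fun e he => ?_).trans (nrk_insert M _ e0)
    simpa using he
  · refine le_add_right (nrk_mono M fun e he => ?_)
    exact (mem_insert.1 he).resolve_left fun h' => h ⟨e, h'.symm⟩

theorem rk_mono (M₁ M₂ : Matroid (Fin n)) (S T : Finset (Fin (n + 1) × Fin 3)) (h : S ⊆ T) :
    rk M₁ M₂ S ≤ rk M₁ M₂ T :=
  add_le_add (add_le_add (nrk_mono _ fun _ he => h he) (nrk_mono _ fun _ he => h he))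
    (card_le_card (filter_subset_filter _ h))

theorem rk_insert (M₁ M₂ : Matroid (Fin n)) (S : Finset (Fin (n + 1) × Fin 3))
    (y : Fin (n + 1) × Fin 3) : rk M₁ M₂ (insert y S) ≤ rk M₁ M₂ S + 1 := by
  have h1 := nrk_slot_insert M₁ 1 S y
  have h2 := nrk_slot_insert M₂✶ 2 S y
  have h3 : ((insert y S).filter fun y => y.2 = 0).card ≤
      (S.filter fun y => y.2 = 0).card + if y.2 = 0 then 1 else 0 := by
    rw [filter_insert]
    split_ifs
    exacts [card_insert_le _ _, le_rfl]
  unfold rk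
  split_ifs at h1 h2 h3 <;> omega

theorem rk_submod (M₁ M₂ : Matroid (Fin n)) (S T : Finset (Fin (n + 1) × Fin 3)) :
    rk M₁ M₂ (S ∩ T) + rk M₁ M₂ (S ∪ T) ≤ rk M₁ M₂ S + rk M₁ M₂ T := by
  have h1 := nrk_submod M₁ {e | (e.castSucc, (1 : Fin 3)) ∈ S} {e | (e.castSucc, (1 : Fin 3)) ∈ T}
  have h2 := nrk_submod M₂✶ {e | (e.castSucc, (2 : Fin 3)) ∈ S} {e | (e.castSucc, (2 : Fin 3)) ∈ T}
  have h3 := card_inter_add_card_union (S.filter fun y => y.2 = 0) (T.filter fun y => y.2 = 0)
  unfold rk
  simp only [mem_inter, mem_union, filter_inter_distrib, filter_union, Set.ofPred_and, Set.ofPred_or]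
  omega

theorem rk_le_card (M₁ M₂ : Matroid (Fin n)) (S : Finset (Fin (n + 1) × Fin 3)) :
    rk M₁ M₂ S ≤ S.card := by
  induction S using Finset.induction_on with
  | empty => simp [rk]
  | insert y S hy ih =>
    rw [card_insert_of_notMem hy]
    exact (rk_insert M₁ M₂ S y).trans (Nat.add_le_add_right ih 1)

/-- Full rank of a state's element set is feasibility. -/
theorem rk_gset_iff (M₁ M₂ : Matroid (Fin n)) (j : Fin (n + 1)) (U : Fin (n + 1) → Fin 3)
    (hU : j ≠ Fin.last n → U (Fin.last n) = 0) :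
    rk M₁ M₂ (gset U (univ.erase j)) = (gset U (univ.erase j)).card ↔
      feas M₁ M₂ (Function.update U j 0) := by
  set S := gset U (univ.erase j) with hS
  have hmem : ∀ c x, (c, x) ∈ S ↔ c ≠ j ∧ U c = x := fun c x => by
    simp only [hS, gset, mem_image, mem_erase, mem_univ, and_true, Prod.mk.injEq]
    exact ⟨fun ⟨a, h1, h2, h3⟩ => h2 ▸ ⟨h1, h3⟩, fun h => ⟨c, h.1, rfl, h.2⟩⟩
  have hset : ∀ k : Fin 3, k ≠ 0 →
      {e : Fin n | (e.castSucc, k) ∈ S} = {e | Function.update U j 0 e.castSucc = k} :=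
    fun k hk => Set.ext fun e => by
      simp only [Set.mem_ofPred_eq, hmem]
      by_cases h : e.castSucc = j
      · simp [h, hk.symm]
      · simp [h]
  have hcard : ∀ k : Fin 3, k ≠ 0 →
      {e : Fin n | (e.castSucc, k) ∈ S}.ncard = (S.filter fun y => y.2 = k).card := fun k hk => by
    rw [← Set.ncard_coe_finset]
    refine Set.ncard_congr (fun e _ => (e.castSucc, k)) (fun e he => by simpa using he)
      (fun a b _ _ h => by simpa using h) ?_
    rintro ⟨c, x⟩ hy
    obtain ⟨h1, rfl⟩ : (c, x) ∈ S ∧ x = k := by simpa using hy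
    have h2 := (hmem c x).1 h1
    obtain ⟨e, rfl⟩ := Fin.exists_castSucc_eq.2 (show c ≠ Fin.last n by
      rintro rfl
      exact hk (h2.2.symm.trans (hU h2.1.symm)))
    exact ⟨e, h1, rfl⟩
  have htot : S.card = (S.filter fun y => y.2 = 0).card + (S.filter fun y => y.2 = 1).card +
      (S.filter fun y => y.2 = 2).card := by
    rw [card_eq_sum_card_fiberwise (f := Prod.snd) (t := univ) fun _ _ => mem_univ _,
      Fin.sum_univ_three]
  have h1 := nrk_le M₁ {e | (e.castSucc, (1 : Fin 3)) ∈ S}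
  have h2 := nrk_le M₂✶ {e | (e.castSucc, (2 : Fin 3)) ∈ S}
  have h3 := nrk_eq_iff M₁ {e | (e.castSucc, (1 : Fin 3)) ∈ S}
  have h4 := nrk_eq_iff M₂✶ {e | (e.castSucc, (2 : Fin 3)) ∈ S}
  rw [hcard _ (by decide)] at h1 h2 h3 h4
  rw [feas, inS, outS, ← hset _ (by decide), ← hset _ (by decide), Matroid.Coindep, ← h3, ← h4, rk]
  omega

end Vale.Agent.P317
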