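import Vale.Agent.P317.Prog

/-! Basic refinement rules and the feasibility test. -/

namespace Vale.Agent.P317

variable {n : ℕ}

/-- Deterministic triple: the run has a single outcome, and it satisfies `p`. -/
def Det (M₁ M₂ : Matroid (Fin n)) (c : Cmd) (m : Mem) (p : Mem → Prop) : Prop :=
  Sim (fun m' (_ : Unit) => p m') (run M₁ M₂ c m) (.ret ())

section rules
variable {M₁ M₂ : Matroid (Fin n)}

theorem Det.mono {c : Cmd} {m : Mem} {p q : Mem → Prop} (h : Det M₁ M₂ c m p)
    (hpq : ∀ m', p m' → q m') : Det M₁ M₂ c m q :=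
  Sim.mono (fun a _ ha => hpq a ha) h

theorem Det.frame {c : Cmd} {m : Mem} {p : Mem → Prop} (h : Det M₁ M₂ c m p) (W : List ℕ)
    (hW : ∀ a ∈ c.writes, a ∈ W) : Det M₁ M₂ c m fun m' => p m' ∧ Fr W m m' :=
  Sim.frame h W hW

theorem Det.seq {c d : Cmd} {m : Mem} {p q : Mem → Prop} (h : Det M₁ M₂ c m p)
    (h' : ∀ m', p m' → Det M₁ M₂ d m' q) : Det M₁ M₂ (.seq c d) m q :=
  Sim.det_bind h h'

theorem Det.seq_sim {β : Type} {c d : Cmd} {m : Mem} {p : Mem → Prop} {R : Mem → β → Prop}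
    {t : Rand β} (h : Det M₁ M₂ c m p) (h' : ∀ m', p m' → Sim R (run M₁ M₂ d m') t) :
    Sim R (run M₁ M₂ (.seq c d) m) t :=
  Sim.det_bind h h'

theorem Det.store {a : ℕ} {i e : Expr} {m : Mem} {p : Mem → Prop}
    (h : p (m.set a (i.eval m) (e.eval m))) : Det M₁ M₂ (.store a i e) m p := h

theorem Det.asg {a : ℕ} {e : Expr} {m : Mem} {p : Mem → Prop}
    (h : p (m.set a 0 (e.eval m))) : Det M₁ M₂ (asg a e) m p := h

theorem Det.skip {m : Mem} {p : Mem → Prop} (h : p (m.set aJUNK 0 0)) :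
    Det M₁ M₂ skip m p := h

theorem Det.to_sim {β : Type} {c : Cmd} {m : Mem} {R : Mem → β → Prop} {b : β}
    (h : Det M₁ M₂ c m fun m' => R m' b) : Sim R (run M₁ M₂ c m) (.ret b) := by
  unfold Det at h
  revert h
  cases run M₁ M₂ c m with
  | ret a => exact id
  | flip _ _ => exact id

theorem sim_store_seq {β : Type} {a : ℕ} {i e : Expr} {d : Cmd} {m : Mem} {R : Mem → β → Prop}
    {t : Rand β} (h : Sim R (run M₁ M₂ d (m.set a (i.eval m) (e.eval m))) t) :
    Sim R (run M₁ M₂ (.seq (.store a i e) d) m) t := h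

theorem sim_asg_seq {β : Type} {a : ℕ} {e : Expr} {d : Cmd} {m : Mem} {R : Mem → β → Prop}
    {t : Rand β} (h : Sim R (run M₁ M₂ d (m.set a 0 (e.eval m))) t) :
    Sim R (run M₁ M₂ (.seq (asg a e) d) m) t := h

theorem sim_ifz_zero {β : Type} {e : Expr} {c d : Cmd} {m : Mem} {R : Mem → β → Prop}
    {t : Rand β} (he : e.eval m = 0) (h : Sim R (run M₁ M₂ c m) t) :
    Sim R (run M₁ M₂ (.ifz e c d) m) t := by
  simp only [run, he, if_true]; exact h

theorem sim_ifz_ne {β : Type} {e : Expr} {c d : Cmd} {m : Mem} {R : Mem → β → Prop}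
    {t : Rand β} (he : e.eval m ≠ 0) (h : Sim R (run M₁ M₂ d m) t) :
    Sim R (run M₁ M₂ (.ifz e c d) m) t := by
  simp only [run, he, if_false]; exact h

theorem Det.ifz_zero {e : Expr} {c d : Cmd} {m : Mem} {p : Mem → Prop} (he : e.eval m = 0)
    (h : Det M₁ M₂ c m p) : Det M₁ M₂ (.ifz e c d) m p := sim_ifz_zero he h

theorem Det.ifz_ne {e : Expr} {c d : Cmd} {m : Mem} {p : Mem → Prop} (he : e.eval m ≠ 0)
    (h : Det M₁ M₂ d m p) : Det M₁ M₂ (.ifz e c d) m p := sim_ifz_ne he h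

theorem Det.store_seq {a : ℕ} {i e : Expr} {d : Cmd} {m : Mem} {p : Mem → Prop}
    (h : Det M₁ M₂ d (m.set a (i.eval m) (e.eval m)) p) :
    Det M₁ M₂ (.seq (.store a i e) d) m p := h

theorem Det.asg_seq {a : ℕ} {e : Expr} {d : Cmd} {m : Mem} {p : Mem → Prop}
    (h : Det M₁ M₂ d (m.set a 0 (e.eval m)) p) :
    Det M₁ M₂ (.seq (Vale.Agent.P317.asg a e) d) m p := h

open Classical in
theorem Det.query_seq {b : Bool} {q a : ℕ} {d : Cmd} {m : Mem} {p : Mem → Prop}
    (h : Det M₁ M₂ d (m.set a 0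
      (if (if b then M₂ else M₁).Indep {x : Fin n | m q x ≠ 0} then 1 else 0)) p) :
    Det M₁ M₂ (.seq (.query b q a) d) m p := h

theorem Det.loop {e : Expr} {c : Cmd} {m : Mem} {k : ℕ} (hk : e.eval m = k) (p : ℕ → Mem → Prop)
    (h0 : p 0 m) (hstep : ∀ i, i < k → ∀ m', p i m' → Det M₁ M₂ c m' (p (i + 1))) :
    Det M₁ M₂ (.loop e c) m (p k) := by
  unfold Det
  simp only [run, hk]
  exact Sim.iter_det k h0 hstep

@[simp] theorem eval_var (m : Mem) (a : ℕ) : (var a).eval m = m a 0 := rfl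

@[simp] theorem eval_const (m : Mem) (c : ℕ) : (Expr.const c).eval m = c := rfl

@[simp] theorem eval_load (m : Mem) (a : ℕ) (i : Expr) :
    (Expr.load a i).eval m = m a (i.eval m) := rfl

@[simp] theorem eval_add (m : Mem) (e f : Expr) :
    (Expr.add e f).eval m = e.eval m + f.eval m := rfl

@[simp] theorem eval_sub (m : Mem) (e f : Expr) :
    (Expr.sub e f).eval m = e.eval m - f.eval m := rfl

@[simp] theorem eval_div (m : Mem) (e f : Expr) :
    (Expr.div e f).eval m = e.eval m / f.eval m := rfl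

@[simp] theorem eval_mod (m : Mem) (e f : Expr) :
    (Expr.mod e f).eval m = e.eval m % f.eval m := rfl

@[simp] theorem eval_len (m : Mem) (e : Expr) :
    (Expr.len e).eval m = Nat.size (e.eval m) := rfl

theorem eval_minE (m : Mem) (p : ℕ) (e : Expr) :
    (minE p e).eval m = min (m p 0) (e.eval m) := by
  simp only [minE, eval_sub, eval_var]; omega

theorem Fr.set_right {W : List ℕ} {m m' : Mem} (h : Fr W m m') {a : ℕ} (ha : a ∈ W) (i v : ℕ) :
    Fr W m (m'.set a i v) := h.trans (Fr.set m' ha i v)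

end rules

/-- Rule for `forI` with a deterministic body that does not write `I`. -/
theorem det_forI (M₁ M₂ : Matroid (Fin n)) (bound : Expr) (body : Cmd) (m : Mem) (k : ℕ)
    (hk : bound.eval (m.set aI 0 0) = k) (hI : aI ∉ body.writes) (p : ℕ → Mem → Prop)
    (hp : ∀ i m' v, p i m' → p i (m'.set aI 0 v)) (h0 : p 0 m)
    (hstep : ∀ i, i < k → ∀ m', m' aI 0 = i → p i m' → Det M₁ M₂ body m' (p (i + 1))) :
    Det M₁ M₂ (forI bound body) m (p k) := by
  unfold forI
  refine Det.asg_seq ?_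
  refine (Det.loop hk (fun i m' => m' aI 0 = i ∧ p i m') ⟨by simp, hp _ _ _ h0⟩ ?_).mono
    fun _ h => h.2
  rintro i hi m' ⟨h1, h2⟩
  refine ((hstep i hi m' h1 h2).frame body.writes fun _ h => h).seq ?_
  rintro m'' ⟨h3, h4⟩
  refine Det.asg ⟨?_, hp _ _ _ h3⟩
  simp [h4 aI hI, h1]

theorem bitsC_sim (M₁ M₂ : Matroid (Fin n)) (e : Expr) (m : Mem) (k : ℕ)
    (hk : e.eval (m.set aR 0 0) = k) :
    Sim (fun m' r => m' aR 0 = r) (run M₁ M₂ (bitsC e) m) (bits k) := by
  unfold bitsC bits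
  refine sim_asg_seq ?_
  simp only [run, eval_const, hk]
  refine Sim.iter k (by simp) ?_
  intro m' r h
  simp [coinR, run, asg, h]

theorem headsC_sim (M₁ M₂ : Matroid (Fin n)) (m : Mem) :
    Sim (fun m' r => m' aACC 0 = r) (run M₁ M₂ headsC m) (heads (min (m aQ 0) (m aD 0))) := by
  unfold headsC heads
  refine sim_asg_seq ?_
  have hk : (minE aQ (var aD)).eval (m.set aACC 0 ((Expr.const 1).eval m)) =
      min (m aQ 0) (m aD 0) := by
    rw [eval_minE]; simp
  simp only [run, hk]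
  refine Sim.iter _ (by simp) ?_
  intro m' r h
  simp [coinR, run, asg, skip, h]

theorem marked_set (m : Mem) (x : Fin n) (v : ℕ) :
    {y : Fin n | (m.set aQA x v) aQA y ≠ 0} =
      if v = 0 then {y : Fin n | m aQA y ≠ 0} \ {x} else insert x {y : Fin n | m aQA y ≠ 0} := by
  ext y
  by_cases hy : y = x
  · subst hy
    by_cases hv : v = 0 <;> simp [hv]
  · have : (y : ℕ) ≠ x := fun h => hy (Fin.ext h)
    by_cases hv : v = 0 <;> simp [hv, Mem.set_same, this, hy]

/-- Invariant of the greedy phase. -/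
def Greedy (M : Matroid (Fin n)) (O J : Set (Fin n)) (i : ℕ) : Prop :=
  M.Indep J ∧ (∀ x ∈ J, x.val < i ∧ x ∉ O) ∧ ∀ x : Fin n, x.val < i → x ∉ O → x ∈ M.closure J

theorem Greedy.skip {M : Matroid (Fin n)} {O J : Set (Fin n)} {x : Fin n}
    (h : Greedy M O J x) (hx : x ∉ O → x ∈ M.closure J) : Greedy M O J (x + 1) := by
  refine ⟨h.1, fun y hy => ⟨(h.2.1 y hy).1.trans (Nat.lt_succ_self _), (h.2.1 y hy).2⟩, ?_⟩
  intro y hy hyO
  rcases Nat.lt_succ_iff_lt_or_eq.1 hy with h1 | h1
  · exact h.2.2 y h1 hyO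
  · obtain rfl := Fin.ext h1
    exact hx hyO

theorem Greedy.add {M : Matroid (Fin n)} {O J : Set (Fin n)} {x : Fin n}
    (h : Greedy M O J x) (hx : x ∉ O) (hi : M.Indep (insert x J)) :
    Greedy M O (insert x J) (x + 1) := by
  refine ⟨hi, ?_, ?_⟩
  · rintro y (rfl | hy)
    · exact ⟨Nat.lt_succ_self _, hx⟩
    · exact ⟨(h.2.1 y hy).1.trans (Nat.lt_succ_self _), (h.2.1 y hy).2⟩
  · intro y hy hyO
    rcases Nat.lt_succ_iff_lt_or_eq.1 hy with h1 | h1
    · exact M.closure_subset_closure (Set.subset_insert _ _) (h.2.2 y h1 hyO)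
    · obtain rfl := Fin.ext h1
      exact M.subset_closure _ hi.subset_ground (Set.mem_insert _ _)

theorem Greedy.coindep_iff {M : Matroid (Fin n)} (hE : M.E = Set.univ) {O J : Set (Fin n)}
    (h : Greedy M O J n) : M.Coindep O ↔ ∀ x ∈ O, ¬ M.Indep (insert x J) := by
  have hsub : ∀ X : Set (Fin n), X ⊆ M.E := fun X => by rw [hE]; exact Set.subset_univ X
  have hcl : M.closure J = M.closure (M.E \ O) := by
    apply Set.Subset.antisymm
    · exact M.closure_subset_closure fun x hx => ⟨hsub _ hx, (h.2.1 x hx).2⟩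
    · exact M.closure_subset_closure_of_subset_closure fun x hx => h.2.2 x x.2 hx.2
  rw [Matroid.coindep_iff_compl_spanning (hsub O), Matroid.spanning_iff_closure_eq (hsub _), ← hcl]
  constructor
  · intro h1 x hx
    have hxJ : x ∉ J := fun hJ => (h.2.1 x hJ).2 hx
    have : x ∈ M.closure J := by rw [h1, hE]; trivial
    exact ((h.1.mem_closure_iff_of_notMem hxJ).1 this).not_indep
  · intro h1
    apply Set.Subset.antisymm (M.closure_subset_ground J)
    intro x _
    by_cases hx : x ∈ O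
    · have hxJ : x ∉ J := fun hJ => (h.2.1 x hJ).2 hx
      exact (h.1.mem_closure_iff_of_notMem hxJ).2 ⟨h1 x hx, hsub _⟩
    · exact h.2.2 x x.2 hx

theorem opt_div_two (U : Fin (n + 1) → Fin 3) (x : Fin n) :
    (U x.castSucc).val / 2 = 0 ↔ x ∉ outS U := by
  simp only [outS, Set.mem_ofPred_eq]
  generalize U x.castSucc = y
  revert y; decide

theorem opt_mod_two (U : Fin (n + 1) → Fin 3) (x : Fin n) :
    (U x.castSucc).val % 2 ≠ 0 ↔ x ∈ inS U := by
  simp only [inS, Set.mem_ofPred_eq]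
  generalize U x.castSucc = y
  revert y; decide

open Classical in
theorem feasC_det (M₁ M₂ : Matroid (Fin n)) (h₂ : M₂.E = Set.univ) (m : Mem) (hn : m aN 0 = n)
    (U : Fin (n + 1) → Fin 3) (hU : RepU m U) :
    Det M₁ M₂ feasC m fun m' => m' aOK 0 = if feas M₁ M₂ U then 1 else 0 := by
  have hX : ∀ x : Fin n, m aX x = (U x.castSucc).val := fun x => hU x.castSucc
  have fX : ∀ {m'}, Fr wFeas m m' → m' aX = m aX := fun h => h aX (by decide)
  have fN : ∀ {m'}, Fr wFeas m m' → m' aN 0 = n := fun h => by rw [h aN (by decide), hn]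
  unfold feasC
  -- phase 1
  refine (det_forI M₁ M₂ _ _ m n (by simp [hn]) (by decide)
    (fun i m' => (∀ j < i, m' aQA j = m aX j % 2) ∧ Fr wFeas m m') ?_ ⟨by simp, Fr.refl _ _⟩
    ?_).seq ?_
  · rintro i m' v ⟨h1, h2⟩
    exact ⟨by simpa using h1, h2.set_right (by decide) _ _⟩
  · rintro i _ m' hi ⟨h1, h2⟩
    refine Det.store ⟨fun j hj => ?_, h2.set_right (by decide) _ _⟩
    simp only [eval_var, eval_mod, eval_load, eval_const, hi, Mem.set_same, fX h2]
    split_ifs with h3
    · rw [h3]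
    · exact h1 j (by omega)
  rintro m1 ⟨h1, f1⟩
  refine Det.query_seq ?_
  have e1 : {x : Fin n | m1 aQA x ≠ 0} = inS U := by
    ext x
    simp only [Set.mem_ofPred_eq, h1 x x.2, hX, opt_mod_two]
  simp only [Bool.false_eq_true, if_false, e1]
  set ok : ℕ := if M₁.Indep (inS U) then 1 else 0 with hok
  have f2 : Fr wFeas m (m1.set aOK 0 ok) := f1.set_right (by decide) _ _
  have o2 : (m1.set aOK 0 ok) aOK 0 = ok := by simp
  generalize m1.set aOK 0 ok = m2 at f2 o2
  -- phase 2
  refine (det_forI M₁ M₂ _ _ m2 n (by simp [fN f2]) (by decide)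
    (fun i m' => (∀ j < i, m' aQA j = 0) ∧ Fr wFeas m m' ∧ m' aOK 0 = ok) ?_
    ⟨by simp, f2, o2⟩ ?_).seq ?_
  · rintro i m' v ⟨h1, h2, h3⟩
    exact ⟨by simpa using h1, h2.set_right (by decide) _ _, by simpa using h3⟩
  · rintro i _ m' hi ⟨h1, h2, h3⟩
    refine Det.store ⟨fun j hj => ?_, h2.set_right (by decide) _ _, by simpa using h3⟩
    simp only [eval_var, eval_const, hi, Mem.set_same]
    split_ifs with h3
    · rfl
    · exact h1 j (by omega)
  rintro m3 ⟨h3, f3, o3⟩
  -- phase 3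
  refine (det_forI M₁ M₂ _ _ m3 n (by simp [fN f3]) (by decide)
    (fun i m' => Greedy M₂ (outS U) {y : Fin n | m' aQA y ≠ 0} i ∧ Fr wFeas m m' ∧
      m' aOK 0 = ok) ?_ ⟨?_, f3, o3⟩ ?_).seq ?_
  · rintro i m' v ⟨h1, h2, h3⟩
    exact ⟨by simpa using h1, h2.set_right (by decide) _ _, by simpa using h3⟩
  · have : {y : Fin n | m3 aQA y ≠ 0} = ∅ := by
      ext y; simp [h3 y y.2]
    rw [this]
    exact ⟨M₂.empty_indep, by simp, by simp⟩
  · rintro i hin m' hi ⟨g1, g2, g3⟩
    obtain ⟨x, rfl⟩ : ∃ x : Fin n, x.val = i := ⟨⟨i, hin⟩, rfl⟩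
    have hxJ : x ∉ {y : Fin n | m' aQA y ≠ 0} := fun h => lt_irrefl _ (g1.2.1 x h).1
    by_cases hx : x ∈ outS U
    · refine Det.ifz_ne ?_ (Det.skip ⟨?_, g2.set_right (by decide) _ _, by simpa using g3⟩)
      · simp only [eval_div, eval_load, eval_var, eval_const, hi, fX g2, hX, ne_eq, opt_div_two]
        exact not_not.2 hx
      · simpa using g1.skip fun h => (h hx).elim
    · refine Det.ifz_zero ?_ (Det.store_seq (Det.query_seq (Det.store ⟨?_, ?_, ?_⟩)))
      · simp only [eval_div, eval_load, eval_var, eval_const, hi, fX g2, hX, opt_div_two]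
        exact hx
      · simp only [eval_var, eval_const, hi, if_true, marked_set, one_ne_zero, if_false,
          Mem.set_self]
        rw [Mem.set_of_ne _ _ _ (show aI ≠ aANS by decide),
          Mem.set_of_ne _ _ _ (show aI ≠ aQA by decide), hi, marked_set,
          Mem.set_of_ne _ _ _ (show aQA ≠ aANS by decide), marked_set]
        by_cases hi' : M₂.Indep (insert x {y : Fin n | m' aQA y ≠ 0})
        · simp only [hi', if_true, one_ne_zero, if_false, Set.insert_eq_of_mem (Set.mem_insert _ _)]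
          exact g1.add hx hi'
        · simp only [hi', if_true, one_ne_zero, if_false, Set.insert_sdiff_self_of_notMem hxJ]
          refine g1.skip fun _ => (g1.1.mem_closure_iff_of_notMem hxJ).2 ⟨hi', ?_⟩
          rw [h₂]; exact Set.subset_univ _
      · exact ((g2.set_right (by decide) _ _).set_right (by decide) _ _).set_right (by decide) _ _
      · simpa using g3
  rintro m4 ⟨g4, f4, o4⟩
  set J := {y : Fin n | m4 aQA y ≠ 0} with hJ
  -- phase 4
  refine (det_forI M₁ M₂ _ _ m4 n (by simp [fN f4]) (by decide)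
    (fun i m' => {y : Fin n | m' aQA y ≠ 0} = J ∧ Fr wFeas m m' ∧
      m' aOK 0 = if M₁.Indep (inS U) ∧ ∀ x ∈ outS U, x.val < i → ¬ M₂.Indep (insert x J)
        then 1 else 0) ?_ ⟨rfl, f4, ?_⟩ ?_).mono ?_
  · rintro i m' v ⟨h1, h2, h3⟩
    exact ⟨by simpa using h1, h2.set_right (by decide) _ _, by simpa using h3⟩
  · simp [o4, hok]
  · rintro i hin m' hi ⟨g1, g2, g3⟩
    obtain ⟨x, rfl⟩ : ∃ x : Fin n, x.val = i := ⟨⟨i, hin⟩, rfl⟩
    have key : (∀ y ∈ outS U, y.val < x.val + 1 → ¬ M₂.Indep (insert y J)) ↔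
        (∀ y ∈ outS U, y.val < x.val → ¬ M₂.Indep (insert y J)) ∧
          (x ∈ outS U → ¬ M₂.Indep (insert x J)) := by
      constructor
      · exact fun h => ⟨fun y hy hl => h y hy (by omega), fun hx => h x hx (by omega)⟩
      · rintro ⟨h1, h2⟩ y hy hl
        rcases Nat.lt_succ_iff_lt_or_eq.1 hl with h3 | h3
        · exact h1 y hy h3
        · obtain rfl := Fin.ext h3
          exact h2 hy
    by_cases hx : x ∈ outS U
    · have hxJ : x ∉ J := fun h => (g4.2.1 x h).2 hx
      refine Det.ifz_ne ?_ (Det.store_seq (Det.query_seq (Det.store_seq ?_)))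
      · simp only [eval_div, eval_load, eval_var, eval_const, hi, fX g2, hX, ne_eq, opt_div_two]
        exact not_not.2 hx
      simp only [eval_var, eval_const, hi, if_true, marked_set, one_ne_zero, if_false, g1]
      rw [Mem.set_of_ne _ _ _ (show aI ≠ aANS by decide),
        Mem.set_of_ne _ _ _ (show aI ≠ aQA by decide), hi]
      have hs : ∀ v, {y : Fin n | (((m'.set aQA x 1).set aANS 0 v).set aQA x 0) aQA y ≠ 0} = J := by
        intro v
        rw [marked_set, Mem.set_of_ne _ _ _ (show aQA ≠ aANS by decide), marked_set, g1]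
        simp [hxJ]
      have hf : ∀ v, Fr wFeas m (((m'.set aQA x 1).set aANS 0 v).set aQA x 0) := fun v =>
        ((g2.set_right (by decide) _ _).set_right (by decide) _ _).set_right (by decide) _ _
      by_cases hi' : M₂.Indep (insert x J)
      · refine Det.ifz_ne (by simp [hi']) (Det.asg ⟨?_, (hf _).set_right (by decide) _ _, ?_⟩)
        · rw [Mem.set_of_ne _ _ _ (show aQA ≠ aOK by decide), hs]
        · simp only [key, hx, hi', not_true_eq_false, imp_false, and_false, if_false]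
          simp
      · refine Det.ifz_zero (by simp [hi']) (Det.skip ⟨?_, (hf _).set_right (by decide) _ _, ?_⟩)
        · rw [Mem.set_of_ne _ _ _ (show aQA ≠ aJUNK by decide), hs]
        · simp only [key, hx, hi', not_false_eq_true, imp_self, and_true]
          simpa using g3
    · refine Det.ifz_zero ?_ (Det.skip ⟨?_, g2.set_right (by decide) _ _, ?_⟩)
      · simp only [eval_div, eval_load, eval_var, eval_const, hi, fX g2, hX, opt_div_two]
        exact hx
      · simpa using g1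
      · simp only [key, hx, false_imp_iff, and_true]
        simpa using g3
  · rintro m' ⟨_, _, h3⟩
    rw [h3]
    have : feas M₁ M₂ U ↔
        M₁.Indep (inS U) ∧ ∀ x ∈ outS U, x.val < n → ¬ M₂.Indep (insert x J) := by
      unfold feas
      rw [g4.coindep_iff h₂]
      simp
    simp only [this]

end Vale.Agent.P317
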