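import Vale.Agent.P317.RefSample

/-! Refinement of the whole program. -/

namespace Vale.Agent.P317

variable {n : ℕ}

theorem mainC_sim (M₁ M₂ : Matroid (Fin n)) (h₂ : M₂.E = Set.univ) (P Q : ℕ) (hP : 0 < P)
    (hQ : n * P ≤ Q) (m : Mem) (hpar : Par n P Q m) (hz : ∀ i, m aTAU i = 0) :
    Sim (fun m' out => m' 1 0 = out) (run M₁ M₂ mainC m) (algR M₁ M₂ P Q) := by
  unfold mainC algR
  refine sim_asg_seq (sim_asg_seq (sim_asg_seq (sim_asg_seq ?_)))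
  generalize hm1 : Mem.set _ aTP 0 _ = m1
  have f1 : Fr wStage m m1 := by
    rw [← hm1]
    exact (((Fr.set _ (by decide) _ _).set_right (by decide) _ _).set_right (by decide) _
      _).set_right (by decide) _ _
  have a1 : RepAcc m1 0 ((fun _ _ => 0, 1, 1) : Acc n) := by
    rw [← hm1]
    exact ⟨by simp, by simp, fun t' _ c => by simp [hz], by simp, by simp⟩
  clear hm1
  have hloop : Sim (fun m' A => RepAcc m' (n * P) A ∧ Fr wStage m m')
      (run M₁ M₂ (.loop (var aS) stageC) m1)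
      (iterIdx (stageR M₁ M₂ P Q) (n * P) (fun _ _ => 0, 1, 1)) := by
    rw [run, eval_var, f1 aS (by decide), hpar.2.2.2.2.2]
    refine Sim.iterIdx (R := fun i m' A => RepAcc m' i A ∧ Fr wStage m m') (n * P) ⟨a1, f1⟩ ?_
    rintro i hi m2 A ⟨a2, f2⟩
    exact ((stageC_sim M₁ M₂ h₂ P Q hP hQ m2 (hpar.frame f2) i hi A a2).frame wStage
      stageC_writes).mono fun _ _ h => ⟨h.1, f2.trans h.2⟩
  refine hloop.bind ?_
  rintro m2 A ⟨a2, f2⟩
  refine Det.to_sim ((Det.loop (k := n * P)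
    (by rw [eval_var, f2 aS (by decide), hpar.2.2.2.2.2])
    (fun i m' => m' aDEN 0 = A.2.2 * 2 ^ i ∧ m' aNUM 0 = A.2.1)
    ⟨by simp [a2.2.2.2.2], a2.2.2.2.1⟩ ?_).seq ?_)
  · rintro i _ m' ⟨h1, h2⟩
    refine Det.asg ⟨?_, by simpa using h2⟩
    simp only [Mem.set_self, eval_add, eval_var, h1]
    ring
  · rintro m' ⟨h1, h2⟩
    exact Det.asg (by simp only [Mem.set_self, eval_div, eval_add, eval_var, h1, h2])

theorem init0C_det (M₁ M₂ : Matroid (Fin n)) (ε δ : ℚ) :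
    Det M₁ M₂ init0C (input n ε δ) fun m => m aN 0 = n ∧ m aN1 0 = n + 1 ∧
      m aKAP 0 = Nat.size (n + 1) ∧ m aP 0 = parP n ε δ ∧ ∀ i, m aTAU i = 0 := by
  unfold init0C
  refine Det.asg_seq (Det.asg_seq (Det.asg_seq (Det.asg ?_)))
  simp [input, parP]

theorem init1C_det (M₁ M₂ : Matroid (Fin n)) (P : ℕ) (m : Mem) (h1 : m aN 0 = n)
    (h2 : m aN1 0 = n + 1) (h3 : m aKAP 0 = Nat.size (n + 1)) (h4 : m aP 0 = P)
    (h5 : ∀ i, m aTAU i = 0) :
    Det M₁ M₂ init1C m fun m' => Par n P (P ^ 40) m' ∧ ∀ i, m' aTAU i = 0 := by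
  have key : Det M₁ M₂ init1C m fun m' => m' aS 0 = n * P ∧ m' aQ 0 = P ^ 40 := by
    unfold init1C
    refine Det.asg_seq ((Det.loop (k := P) (by simp [h4])
      (fun i m' => m' aS 0 = n * i ∧ m' aN 0 = n ∧ m' aP 0 = P)
      ⟨by simp, by simp [h1], by simp [h4]⟩ ?_).seq ?_)
    · rintro i _ m' ⟨g1, g2, g3⟩
      exact Det.asg ⟨by simp [g1, g2, Nat.mul_succ], by simp [g2], by simp [g3]⟩
    rintro m1 ⟨g1, -, g3⟩
    refine Det.asg_seq ((Det.loop (k := 40) rfl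
      (fun i m' => m' aS 0 = n * P ∧ m' aQ 0 = P ^ i ∧ m' aP 0 = P)
      ⟨by simp [g1], by simp, by simp [g3]⟩ ?_).mono fun _ h => ⟨h.1, h.2.1⟩)
    rintro i _ m2 ⟨k1, k2, k3⟩
    refine Det.asg_seq ((Det.loop (k := P) (by simp [k3])
      (fun j m' => m' aTMP 0 = P ^ i * j ∧ m' aS 0 = n * P ∧ m' aQ 0 = P ^ i ∧ m' aP 0 = P)
      ⟨by simp, by simp [k1], by simp [k2], by simp [k3]⟩ ?_).seq ?_)
    · rintro j _ m' ⟨l1, l2, l3, l4⟩
      exact Det.asg ⟨by simp [l1, l3, Nat.mul_succ], by simp [l2], by simp [l3], by simp [l4]⟩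
    · rintro m' ⟨l1, l2, -, l4⟩
      exact Det.asg ⟨by simp [l2], by simp [l1, pow_succ], by simp [l4]⟩
  refine (key.frame [aS, aQ, aTMP] (by decide)).mono ?_
  rintro m' ⟨⟨g1, g2⟩, f⟩
  refine ⟨⟨?_, ?_, ?_, g2, ?_, g1⟩, fun i => ?_⟩
  · rw [f aN (by decide), h1]
  · rw [f aN1 (by decide), h2]
  · rw [f aP (by decide), h4]
  · rw [f aKAP (by decide), h3]
  · rw [f aTAU (by decide), h5]

theorem progC_sim (M₁ M₂ : Matroid (Fin n)) (h₂ : M₂.E = Set.univ) (ε δ : ℚ) :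
    Sim (fun s out => s.1 1 0 = out) (exec M₁ M₂ progC (input n ε δ, 0))
      (algR M₁ M₂ (parP n ε δ) (parP n ε δ ^ 40)) := by
  have hn : n + 1 ≤ parP n ε δ := by
    unfold parP
    generalize ε.den / ε.num.toNat = u
    omega
  have hP : 0 < parP n ε δ := by omega
  have hQ : n * parP n ε δ ≤ parP n ε δ ^ 40 :=
    calc n * parP n ε δ ≤ parP n ε δ * parP n ε δ := Nat.mul_le_mul_right _ (by omega)
      _ = parP n ε δ ^ 2 := (sq _).symm
      _ ≤ parP n ε δ ^ 40 := Nat.pow_le_pow_right hP (by norm_num)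
  have h : Sim (fun m' out => m' 1 0 = out) (run M₁ M₂ progC (input n ε δ))
      (algR M₁ M₂ (parP n ε δ) (parP n ε δ ^ 40)) := by
    unfold progC
    refine (init0C_det M₁ M₂ ε δ).seq_sim ?_
    rintro m1 ⟨h1, h2, h3, h4, h5⟩
    refine (init1C_det M₁ M₂ _ m1 h1 h2 h3 h4 h5).seq_sim ?_
    rintro m2 ⟨g1, g2⟩
    exact mainC_sim M₁ M₂ h₂ _ _ hP hQ m2 g1 g2
  refine ((exec_sim_run M₁ M₂ progC (input n ε δ) 0).trans h).mono ?_
  rintro s out ⟨b, rfl, hb⟩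
  exact hb

end Vale.Agent.P317
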