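import Vale.Agent.P317.RefStep
import Vale.Agent.P317.Lev

/-! Refinement of the sampler and of a stage. -/

namespace Vale.Agent.P317

variable {n : ℕ}

theorem Par.frame {P Q : ℕ} {m m' : Mem} (h : Par n P Q m) (f : Fr wStage m m') :
    Par n P Q m' := by
  unfold Par at *
  rw [f aN (by decide), f aN1 (by decide), f aP (by decide), f aQ (by decide),
    f aKAP (by decide), f aS (by decide)]
  exact h

theorem sampleC_sim (M₁ M₂ : Matroid (Fin n)) (h₂ : M₂.E = Set.univ) (P Q : ℕ) (hP : 0 < P)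
    (hQ : n * P ≤ Q) (m : Mem) (hpar : Par n P Q m) (t : ℕ) (ht : t < n * P) (hT : m aT 0 = t)
    (hist : ℕ → Fin (n + 1) → ℕ) (hh : RepHist m hist t) :
    Sim (fun m' s' => RepSt m' s') (run M₁ M₂ sampleC m) (sampleR M₁ M₂ P Q hist (t + 1)) := by
  unfold sampleC sampleR
  refine (det_forI M₁ M₂ _ _ m (n + 1) (by simp [hpar.2.1]) (by decide)
    (fun i m' => (∀ j < i, m' aX j = 0 ∧ m' aKK j = 0) ∧ Fr wSample m m') ?_
    ⟨by simp, Fr.refl _ _⟩ ?_).seq_sim ?_
  · rintro i m' v ⟨h1, h2⟩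
    exact ⟨by simpa using h1, h2.set_right (by decide) _ _⟩
  · rintro i _ m' hi ⟨h1, h2⟩
    refine Det.store_seq (Det.store ⟨fun j hj => ?_,
      (h2.set_right (by decide) _ _).set_right (by decide) _ _⟩)
    simp only [eval_var, eval_const, Mem.set_same]
    simp only [ne_eq, OfNat.ofNat_eq_ofNat, Nat.reduceEqDiff, not_false_eq_true, Mem.set_of_ne,
      hi, Mem.set_same]
    split_ifs with h3
    · exact ⟨rfl, rfl⟩
    · exact h1 j (by omega)
  rintro m1 ⟨h1, f1⟩
  refine sim_asg_seq (sim_asg_seq (sim_asg_seq ?_))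
  generalize hm2 : Mem.set _ aPTR 0 _ = m2
  have f2 : Fr wSample m m2 := by
    rw [← hm2]
    exact ((f1.set_right (by decide) _ _).set_right (by decide) _ _).set_right (by decide) _ _
  have s2 : RepSt m2 (start n) := by
    rw [← hm2]
    refine ⟨by simp [start, f1 aN (by decide), hpar.1], fun c => ?_⟩
    simp [start, (h1 c c.2).1]
  have k2 : RepK m2 (lev n P 0) := by
    rw [← hm2, lev_zero]
    intro c
    simp [(h1 c c.2).2]
  have t2 : m2 aT2 0 = 0 := by rw [← hm2]; simp
  have p2 : m2 aPTR 0 = 0 := by rw [← hm2]; simp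
  clear hm2
  have hb : (minE aQ (.add (var aT) (.const 1))).eval m2 = t + 1 := by
    rw [eval_minE]
    simp only [eval_add, eval_var, eval_const, f2 aQ (by decide), f2 aT (by decide), hT,
      hpar.2.2.2.1]
    omega
  simp only [run, hb]
  refine (Sim.iterIdx (R := fun i m' s' => RepSt m' s' ∧ RepK m' (lev n P i) ∧ m' aT2 0 = i ∧
    m' aPTR 0 = i * (n + 1) ∧ Fr wSample m m') (t + 1) ⟨s2, k2, t2, by simp [p2], f2⟩ ?_).mono
    fun _ _ h => h.1
  rintro i hi m3 s ⟨s3, k3, t3, p3, f3⟩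
  have hi' : i < n * P := by omega
  simp only [Rand.ret_bind]
  generalize hm4 : Mem.set m3 aKK _ _ = m4
  have g4 : Fr [aKK] m3 m4 := by rw [← hm4]; exact Fr.set _ (by decide) _ _
  have f4 : Fr wSample m m4 := f3.trans (g4.mono (by decide))
  have k4 : RepK m4 (lev n P (i + 1)) := by
    rw [← hm4, lev_succ n P i hP hi']
    intro c
    simp only [eval_div, eval_var, eval_add, eval_load, eval_const, t3, f3 aP (by decide),
      hpar.2.2.1, Mem.set_same, ← slotAt_val n P i hP hi']
    by_cases hc : c = slotAt n P i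
    · rw [if_pos (by rw [hc]), hc, Function.update_self, k3]
    · rw [if_neg fun h => hc (Fin.ext h), Function.update_of_ne hc, k3]
  have τ4 : RepTau m4 (hist i) := by
    intro c
    rw [g4 aPTR (by decide), p3, f4 aTAU (by decide)]
    exact hh i (by omega) c
  have s4 : RepSt m4 s := s3.frame g4 (by decide) (by decide)
  have par4 : Par n P Q m4 := hpar.frame (f4.mono (by decide))
  clear hm4
  rw [eval_var, par4.2.2.2.1]
  refine (Sim.iter (R := fun m' s' => RepSt m' s' ∧ Fr wStep m4 m') Q ⟨s4, Fr.refl _ _⟩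
    ?_).bind_left ?_
  · rintro m5 s' ⟨s5, f5⟩
    refine ((stepC_sim M₁ M₂ h₂ P Q m5 (par4.frame (f5.mono (by decide))) _ _ ?_ ?_ s' s5).frame
      wStep stepC_writes).mono fun _ _ h => ⟨h.1, f5.trans h.2⟩
    · intro c; rw [f5 aKK (by decide)]; exact k4 c
    · intro c; rw [f5 aTAU (by decide), f5 aPTR (by decide)]; exact τ4 c
  · rintro m5 s' ⟨s5, f5⟩
    have f5' : Fr wSample m m5 := f4.trans (f5.mono (by decide))
    refine Det.to_sim (c := .seq (asg aT2 (.add (var aT2) (.const 1)))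
      (asg aPTR (.add (var aPTR) (var aN1)))) (Det.asg_seq (Det.asg ⟨?_, ?_, ?_, ?_, ?_⟩))
    · exact s5.frame (W := [aT2, aPTR])
        ((Fr.set _ (by decide) _ _).set_right (by decide) _ _) (by decide) (by decide)
    · intro c
      simpa [f5 aKK (by decide)] using k4 c
    · simp [f5 aT2 (by decide), g4 aT2 (by decide), t3]
    · simp only [Mem.set_self, eval_add, eval_var]
      rw [Mem.set_of_ne _ _ _ (show aPTR ≠ aT2 by decide),
        Mem.set_of_ne _ _ _ (show aN1 ≠ aT2 by decide), f5 aPTR (by decide), g4 aPTR (by decide),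
        p3, f5' aN1 (by decide), hpar.2.1]
      ring
    · exact (f5'.set_right (by decide) _ _).set_right (by decide) _ _

theorem tallyC_det (M₁ M₂ : Matroid (Fin n)) (P : ℕ) (hP : 0 < P) (m : Mem) (hn : m aN 0 = n)
    (hp : m aP 0 = P) (t : ℕ) (ht : t < n * P) (hT : m aT 0 = t) (num den : ℕ)
    (hnum : m aNUM 0 = num) (hden : m aDEN 0 = den) (s : St n) (hs : RepSt m s) (a : Tally n)
    (ha : RepTally m a) :
    Det M₁ M₂ tallyC m fun m' => RepTally m' (tallyUpd P t num den a s) := by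
  unfold tallyC
  refine Det.store_seq ?_
  generalize hm1 : Mem.set m aCNT _ _ = m1
  have f1 : Fr [aCNT] m m1 := by rw [← hm1]; exact Fr.set _ (by decide) _ _
  have c1 : ∀ c : Fin (n + 1), m1 aCNT c = Function.update a.1 s.1 (a.1 s.1 + 1) c := by
    intro c
    rw [← hm1]
    simp only [eval_var, eval_add, eval_load, eval_const, hs.1, Mem.set_same, ha.1]
    by_cases hc : c = s.1
    · simp [hc]
    · rw [if_neg fun h => hc (Fin.ext h), Function.update_of_ne hc]
  clear hm1
  have hle : s.1.val ≤ n := Nat.lt_succ_iff.1 s.1.2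
  by_cases hl : s.1 = Fin.last n
  · refine Det.ifz_zero (by simp [f1 aN (by decide), f1 aH (by decide), hn, hs.1, hl])
      (Det.asg_seq ?_)
    generalize hm2 : Mem.set m1 aNA _ _ = m2
    have g2 : Fr [aNA] m1 m2 := by rw [← hm2]; exact Fr.set _ (by decide) _ _
    have f2 : Fr [aCNT, aNA] m m2 := (f1.mono (by decide)).trans (g2.mono (by decide))
    have n2 : m2 aNA 0 = a.2.1 + (num + num) := by
      rw [← hm2]; simp [f1 aNA (by decide), f1 aNUM (by decide), ha.2.1, hnum]
    have c2 : ∀ c : Fin (n + 1), m2 aCNT c = Function.update a.1 s.1 (a.1 s.1 + 1) c := by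
      intro c; rw [g2 aCNT (by decide)]; exact c1 c
    clear hm2
    have hx : (Expr.load aX (.div (var aT) (var aP))).eval m2 = (s.2 (slotAt n P t)).val := by
      simp only [eval_load, eval_div, eval_var, f2 aT (by decide), f2 aP (by decide),
        f2 aX (by decide), hT, hp, ← slotAt_val n P t hP ht]
      exact hs.2 _
    by_cases h0 : s.2 (slotAt n P t) = 0
    · refine Det.ifz_zero (by rw [hx, h0]; rfl) (Det.asg ⟨fun c => ?_, ?_, ?_⟩)
      · simpa [tallyUpd] using c2 c
      · simp [tallyUpd, hl, n2]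
      · simp [tallyUpd, hl, h0, f2 aDA (by decide), f2 aDEN (by decide), ha.2.2, hden]
    refine Det.ifz_ne (by rw [hx]; simpa using h0) ?_
    by_cases h1 : t % P = 0
    · refine Det.ifz_zero (by simp [f2 aT (by decide), f2 aP (by decide), hT, hp, h1])
        (Det.skip ⟨fun c => ?_, ?_, ?_⟩)
      · simpa [tallyUpd] using c2 c
      · simp [tallyUpd, hl, n2]
      · simp [tallyUpd, hl, h0, h1, f2 aDA (by decide), ha.2.2]
    · refine Det.ifz_ne (by simp [f2 aT (by decide), f2 aP (by decide), hT, hp, h1])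
        (Det.asg ⟨fun c => ?_, ?_, ?_⟩)
      · simpa [tallyUpd] using c2 c
      · simp [tallyUpd, hl, n2]
      · simp [tallyUpd, hl, h0, h1, f2 aDA (by decide), f2 aDEN (by decide), ha.2.2, hden]
  · have hl' : s.1.val ≠ n := fun h => hl (Fin.ext h)
    refine Det.ifz_ne (by
      simp only [eval_sub, eval_var, f1 aN (by decide), f1 aH (by decide), hn, hs.1]; omega)
      (Det.skip ⟨fun c => ?_, ?_, ?_⟩)
    · simpa [tallyUpd] using c1 c
    · simp [tallyUpd, hl, f1 aNA (by decide), ha.2.1]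
    · simp [tallyUpd, hl, f1 aDA (by decide), ha.2.2]

/-- Arrays written while the samples of a stage are drawn. -/
def wTally : List ℕ := wSample ++ [aCNT, aNA, aDA]

theorem stageC_sim (M₁ M₂ : Matroid (Fin n)) (h₂ : M₂.E = Set.univ) (P Q : ℕ) (hP : 0 < P)
    (hQ : n * P ≤ Q) (m : Mem) (hpar : Par n P Q m) (t : ℕ) (ht : t < n * P) (A : Acc n)
    (hA : RepAcc m t A) :
    Sim (fun m' A' => RepAcc m' (t + 1) A') (run M₁ M₂ stageC m) (stageR M₁ M₂ P Q t A) := by
  obtain ⟨hT, hTP, hh, hnum, hden⟩ := hA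
  unfold stageC stageR tallyR
  refine (det_forI M₁ M₂ _ _ m (n + 1) (by simp [hpar.2.1]) (by decide)
    (fun i m' => (∀ j < i, m' aCNT j = 0) ∧ Fr wTally m m') ?_
    ⟨by simp, Fr.refl _ _⟩ ?_).seq_sim ?_
  · rintro i m' v ⟨h1, h2⟩
    exact ⟨by simpa using h1, h2.set_right (by decide) _ _⟩
  · rintro i _ m' hi ⟨h1, h2⟩
    refine Det.store ⟨fun j hj => ?_, h2.set_right (by decide) _ _⟩
    simp only [eval_var, eval_const, Mem.set_same, hi]
    split_ifs with h3
    · rfl
    · exact h1 j (by omega)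
  rintro m1 ⟨h1, f1⟩
  refine sim_asg_seq (sim_asg_seq ?_)
  generalize hm2 : Mem.set _ aDA 0 _ = m2
  have f2 : Fr wTally m m2 := by
    rw [← hm2]
    exact (f1.set_right (by decide) _ _).set_right (by decide) _ _
  have a2 : RepTally m2 ((fun _ => 0, 0, 0) : Tally n) := by
    rw [← hm2]
    exact ⟨fun c => by simp [h1 c c.2], by simp, by simp⟩
  clear hm2
  have hloop : Sim (fun m' a => RepTally m' a ∧ Fr wTally m m')
      (run M₁ M₂ (.loop (var aQ) (.seq sampleC tallyC)) m2)
      (iter (fun a => (sampleR M₁ M₂ P Q A.1 (t + 1)).bind fun s =>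
        .ret (tallyUpd P t A.2.1 A.2.2 a s)) Q (fun _ => 0, 0, 0)) := by
    rw [run, eval_var, f2 aQ (by decide), hpar.2.2.2.1]
    refine Sim.iter Q ⟨a2, f2⟩ ?_
    rintro m3 a ⟨a3, f3⟩
    refine ((sampleC_sim M₁ M₂ h₂ P Q hP hQ m3 (hpar.frame (f3.mono (by decide))) t ht
      (by rw [f3 aT (by decide), hT]) A.1 ?_).frame wSample sampleC_writes).bind ?_
    · intro t' ht' c
      rw [f3 aTAU (by decide)]; exact hh t' ht' c
    rintro m4 s ⟨s4, g4⟩
    have f4 : Fr wTally m m4 := f3.trans (g4.mono (by decide))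
    refine Det.to_sim (((tallyC_det M₁ M₂ P hP m4 (by rw [f4 aN (by decide), hpar.1])
      (by rw [f4 aP (by decide), hpar.2.2.1]) t ht (by rw [f4 aT (by decide), hT]) A.2.1 A.2.2
      (by rw [f4 aNUM (by decide), hnum]) (by rw [f4 aDEN (by decide), hden]) s s4 a ?_).frame
      wTally (by decide)).mono fun _ h => ⟨h.1, f4.trans h.2⟩)
    unfold RepTally at *
    rw [g4 aCNT (by decide), g4 aNA (by decide), g4 aDA (by decide)]
    exact a3
  refine hloop.bind ?_
  rintro m3 a ⟨a3, f3⟩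
  refine Det.to_sim (Det.asg_seq (Det.asg_seq ?_))
  generalize hm4 : Mem.set _ aDEN 0 _ = m4
  have g4 : Fr [aNUM, aDEN] m3 m4 := by
    rw [← hm4]
    exact (Fr.set _ (by decide) _ _).set_right (by decide) _ _
  have n4 : m4 aNUM 0 = a.2.1 := by rw [← hm4]; simp [a3.2.1]
  have d4 : m4 aDEN 0 = a.2.2 := by rw [← hm4]; simp [a3.2.2]
  clear hm4
  have N4 : m4 aN1 0 = n + 1 := by rw [g4 aN1 (by decide), f3 aN1 (by decide), hpar.2.1]
  have TP4 : m4 aTP 0 = t * (n + 1) := by rw [g4 aTP (by decide), f3 aTP (by decide), hTP]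
  have T4 : m4 aT 0 = t := by rw [g4 aT (by decide), f3 aT (by decide), hT]
  have tau4 : m4 aTAU = m aTAU := by rw [g4 aTAU (by decide), f3 aTAU (by decide)]
  refine (det_forI M₁ M₂ _ _ m4 (n + 1) (by simp [N4]) (by decide)
    (fun i m' => Fr [aI, aTAU] m4 m' ∧ (∀ k < (t + 1) * (n + 1), m' aTAU k = m aTAU k) ∧
      ∀ j < i, m' aTAU ((t + 1) * (n + 1) + j) =
        m aTAU (t * (n + 1) + j) + Nat.size (m4 aCNT j)) ?_
    ⟨Fr.refl _ _, by simp [tau4], by simp⟩ ?_).seq ?_
  · rintro i m' v ⟨h1, h2, h3⟩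
    exact ⟨h1.set_right (by decide) _ _, by simpa using h2, by simpa using h3⟩
  · rintro i hi m' hI ⟨h1, h2, h3⟩
    have e : t * (n + 1) + (n + 1) = (t + 1) * (n + 1) := by ring
    refine Det.store ⟨h1.set_right (by decide) _ _, fun k hk => ?_, fun j hj => ?_⟩
    · simp only [eval_add, eval_var, Mem.set_same, h1 aTP (by decide), h1 aN1 (by decide), TP4, N4,
        e]
      rw [if_neg (by omega)]
      exact h2 k hk
    · simp only [eval_add, eval_var, eval_load, eval_len, Mem.set_same, h1 aTP (by decide),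
        h1 aN1 (by decide), h1 aCNT (by decide), TP4, N4, e, hI]
      split_ifs with h4
      · obtain rfl : j = i := by omega
        rw [h2 _ (by omega)]
      · exact h3 j (by omega)
  rintro m5 ⟨f5, h5, h6⟩
  refine Det.asg_seq (Det.asg ⟨?_, ?_, fun t' ht' c => ?_, ?_, ?_⟩)
  · simp [f5 aT (by decide), T4]
  · simp only [eval_add, eval_var]
    rw [Mem.set_of_ne _ _ _ (show aTP ≠ aT by decide), Mem.set_self, f5 aTP (by decide),
      f5 aN1 (by decide), TP4, N4]
    ring
  · rw [Mem.set_of_ne _ _ _ (show aTAU ≠ aT by decide),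
      Mem.set_of_ne _ _ _ (show aTAU ≠ aTP by decide)]
    dsimp only
    rcases Nat.lt_or_eq_of_le ht' with h7 | h7
    · have h8 : (t' + 1) * (n + 1) ≤ (t + 1) * (n + 1) := Nat.mul_le_mul_right _ h7
      have h9 := c.2
      rw [Function.update_of_ne h7.ne, h5 _ (by rw [Nat.add_mul] at h8; omega)]
      exact hh t' (by omega) c
    · subst h7
      rw [Function.update_self, h6 c c.2, hh t le_rfl c, g4 aCNT (by decide), a3.1 c]
  · simp [f5 aNUM (by decide), n4]
  · simp [f5 aDEN (by decide), d4]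

end Vale.Agent.P317
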