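import Vale.Agent.P317.RefFeas

/-! Refinement of one chain step and of the sampler. -/

namespace Vale.Agent.P317

variable {n : ℕ}

/-- Memory after the tentative move has been written. -/
def Tried (m : Mem) (s : St n) (x : Fin 3) (j : Fin (n + 1)) : Prop :=
  m aH 0 = s.1.val ∧ m aJ 0 = j.val ∧ m aOLD 0 = (s.2 j).val ∧ m aOLDH 0 = (s.2 s.1).val ∧
    RepU m (Function.update (Function.update s.2 s.1 x) j 0)

/-- Arrays written after the tentative move and before the decision. -/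
def wTry : List ℕ := [aI, aQA, aOK, aANS, aJUNK, aC, aACC, aD, aE1, aE2]

theorem Tried.frame {m m' : Mem} {s : St n} {x : Fin 3} {j : Fin (n + 1)} (h : Tried m s x j)
    (f : Fr wTry m m') : Tried m' s x j := by
  unfold Tried RepU at *
  rw [f aH (by decide), f aJ (by decide), f aOLD (by decide), f aOLDH (by decide),
    f aX (by decide)]
  exact h

theorem undoC_det (M₁ M₂ : Matroid (Fin n)) {m : Mem} {s : St n} {x : Fin 3} {j : Fin (n + 1)}
    (h : Tried m s x j) : Det M₁ M₂ undoC m fun m' => RepSt m' s := by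
  obtain ⟨h1, h2, h3, h4, h5⟩ := h
  unfold undoC
  refine Det.store_seq (Det.store ⟨by simp [h1], fun c => ?_⟩)
  simp only [eval_var, h2, h3]
  rw [Mem.set_of_ne _ _ _ (show aH ≠ aX by decide),
    Mem.set_of_ne _ _ _ (show aOLDH ≠ aX by decide), h1, h4, Mem.set_same, Mem.set_same]
  by_cases hc : c = s.1
  · simp [hc]
  · rw [if_neg fun h => hc (Fin.ext h)]
    by_cases hj : c = j
    · simp [hj]
    · rw [if_neg fun h => hj (Fin.ext h), h5 c, Function.update_of_ne hj, Function.update_of_ne hc]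

theorem expoC_det (M₁ M₂ : Matroid (Fin n)) {m : Mem} {s : St n} {x : Fin 3} {j : Fin (n + 1)}
    (h : Tried m s x j) (hx : m aX0 0 = x.val) (kk τ : Fin (n + 1) → ℕ) (hk : RepK m kk)
    (hτ : RepTau m τ) :
    Det M₁ M₂ expoC m fun m' =>
      m' aD 0 = (τ j + ex kk j (s.2 j)) - (τ s.1 + ex kk s.1 x) := by
  obtain ⟨h1, h2, h3, _, _⟩ := h
  unfold expoC
  have d1 : Det M₁ M₂ (.ifz (var aOLD) (asg aE1 (.const 0)) (asg aE1 (.load aKK (var aJ)))) m
      fun m' => m' aE1 0 = ex kk j (s.2 j) := by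
    by_cases h0 : s.2 j = 0
    · exact Det.ifz_zero (by simp [h3, h0]) (Det.asg (by simp [ex, h0]))
    · exact Det.ifz_ne (by simp [h3, h0]) (Det.asg (by simp [ex, h0, h2, hk j]))
  refine (d1.frame [aE1] (by decide)).seq ?_
  rintro m1 ⟨e1, f1⟩
  have d2 : Det M₁ M₂ (.ifz (var aX0) (asg aE2 (.const 0)) (asg aE2 (.load aKK (var aH)))) m1
      fun m' => m' aE2 0 = ex kk s.1 x := by
    by_cases h0 : x = 0
    · exact Det.ifz_zero (by simp [f1 aX0 (by decide), hx, h0]) (Det.asg (by simp [ex, h0]))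
    · exact Det.ifz_ne (by simp [f1 aX0 (by decide), hx, h0])
        (Det.asg (by simp [ex, h0, f1 aH (by decide), f1 aKK (by decide), h1, hk s.1]))
  refine (d2.frame [aE2] (by decide)).seq ?_
  rintro m2 ⟨e2, f2⟩
  refine Det.asg ?_
  simp only [Mem.set_self, eval_sub, eval_add, eval_load, eval_var, e2, f2 aE1 (by decide), e1,
    f2 aTAU (by decide), f1 aTAU (by decide), f2 aPTR (by decide), f1 aPTR (by decide),
    f2 aJ (by decide), f1 aJ (by decide), f2 aH (by decide), f1 aH (by decide), h1, h2,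
    hτ j, hτ s.1]

open Classical in
theorem tryC_sim (M₁ M₂ : Matroid (Fin n)) (h₂ : M₂.E = Set.univ) (Q : ℕ) (m : Mem)
    (hn : m aN 0 = n) (hQ : m aQ 0 = Q) (kk τ : Fin (n + 1) → ℕ) (hk : RepK m kk)
    (hτ : RepTau m τ) (s : St n) (hs : RepSt m s) (x : Fin 3) (j : Fin (n + 1))
    (hx : m aX0 0 = x.val) (hj : m aJ 0 = j.val) :
    Sim (fun m' s' => RepSt m' s') (run M₁ M₂ tryC m)
      (if feas M₁ M₂ (Function.update (Function.update s.2 s.1 x) j 0) then
        (heads (min Q ((τ j + ex kk j (s.2 j)) - (τ s.1 + ex kk s.1 x)))).bind fun acc =>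
          .ret (if acc = 0 then s else (j, Function.update (Function.update s.2 s.1 x) j 0))
      else .ret s) := by
  unfold tryC
  refine sim_asg_seq (sim_asg_seq (sim_store_seq (sim_store_seq ?_)))
  generalize hm1 : Mem.set _ aX _ _ = m1
  have f1 : Fr [aOLD, aOLDH, aX] m m1 := by
    rw [← hm1]
    exact ((((Fr.refl _ m).set_right (by decide) _ _).set_right (by decide) _ _).set_right
      (by decide) _ _).set_right (by decide) _ _
  have t1 : Tried m1 s x j := by
    refine ⟨by rw [f1 aH (by decide), hs.1], by rw [f1 aJ (by decide), hj], ?_, ?_, fun c => ?_⟩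
    · rw [← hm1]; simp [hj, hs.2 j]
    · rw [← hm1]; simp [hs.1, hs.2 s.1]
    · rw [← hm1]
      simp only [eval_var, eval_const, Mem.set_same]
      simp only [ne_eq, OfNat.ofNat_eq_ofNat, Nat.reduceEqDiff, not_false_eq_true, Mem.set_of_ne,
        hj, hs.1, hx]
      by_cases hc : c = j
      · simp [hc]
      · rw [if_neg fun h => hc (Fin.ext h), Function.update_of_ne hc]
        by_cases hc' : c = s.1
        · simp [hc']
        · rw [if_neg fun h => hc' (Fin.ext h), Function.update_of_ne hc', hs.2 c]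
  clear hm1
  refine ((feasC_det M₁ M₂ h₂ m1 (by rw [f1 aN (by decide), hn]) _ t1.2.2.2.2).frame wFeas
    feasC_writes).seq_sim ?_
  rintro m2 ⟨o2, f2⟩
  have t2 : Tried m2 s x j := t1.frame (f2.mono (by decide))
  by_cases hf : feas M₁ M₂ (Function.update (Function.update s.2 s.1 x) j 0)
  · rw [if_pos hf] at o2 ⊢
    refine sim_ifz_ne (by simp [o2]) ?_
    have hk2 : RepK m2 kk := by
      intro c; rw [f2 aKK (by decide), f1 aKK (by decide)]; exact hk c
    have hτ2 : RepTau m2 τ := by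
      intro c
      rw [f2 aTAU (by decide), f1 aTAU (by decide), f2 aPTR (by decide), f1 aPTR (by decide)]
      exact hτ c
    refine ((expoC_det M₁ M₂ t2 (by rw [f2 aX0 (by decide), f1 aX0 (by decide), hx]) kk τ hk2
      hτ2).frame [aD, aE1, aE2] (by decide)).seq_sim ?_
    rintro m3 ⟨d3, f3⟩
    have t3 : Tried m3 s x j := t2.frame (f3.mono (by decide))
    have h4 := (headsC_sim M₁ M₂ m3).frame [aACC, aC, aJUNK] (by decide)
    rw [d3, f3 aQ (by decide), f2 aQ (by decide), f1 aQ (by decide), hQ] at h4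
    refine h4.bind ?_
    rintro m4 r ⟨a4, f4⟩
    have t4 : Tried m4 s x j := t3.frame (f4.mono (by decide))
    by_cases hr : r = 0
    · rw [if_pos hr]
      exact sim_ifz_zero (by simp [a4, hr]) (undoC_det M₁ M₂ t4).to_sim
    · rw [if_neg hr]
      refine sim_ifz_ne (by simp [a4, hr]) (Det.to_sim (Det.asg ⟨by simp [t4.2.1], ?_⟩))
      intro c
      simpa using t4.2.2.2.2 c
  · rw [if_neg hf] at o2 ⊢
    exact sim_ifz_zero (by simp [o2]) (undoC_det M₁ M₂ t2).to_sim

theorem RepSt.frame {W : List ℕ} {m m' : Mem} {s : St n} (h : RepSt m s) (f : Fr W m m')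
    (h1 : aH ∉ W) (h2 : aX ∉ W) : RepSt m' s := by
  unfold RepSt RepU at *
  rw [f aH h1, f aX h2]; exact h

theorem skip_sim (M₁ M₂ : Matroid (Fin n)) {m : Mem} {s : St n} (hs : RepSt m s) :
    Sim (fun m' s' => RepSt m' s') (run M₁ M₂ skip m) (.ret s) :=
  Det.to_sim (Det.skip (hs.frame (Fr.set (W := [aJUNK]) m (by decide) _ _) (by decide) (by decide)))

theorem moveC_sim (M₁ M₂ : Matroid (Fin n)) (h₂ : M₂.E = Set.univ) (Q : ℕ) (m : Mem)
    (hn : m aN 0 = n) (hQ : m aQ 0 = Q) (kk τ : Fin (n + 1) → ℕ) (hk : RepK m kk)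
    (hτ : RepTau m τ) (s : St n) (hs : RepSt m s) (x : Fin 3) (j : Fin (n + 1))
    (hx : m aX0 0 = x.val) (hj : m aJ 0 = j.val) :
    Sim (fun m' s' => RepSt m' s') (run M₁ M₂ moveC m) (moveR M₁ M₂ Q kk τ s x j) := by
  unfold moveC moveR
  by_cases h1 : j = s.1
  · rw [if_pos (Or.inl h1)]
    exact sim_ifz_zero (by simp [hj, hs.1, h1]) (skip_sim M₁ M₂ hs)
  have h1' : j.val ≠ s.1.val := fun h => h1 (Fin.ext h)
  refine sim_ifz_ne (by simp only [eval_add, eval_sub, eval_var, hj, hs.1]; omega) ?_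
  by_cases h2 : x = 0
  · rw [if_neg (by simp [h1, h2])]
    exact sim_ifz_zero (by simp [hx, h2]) (tryC_sim M₁ M₂ h₂ Q m hn hQ kk τ hk hτ s hs x j hx hj)
  refine sim_ifz_ne (by simp [hx, h2]) ?_
  by_cases h3 : kk s.1 = 0
  · rw [if_pos (Or.inr ⟨h2, h3⟩)]
    exact sim_ifz_zero (by simp [hs.1, hk s.1, h3]) (skip_sim M₁ M₂ hs)
  · rw [if_neg (by simp [h1, h3])]
    exact sim_ifz_ne (by simp [hs.1, hk s.1, h3])
      (tryC_sim M₁ M₂ h₂ Q m hn hQ kk τ hk hτ s hs x j hx hj)

theorem stepC_sim (M₁ M₂ : Matroid (Fin n)) (h₂ : M₂.E = Set.univ) (P Q : ℕ) (m : Mem)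
    (hpar : Par n P Q m) (kk τ : Fin (n + 1) → ℕ) (hk : RepK m kk) (hτ : RepTau m τ) (s : St n)
    (hs : RepSt m s) :
    Sim (fun m' s' => RepSt m' s') (run M₁ M₂ stepC m) (stepR M₁ M₂ Q kk τ s) := by
  obtain ⟨hn, -, -, hQ, hK, -⟩ := hpar
  unfold stepC stepR
  refine ((bitsC_sim M₁ M₂ _ m 2 rfl).frame [aR, aC] (by decide)).bind ?_
  rintro m1 x ⟨r1, f1⟩
  refine sim_asg_seq ?_
  generalize hm2 : Mem.set m1 aX0 0 _ = m2
  have f2 : Fr [aR, aC, aX0, aJ] m m2 := by
    rw [← hm2]; exact (f1.mono (by decide)).set_right (by decide) _ _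
  have x2 : m2 aX0 0 = x := by rw [← hm2]; simp [r1]
  clear hm2
  refine ((bitsC_sim M₁ M₂ _ m2 (Nat.size (n + 1)) (by simp [f2 aKAP (by decide), hK])).frame
    [aR, aC] (by decide)).bind ?_
  rintro m3 j ⟨r3, f3⟩
  refine sim_asg_seq ?_
  generalize hm4 : Mem.set m3 aJ 0 _ = m4
  have f4 : Fr [aR, aC, aX0, aJ] m m4 := by
    rw [← hm4]; exact (f2.trans (f3.mono (by decide))).set_right (by decide) _ _
  have x4 : m4 aX0 0 = x := by rw [← hm4]; simp [f3 aX0 (by decide), x2]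
  have j4 : m4 aJ 0 = j := by rw [← hm4]; simp [r3]
  clear hm4
  have n4 : m4 aN 0 = n := by rw [f4 aN (by decide), hn]
  have hs4 : RepSt m4 s := hs.frame f4 (by decide) (by decide)
  by_cases h : x < 3 ∧ j < n + 1
  · rw [dif_pos h]
    refine sim_ifz_zero (by simp only [eval_add, eval_sub, eval_div, eval_var, eval_const, x4, j4, n4]; omega) ?_
    refine moveC_sim M₁ M₂ h₂ Q m4 n4 (by rw [f4 aQ (by decide), hQ]) kk τ ?_ ?_ s hs4 _ _ x4 j4
    · intro c; rw [f4 aKK (by decide)]; exact hk c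
    · intro c; rw [f4 aTAU (by decide), f4 aPTR (by decide)]; exact hτ c
  · rw [dif_neg h]
    exact sim_ifz_ne (by simp only [eval_add, eval_sub, eval_div, eval_var, eval_const, x4, j4, n4]; omega)
      (skip_sim M₁ M₂ hs4)

end Vale.Agent.P317
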