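import Vale.Agent.P317.Counts
import Vale.Agent.P317.Lev

/-! The stage invariant: deterministic part. -/

namespace Vale.Agent.P317

open Finset

variable {n : ℕ}

/-- Invariant after `t` stages. -/
def Good (M₁ M₂ : Matroid (Fin n)) (P Q t : ℕ) (A : Acc n) : Prop :=
  (∀ t', t' ≤ t → t' < n * P → Bal M₁ M₂ (lev n P (t' + 1)) (A.1 t')) ∧
  (∀ t', t' ≤ t → ∀ c, A.1 t' c ≤ t' * Nat.size Q) ∧
  0 < A.2.2 ∧
  (1 - 1 / (P : ℝ) ^ 4) ^ t * clsN M₁ M₂ (lev n P t) (Fin.last n) * A.2.2 ≤ A.2.1 ∧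
  (A.2.1 : ℝ) ≤ (1 + 1 / (P : ℝ) ^ 4) ^ t * clsN M₁ M₂ (lev n P t) (Fin.last n) * A.2.2

theorem sOf_pos (τ : Fin (n + 1) → ℕ) (j : Fin (n + 1)) : 0 < sOf τ j := by
  unfold sOf; positivity

theorem clsN_pos (M₁ M₂ : Matroid (Fin n)) (kk : Fin (n + 1) → ℕ) (j : Fin (n + 1)) :
    0 < clsN M₁ M₂ kk j := lt_of_lt_of_le one_pos (one_le_clsN M₁ M₂ kk j)

theorem Zs_sOf_pos (M₁ M₂ : Matroid (Fin n)) (kk τ : Fin (n + 1) → ℕ) :
    0 < Zs M₁ M₂ kk (sOf τ) := by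
  rw [Zs_eq]
  exact Finset.sum_pos (fun j _ => mul_pos (sOf_pos τ j) (clsN_pos M₁ M₂ kk j)) univ_nonempty

theorem clsN_lev_succ (M₁ M₂ : Matroid (Fin n)) (P t : ℕ) (hP : 0 < P) (ht : t < n * P)
    (j : Fin (n + 1)) :
    clsN M₁ M₂ (lev n P t) j ≤ clsN M₁ M₂ (lev n P (t + 1)) j ∧
      clsN M₁ M₂ (lev n P (t + 1)) j ≤ 5 * clsN M₁ M₂ (lev n P t) j := by
  rw [lev_succ n P t hP ht]
  exact clsN_raise M₁ M₂ _ _ j

theorem mean_mul_Zs (M₁ M₂ : Matroid (Fin n)) (kk τ : Fin (n + 1) → ℕ) (f : St n → ℝ) :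
    mean M₁ M₂ kk (sOf τ) f * Zs M₁ M₂ kk (sOf τ)
      = ∑ j, sOf τ j * clsSum (cwt M₁ M₂ kk) j fun U => f (j, U) := by
  rw [← sum_wt_mul, mean, Finset.sum_mul]
  refine Finset.sum_congr rfl fun x _ => ?_
  have := (Zs_sOf_pos M₁ M₂ kk τ).ne'
  unfold pr
  field_simp

theorem mean_cls_mul (M₁ M₂ : Matroid (Fin n)) (kk τ : Fin (n + 1) → ℕ) (c : Fin (n + 1))
    (g : (Fin (n + 1) → Fin 3) → ℝ) :
    mean M₁ M₂ kk (sOf τ) (fun x => if x.1 = c then g x.2 else 0) * Zs M₁ M₂ kk (sOf τ)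
      = sOf τ c * clsSum (cwt M₁ M₂ kk) c g := by
  rw [mean_mul_Zs, Finset.sum_eq_single c]
  · simp
  · intro j _ hj
    simp [hj, clsSum]
  · simp

theorem good_zero (M₁ M₂ : Matroid (Fin n)) (P Q : ℕ) (hP : 0 < P) :
    Good M₁ M₂ P Q 0 (fun _ _ => 0, 1, 1) := by
  refine ⟨fun t' h1 h2 j => ?_, fun t' _ c => Nat.zero_le _, one_pos, ?_, ?_⟩
  · obtain rfl : t' = 0 := by omega
    have hs : ∀ c : Fin (n + 1), sOf (n := n) (fun _ => 0) c = 1 := fun c => by simp [sOf]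
    have h5 : ∀ c, clsN M₁ M₂ (lev n P (0 + 1)) c ≤ 5 := fun c => by
      have := (clsN_lev_succ M₁ M₂ P 0 hP h2 c).2
      rw [lev_zero, clsN_zero] at this
      linarith
    have h6 := one_le_clsN M₁ M₂ (lev n P (0 + 1)) j
    rw [Zs_eq]
    simp only [hs, one_mul]
    have h7 : ∑ c, clsN M₁ M₂ (lev n P (0 + 1)) c ≤ ∑ _c : Fin (n + 1), (5 : ℝ) :=
      Finset.sum_le_sum fun c _ => h5 c
    simp only [sum_const, card_univ, Fintype.card_fin, nsmul_eq_mul] at h7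
    push_cast at h7
    have hn : (0 : ℝ) ≤ n := Nat.cast_nonneg n
    nlinarith
  · simp [lev_zero, clsN_zero]
  · simp [lev_zero, clsN_zero]

theorem ratio_aux (p y η ζ Q B D : ℝ) (hQ : 0 < Q) (hy : 0 < y) (hyp : y ≤ p) (hη : 0 ≤ η)
    (h3 : 3 * η ≤ ζ * y) (hζ : ζ ≤ 1) (hB : |B - Q * p| ≤ Q * η) (hD : |D - Q * y| ≤ Q * η) :
    0 < D ∧ (1 - ζ) * p * D ≤ B * y ∧ B * y ≤ (1 + ζ) * p * D := by
  obtain ⟨hB1, hB2⟩ := abs_le.1 hB
  obtain ⟨hD1, hD2⟩ := abs_le.1 hD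
  have hp : 0 < p := lt_of_lt_of_le hy hyp
  have hζ0 : 0 ≤ ζ := by
    by_contra h
    have : ζ * y < 0 := mul_neg_of_neg_of_pos (not_le.1 h) hy
    linarith
  have hηy : 3 * η ≤ y := by nlinarith
  have e1 : Q * (y - η) ≤ D := by linarith
  have e2 : D ≤ Q * (y + η) := by linarith
  have e3 : Q * (p - η) ≤ B := by linarith
  have e4 : B ≤ Q * (p + η) := by linarith
  have k1 : 3 * η * p ≤ ζ * y * p := mul_le_mul_of_nonneg_right h3 hp.le
  have k2 : η * y ≤ η * p := mul_le_mul_of_nonneg_left hyp hη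
  have k3 : ζ * (η * p) ≤ η * p := by
    have := mul_le_mul_of_nonneg_right hζ (mul_nonneg hη hp.le); linarith
  have k4 : 0 ≤ ζ * (η * p) := mul_nonneg hζ0 (mul_nonneg hη hp.le)
  have k5 : 0 ≤ η * p := mul_nonneg hη hp.le
  refine ⟨lt_of_lt_of_le (mul_pos hQ (by linarith)) e1, ?_, ?_⟩
  · calc (1 - ζ) * p * D ≤ (1 - ζ) * p * (Q * (y + η)) :=
          mul_le_mul_of_nonneg_left e2 (mul_nonneg (by linarith) hp.le)
      _ = Q * ((1 - ζ) * p * (y + η)) := by ring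
      _ ≤ Q * ((p - η) * y) := mul_le_mul_of_nonneg_left (by nlinarith) hQ.le
      _ = Q * (p - η) * y := by ring
      _ ≤ B * y := mul_le_mul_of_nonneg_right e3 hy.le
  · calc B * y ≤ Q * (p + η) * y := mul_le_mul_of_nonneg_right e4 hy.le
      _ = Q * ((p + η) * y) := by ring
      _ ≤ Q * ((1 + ζ) * p * (y - η)) := mul_le_mul_of_nonneg_left (by nlinarith) hQ.le
      _ = (1 + ζ) * p * (Q * (y - η)) := by ring
      _ ≤ (1 + ζ) * p * D := mul_le_mul_of_nonneg_left e1 (mul_nonneg (by linarith) hp.le)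

theorem size_aux (B : ℕ) (hB : 0 < B) : (B : ℝ) ≤ 2 ^ Nat.size B ∧ (2 : ℝ) ^ Nat.size B ≤ 2 * B := by
  refine ⟨by exact_mod_cast (Nat.lt_size_self B).le, ?_⟩
  have h1 : 0 < Nat.size B := Nat.size_pos.2 hB
  have h2 : 2 ^ (Nat.size B - 1) ≤ B := Nat.lt_size.1 (by omega)
  have h3 : 2 ^ Nat.size B = 2 * 2 ^ (Nat.size B - 1) := by
    rw [← pow_succ']; congr 1; omega
  have h4 : 2 ^ Nat.size B ≤ 2 * B := by omega
  exact_mod_cast h4

theorem relearn_aux (p Z w η Q : ℝ) (B : ℕ) (hQ : 0 < Q) (hZ : 0 < Z) (hp : 0 < p)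
    (hw : p * Z = w) (hη : 2 * η ≤ p) (hB : |(B : ℝ) - Q * p| ≤ Q * η) :
    Z ≤ 3 * Q * (w * (1 / 2) ^ Nat.size B) ∧ Q * (w * (1 / 2) ^ Nat.size B) ≤ 2 * Z := by
  obtain ⟨hB1, hB2⟩ := abs_le.1 hB
  have e1 : Q * p ≤ 2 * B := by nlinarith
  have e2 : 2 * (B : ℝ) ≤ 3 * (Q * p) := by nlinarith
  have hB0 : 0 < B := by
    have : (0 : ℝ) < B := by have := mul_pos hQ hp; linarith
    exact_mod_cast this
  obtain ⟨s1, s2⟩ := size_aux B hB0
  have hpos : (0 : ℝ) < 2 ^ Nat.size B := by positivity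
  rw [one_div, inv_pow, ← hw]
  generalize (2 : ℝ) ^ Nat.size B = S at s1 s2 hpos
  constructor
  · rw [← div_eq_mul_inv, mul_div_assoc', le_div_iff₀ hpos]
    nlinarith
  · rw [← div_eq_mul_inv, mul_div_assoc', div_le_iff₀ hpos]
    nlinarith

set_option maxHeartbeats 800000 in
/-- Deterministic part of a stage: accurate tallies keep the invariant. Here `y` is the
accumulated statistic with `a.2.2 = 2 * y * den`. -/
theorem good_step (M₁ M₂ : Matroid (Fin n)) (P Q t : ℕ) (hP : 2 * n + 16 ≤ P) (hQ0 : 0 < Q)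
    (ht : t < n * P) (A : Acc n) (hA : Good M₁ M₂ P Q t A) (a : Tally n)
    (hle : ∀ c, a.1 c ≤ Q) (hnum : a.2.1 = 2 * a.1 (Fin.last n) * A.2.1)
    (hcnt : ∀ c, |(a.1 c : ℝ) - Q * mean M₁ M₂ (lev n P (t + 1)) (sOf (A.1 t))
        (fun x => if x.1 = c then 1 else 0)| ≤ Q / (P : ℝ) ^ 7)
    (hden : |(a.2.2 : ℝ) / (2 * A.2.2) - Q * mean M₁ M₂ (lev n P (t + 1)) (sOf (A.1 t))
        (fun x => if x.1 = Fin.last n then
          (if x.2 (slotAt n P t) = 0 then 1 else if t % P = 0 then 0 else 1 / 2) else 0)|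
        ≤ Q / (P : ℝ) ^ 7) :
    Good M₁ M₂ P Q (t + 1)
      (Function.update A.1 (t + 1) (fun c => A.1 t c + Nat.size (a.1 c)), a.2.1, a.2.2) := by
  obtain ⟨hA1, hA2, hA3, hA4, hA5⟩ := hA
  have hP0 : 0 < P := by omega
  have hPr : (16 : ℝ) ≤ P := by exact_mod_cast (by omega : 16 ≤ P)
  have hnP : 2 * ((n : ℝ) + 1) ≤ P := by exact_mod_cast (by omega : 2 * (n + 1) ≤ P)
  have hQr : (0 : ℝ) < Q := by exact_mod_cast hQ0
  have hbal := hA1 t le_rfl ht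
  set kk := lev n P (t + 1) with hkk
  set τ := A.1 t with hτ
  have hZ := Zs_sOf_pos M₁ M₂ kk τ
  set Z := Zs M₁ M₂ kk (sOf τ) with hZdef
  -- class probabilities
  have hp : ∀ c, mean M₁ M₂ kk (sOf τ) (fun x => if x.1 = c then 1 else 0) * Z
      = sOf τ c * clsN M₁ M₂ kk c := fun c => mean_cls_mul M₁ M₂ kk τ c fun _ => 1
  have hp1 : ∀ c, 1 ≤ 15 * P * mean M₁ M₂ kk (sOf τ) (fun x => if x.1 = c then 1 else 0) := by
    intro c
    have h1 := hbal c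
    rw [← hp c] at h1
    have h2 := mul_pos (sOf_pos τ c) (clsN_pos M₁ M₂ kk c)
    rw [← hp c] at h2
    have h3 : Z * 1 ≤ Z * (15 * P * mean M₁ M₂ kk (sOf τ) (fun x => if x.1 = c then 1 else 0)) := by
      nlinarith
    exact le_of_mul_le_mul_left h3 hZ
  have hη0 : (0 : ℝ) ≤ 1 / (P : ℝ) ^ 7 := by positivity
  have hP2 : (256 : ℝ) ≤ (P : ℝ) ^ 2 := by nlinarith
  have hP4 : (1 : ℝ) ≤ (P : ℝ) ^ 4 := one_le_pow₀ (by linarith)
  have hη1 : 225 * (P : ℝ) * (1 / (P : ℝ) ^ 7) ≤ 1 / (P : ℝ) ^ 4 := by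
    rw [mul_one_div, div_le_div_iff₀ (by positivity) (by positivity)]
    have : (0 : ℝ) ≤ (P : ℝ) ^ 5 := by positivity
    calc 225 * (P : ℝ) * (P : ℝ) ^ 4 = 225 * (P : ℝ) ^ 5 := by ring
      _ ≤ (P : ℝ) ^ 2 * (P : ℝ) ^ 5 := mul_le_mul_of_nonneg_right (by linarith) this
      _ = 1 * (P : ℝ) ^ 7 := by ring
  have hζ1 : 1 / (P : ℝ) ^ 4 ≤ 1 := by rw [div_le_one (by positivity)]; exact hP4
  have hζ0 : 0 ≤ 1 / (P : ℝ) ^ 4 := by positivity
  rw [div_eq_mul_one_div (Q : ℝ)] at hden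
  simp only [div_eq_mul_one_div (Q : ℝ)] at hcnt
  generalize 1 / (P : ℝ) ^ 7 = η at hη0 hη1 hden hcnt
  generalize hζdef : 1 / (P : ℝ) ^ 4 = ζ at hη1 hζ1 hζ0 hA4 hA5
  have hpos : ∀ c, 0 < mean M₁ M₂ kk (sOf τ) (fun x => if x.1 = c then 1 else 0) := by
    intro c
    by_contra h
    have := hp1 c
    nlinarith
  have hrel : ∀ c, Z ≤ 3 * Q * (sOf τ c * clsN M₁ M₂ kk c * (1 / 2) ^ Nat.size (a.1 c)) ∧
      Q * (sOf τ c * clsN M₁ M₂ kk c * (1 / 2) ^ Nat.size (a.1 c)) ≤ 2 * Z := by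
    intro c
    refine relearn_aux _ Z _ η Q (a.1 c) hQr hZ (hpos c) (hp c) ?_ (hcnt c)
    have h1 := hp1 c
    have h2 := hpos c
    have h3 : (P : ℝ) * (2 * η) ≤ P * mean M₁ M₂ kk (sOf τ) (fun x => if x.1 = c then 1 else 0) := by
      nlinarith
    exact le_of_mul_le_mul_left h3 (by linarith)
  -- the ratio statistic
  have hy : mean M₁ M₂ kk (sOf τ) (fun x => if x.1 = Fin.last n then
      (if x.2 (slotAt n P t) = 0 then 1 else if t % P = 0 then 0 else 1 / 2) else 0) * Z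
      = sOf τ (Fin.last n) * clsN M₁ M₂ (lev n P t) (Fin.last n) := by
    rw [mean_cls_mul M₁ M₂ kk τ (Fin.last n)
      fun U => if U (slotAt n P t) = 0 then 1 else if t % P = 0 then 0 else 1 / 2]
    congr 1
    unfold clsN clsSum
    refine Finset.sum_congr rfl fun U _ => ?_
    by_cases hU : U (Fin.last n) = 0
    · rw [if_pos hU, if_pos hU, mul_one,
        cwt_raise M₁ M₂ (lev n P t) (slotAt n P t) (Fin.last n) U hU, ← lev_succ n P t hP0 ht,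
        lev_slotAt n P t hP0 ht]
    · rw [if_neg hU, if_neg hU]
  obtain ⟨hN1, hN2⟩ := clsN_lev_succ M₁ M₂ P t hP0 ht (Fin.last n)
  have hNo := clsN_pos M₁ M₂ (lev n P t) (Fin.last n)
  have hsl := sOf_pos τ (Fin.last n)
  have hpl := hp (Fin.last n)
  have hpl1 := hp1 (Fin.last n)
  have hBl := hcnt (Fin.last n)
  rw [← hkk] at hN1 hN2
  generalize mean M₁ M₂ kk (sOf τ) (fun x => if x.1 = Fin.last n then
      (if x.2 (slotAt n P t) = 0 then 1 else if t % P = 0 then 0 else 1 / 2) else 0) = y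
      at hy hden
  generalize mean M₁ M₂ kk (sOf τ) (fun x => if x.1 = Fin.last n then 1 else 0) = p
      at hpl hpl1 hBl
  have hy0 : 0 < y := by
    by_contra h
    have := mul_pos hsl hNo
    nlinarith
  have hyp : y ≤ p := by
    have : y * Z ≤ p * Z := by rw [hy, hpl]; exact mul_le_mul_of_nonneg_left hN1 hsl.le
    exact le_of_mul_le_mul_right this hZ
  have hpy : p ≤ 5 * y := by
    have : p * Z ≤ 5 * y * Z := by
      rw [mul_assoc, hy, hpl]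
      have := mul_le_mul_of_nonneg_left hN2 hsl.le
      linarith
    exact le_of_mul_le_mul_right this hZ
  have h3η : 3 * η ≤ ζ * y := by
    have h1 : 1 ≤ 75 * P * y := by nlinarith
    calc 3 * η ≤ 3 * η * (75 * P * y) := le_mul_of_one_le_right (by linarith) h1
      _ = 225 * P * η * y := by ring
      _ ≤ ζ * y := mul_le_mul_of_nonneg_right hη1 hy0.le
  obtain ⟨r1, r2, r3⟩ := ratio_aux p y η ζ Q _ _ hQr hy0 hyp hη0 h3η hζ1 hBl hden
  have hden0 : (0 : ℝ) < A.2.2 := by exact_mod_cast hA3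
  have hD : (a.2.2 : ℝ) = 2 * A.2.2 * ((a.2.2 : ℝ) / (2 * A.2.2)) := by field_simp
  generalize (a.2.2 : ℝ) / (2 * A.2.2) = D at r1 r2 r3 hD
  have hnumr : (a.2.1 : ℝ) = 2 * a.1 (Fin.last n) * A.2.1 := by exact_mod_cast hnum
  have hB0 : (0 : ℝ) ≤ a.1 (Fin.last n) := Nat.cast_nonneg _
  have q2 : (1 - ζ) * clsN M₁ M₂ kk (Fin.last n) * D
      ≤ a.1 (Fin.last n) * clsN M₁ M₂ (lev n P t) (Fin.last n) := by
    have h1 := mul_le_mul_of_nonneg_right r2 hZ.le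
    have h2 : sOf τ (Fin.last n) * ((1 - ζ) * clsN M₁ M₂ kk (Fin.last n) * D)
        ≤ sOf τ (Fin.last n) * (a.1 (Fin.last n) * clsN M₁ M₂ (lev n P t) (Fin.last n)) := by
      calc _ = (1 - ζ) * (sOf τ (Fin.last n) * clsN M₁ M₂ kk (Fin.last n)) * D := by ring
        _ = (1 - ζ) * p * D * Z := by rw [← hpl]; ring
        _ ≤ a.1 (Fin.last n) * y * Z := h1
        _ = a.1 (Fin.last n) * (y * Z) := by ring
        _ = _ := by rw [hy]; ring
    exact le_of_mul_le_mul_left h2 hsl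
  have q3 : a.1 (Fin.last n) * clsN M₁ M₂ (lev n P t) (Fin.last n)
      ≤ (1 + ζ) * clsN M₁ M₂ kk (Fin.last n) * D := by
    have h1 := mul_le_mul_of_nonneg_right r3 hZ.le
    have h2 : sOf τ (Fin.last n) * (a.1 (Fin.last n) * clsN M₁ M₂ (lev n P t) (Fin.last n))
        ≤ sOf τ (Fin.last n) * ((1 + ζ) * clsN M₁ M₂ kk (Fin.last n) * D) := by
      calc _ = a.1 (Fin.last n) * (sOf τ (Fin.last n) * clsN M₁ M₂ (lev n P t) (Fin.last n)) := by
            ring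
        _ = a.1 (Fin.last n) * y * Z := by rw [← hy]; ring
        _ ≤ (1 + ζ) * p * D * Z := h1
        _ = (1 + ζ) * (p * Z) * D := by ring
        _ = _ := by rw [hpl]; ring
    exact le_of_mul_le_mul_left h2 hsl
  refine ⟨fun t' h1 h2 => ?_, fun t' h1 c => ?_, ?_, ?_, ?_⟩
  · rcases Nat.lt_or_ge t' (t + 1) with h | h
    · simp only [Function.update_of_ne h.ne]
      exact hA1 t' (by omega) h2
    · obtain rfl : t' = t + 1 := by omega
      simp only [Function.update_self]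
      intro j
      have hs : ∀ c, sOf (fun c => τ c + Nat.size (a.1 c)) c
          = sOf τ c * (1 / 2) ^ Nat.size (a.1 c) := fun c => by simp only [sOf, pow_add]
      have hup : ∀ c, Q * (sOf (fun c => τ c + Nat.size (a.1 c)) c
          * clsN M₁ M₂ (lev n P (t + 1 + 1)) c) ≤ 10 * Z := by
        intro c
        have h3 := (clsN_lev_succ M₁ M₂ P (t + 1) hP0 h2 c).2
        have h4 := (hrel c).2
        rw [← hkk] at h3
        have h5 := mul_le_mul_of_nonneg_left h3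
          (mul_pos hQr (sOf_pos (fun c => τ c + Nat.size (a.1 c)) c)).le
        rw [hs] at h5 ⊢
        linarith
      have hlo : Z ≤ 3 * Q * (sOf (fun c => τ c + Nat.size (a.1 c)) j
          * clsN M₁ M₂ (lev n P (t + 1 + 1)) j) := by
        have h3 := (clsN_lev_succ M₁ M₂ P (t + 1) hP0 h2 j).1
        have h4 := (hrel j).1
        rw [← hkk] at h3
        have h5 := mul_le_mul_of_nonneg_left h3
          (mul_pos hQr (sOf_pos (fun c => τ c + Nat.size (a.1 c)) j)).le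
        rw [hs] at h5 ⊢
        linarith
      have hsum : Q * Zs M₁ M₂ (lev n P (t + 1 + 1)) (sOf fun c => τ c + Nat.size (a.1 c))
          ≤ ((n : ℝ) + 1) * (10 * Z) := by
        rw [Zs_eq, Finset.mul_sum]
        refine (Finset.sum_le_sum fun c _ => hup c).trans (le_of_eq ?_)
        simp only [sum_const, card_univ, Fintype.card_fin, nsmul_eq_mul]
        push_cast; ring
      have hn : (0 : ℝ) ≤ (n : ℝ) + 1 := by positivity
      have h6 := mul_le_mul_of_nonneg_left hlo hn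
      refine le_of_mul_le_mul_left ?_ hQr
      linarith
  · rcases Nat.lt_or_ge t' (t + 1) with h | h
    · simp only [Function.update_of_ne h.ne]
      exact hA2 t' (by omega) c
    · obtain rfl : t' = t + 1 := by omega
      simp only [Function.update_self]
      have h3 := hA2 t le_rfl c
      have h4 := Nat.size_le_size (hle c)
      rw [Nat.add_mul]
      rw [← hτ] at h3
      omega
  · have : (0 : ℝ) < a.2.2 := by rw [hD]; positivity
    exact_mod_cast this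
  · simp only
    rw [hnumr, hD, ← hkk, hζdef]
    have h1 : 0 ≤ (1 - ζ) ^ t := pow_nonneg (by linarith) t
    calc (1 - ζ) ^ (t + 1) * clsN M₁ M₂ kk (Fin.last n) * (2 * A.2.2 * D)
        = 2 * ((1 - ζ) ^ t * A.2.2) * ((1 - ζ) * clsN M₁ M₂ kk (Fin.last n) * D) := by ring
      _ ≤ 2 * ((1 - ζ) ^ t * A.2.2) * (a.1 (Fin.last n) * clsN M₁ M₂ (lev n P t) (Fin.last n)) :=
          mul_le_mul_of_nonneg_left q2 (by positivity)
      _ = 2 * a.1 (Fin.last n) * ((1 - ζ) ^ t * clsN M₁ M₂ (lev n P t) (Fin.last n) * A.2.2) := by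
          ring
      _ ≤ _ := mul_le_mul_of_nonneg_left hA4 (by positivity)
  · simp only
    rw [hnumr, hD, ← hkk, hζdef]
    have h1 : 0 ≤ (1 + ζ) ^ t := pow_nonneg (by linarith) t
    calc 2 * a.1 (Fin.last n) * (A.2.1 : ℝ)
        ≤ 2 * a.1 (Fin.last n) * ((1 + ζ) ^ t * clsN M₁ M₂ (lev n P t) (Fin.last n) * A.2.2) :=
          mul_le_mul_of_nonneg_left hA5 (by positivity)
      _ = 2 * ((1 + ζ) ^ t * A.2.2) * (a.1 (Fin.last n) * clsN M₁ M₂ (lev n P t) (Fin.last n)) := by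
          ring
      _ ≤ 2 * ((1 + ζ) ^ t * A.2.2) * ((1 + ζ) * clsN M₁ M₂ kk (Fin.last n) * D) :=
          mul_le_mul_of_nonneg_left q3 (by positivity)
      _ = _ := by ring

theorem round_aux (N o : ℕ) (x ε : ℝ) (hε0 : 0 < ε) (hε1 : ε < 1) (h1 : (o : ℝ) ≤ x + 1 / 2)
    (h2 : x + 1 / 2 < o + 1) (h3 : (1 - ε / 16) * N ≤ x) (h4 : x ≤ (1 + ε / 16) * (N + ε / 16)) :
    (1 - ε) * (N : ℝ) ≤ o ∧ (o : ℝ) ≤ (1 + ε) * N := by
  have hN : (0 : ℝ) ≤ N := Nat.cast_nonneg N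
  have hεN : 0 ≤ ε * N := mul_nonneg hε0.le hN
  have h5 : x ≤ N + (ε * N / 16 + 17 / 256) := by nlinarith
  by_cases h : ε * N / 16 + 17 / 256 < 1 / 2
  · have e1 : (o : ℝ) < N + 1 := by linarith
    have e2 : (N : ℝ) < o + 1 := by linarith
    have e3 : o < N + 1 := by exact_mod_cast e1
    have e4 : N < o + 1 := by exact_mod_cast e2
    obtain rfl : o = N := by omega
    constructor <;> linarith
  · constructor <;> linarith

/-- Rounding at the end. -/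
theorem good_final (M₁ M₂ : Matroid (Fin n)) (h₁ : M₁.E = Set.univ) (h₂ : M₂.E = Set.univ)
    (hr : M₁.eRank = M₂.eRank) (P Q k : ℕ) (hP : 2 * n + k + 16 ≤ P) (ε : ℝ) (hε1 : ε < 1)
    (hk : 1 ≤ ε * k) (A : Acc n) (hA : Good M₁ M₂ P Q (n * P) A) :
    (1 - ε) * (nCommon M₁ M₂ : ℝ)
        ≤ (((A.2.1 + A.2.1 + A.2.2 * 2 ^ (n * P))
          / (A.2.2 * 2 ^ (n * P) + A.2.2 * 2 ^ (n * P)) : ℕ) : ℝ) ∧
      (((A.2.1 + A.2.1 + A.2.2 * 2 ^ (n * P))
          / (A.2.2 * 2 ^ (n * P) + A.2.2 * 2 ^ (n * P)) : ℕ) : ℝ)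
        ≤ (1 + ε) * (nCommon M₁ M₂ : ℝ) := by
  obtain ⟨-, -, hA3, hA4, hA5⟩ := hA
  have hP0 : 0 < P := by omega
  obtain ⟨hc1, hc2⟩ := clsN_final M₁ M₂ h₁ h₂ hr P hP0
  have hk0 : (0 : ℝ) ≤ k := Nat.cast_nonneg k
  have hε0 : 0 < ε := by
    by_contra h
    nlinarith
  have hPr : (16 : ℝ) ≤ P := by exact_mod_cast (by omega : 16 ≤ P)
  have hkP : (k : ℝ) ≤ P := by exact_mod_cast (by omega : k ≤ P)
  have hnP : 2 * (n : ℝ) ≤ P := by exact_mod_cast (by omega : 2 * n ≤ P)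
  have hεP : 1 ≤ ε * P := hk.trans (mul_le_mul_of_nonneg_left hkP hε0.le)
  have hu : ((n * P : ℕ) : ℝ) * (1 / (P : ℝ) ^ 4) ≤ ε / 32 := by
    rw [mul_one_div, div_le_div_iff₀ (by positivity) (by norm_num)]
    push_cast
    have h1 : (0 : ℝ) < P := by linarith
    have h2 : (P : ℝ) * 16 ≤ P * P := mul_le_mul_of_nonneg_left hPr h1.le
    calc (n : ℝ) * P * 32 = (2 * n) * (P * 16) := by ring
      _ ≤ P * (P * P) := mul_le_mul hnP h2 (by positivity) h1.le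
      _ = 1 * (P : ℝ) ^ 3 := by ring
      _ ≤ (ε * P) * (P : ℝ) ^ 3 := mul_le_mul_of_nonneg_right hεP (by positivity)
      _ = ε * (P : ℝ) ^ 4 := by ring
  have hζ1 : 1 / (P : ℝ) ^ 4 ≤ 1 := by
    rw [div_le_one (by positivity)]; exact one_le_pow₀ (by linarith)
  have hζ0 : 0 ≤ 1 / (P : ℝ) ^ 4 := by positivity
  generalize 1 / (P : ℝ) ^ 4 = ζ at hu hζ1 hζ0 hA4 hA5
  have hlo : 1 - ε / 16 ≤ (1 - ζ) ^ (n * P) := by
    have := one_add_mul_le_pow (a := -ζ) (by linarith) (n * P)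
    rw [← sub_eq_add_neg] at this
    linarith
  have hhi : (1 + ζ) ^ (n * P) ≤ 1 + ε / 16 := by
    have h1 : (1 + ζ) ^ (n * P) ≤ Real.exp ζ ^ (n * P) :=
      pow_le_pow_left₀ (by linarith) (by linarith [Real.add_one_le_exp ζ]) _
    rw [← Real.exp_nat_mul] at h1
    have h2 : Real.exp (((n * P : ℕ) : ℝ) * ζ) ≤ Real.exp (ε / 32) := Real.exp_le_exp.2 hu
    have h3 := Real.abs_exp_sub_one_le (x := ε / 32) (by rw [abs_of_pos (by linarith)]; linarith)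
    rw [abs_of_pos (show 0 < ε / 32 by linarith)] at h3
    have := (abs_le.1 h3).2
    linarith
  have herr : (3 : ℝ) ^ n / 2 ^ P ≤ ε / 16 := by
    have h1 : 3 ^ n * (16 * k) ≤ 2 ^ P := by
      calc 3 ^ n * (16 * k) ≤ 4 ^ n * (2 ^ 16 * 2 ^ k) :=
            Nat.mul_le_mul (Nat.pow_le_pow_left (by norm_num) n)
              (Nat.mul_le_mul (by norm_num) Nat.lt_two_pow_self.le)
        _ = 2 ^ (2 * n + k + 16) := by rw [pow_add, pow_add, pow_mul]; ring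
        _ ≤ 2 ^ P := Nat.pow_le_pow_right (by norm_num) hP
    have h2 : (3 : ℝ) ^ n * (16 * k) ≤ 2 ^ P := by exact_mod_cast h1
    rw [div_le_div_iff₀ (by positivity) (by norm_num)]
    have h3 : (0 : ℝ) < 3 ^ n := by positivity
    calc (3 : ℝ) ^ n * 16 ≤ 3 ^ n * 16 * (ε * k) := le_mul_of_one_le_right (by positivity) hk
      _ = ε * (3 ^ n * (16 * k)) := by ring
      _ ≤ ε * 2 ^ P := mul_le_mul_of_nonneg_left h2 hε0.le
  have hden : (0 : ℝ) < A.2.2 := by exact_mod_cast hA3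
  have hW : 0 < A.2.2 * 2 ^ (n * P) := Nat.mul_pos hA3 (by positivity)
  have hWr : ((A.2.2 * 2 ^ (n * P) : ℕ) : ℝ) = A.2.2 * 2 ^ (n * P) := by push_cast; ring
  have hN : (0 : ℝ) ≤ nCommon M₁ M₂ := Nat.cast_nonneg _
  have hx1 : (1 - ε / 16) * nCommon M₁ M₂ * (A.2.2 * 2 ^ (n * P) : ℕ) ≤ (A.2.1 : ℝ) := by
    rw [hWr]
    calc _ = (1 - ε / 16) * (nCommon M₁ M₂ * 2 ^ (n * P)) * (A.2.2 : ℝ) := by ring
      _ ≤ (1 - ζ) ^ (n * P) * clsN M₁ M₂ (lev n P (n * P)) (Fin.last n) * A.2.2 :=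
          mul_le_mul_of_nonneg_right
            (mul_le_mul hlo hc1 (by positivity) (pow_nonneg (by linarith) _)) hden.le
      _ ≤ _ := hA4
  have hx2 : (A.2.1 : ℝ) ≤ (1 + ε / 16) * (nCommon M₁ M₂ + ε / 16) * (A.2.2 * 2 ^ (n * P) : ℕ) := by
    rw [hWr]
    have hc3 : clsN M₁ M₂ (lev n P (n * P)) (Fin.last n)
        ≤ (nCommon M₁ M₂ + ε / 16) * 2 ^ (n * P) :=
      hc2.trans (mul_le_mul_of_nonneg_right (by linarith) (by positivity))
    calc (A.2.1 : ℝ) ≤ _ := hA5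
      _ ≤ (1 + ε / 16) * ((nCommon M₁ M₂ + ε / 16) * 2 ^ (n * P)) * (A.2.2 : ℝ) :=
          mul_le_mul_of_nonneg_right
            (mul_le_mul hhi hc3 (clsN_pos _ _ _ _).le (by linarith)) hden.le
      _ = _ := by ring
  generalize A.2.2 * 2 ^ (n * P) = W at hW hx1 hx2
  generalize A.2.1 = X at hx1 hx2
  have hW' : (0 : ℝ) < W := by exact_mod_cast hW
  have d1 : (X + X + W) / (W + W) * (W + W) ≤ X + X + W := Nat.div_mul_le_self _ _
  have d2 : X + X + W < (W + W) * ((X + X + W) / (W + W) + 1) :=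
    Nat.lt_mul_div_succ _ (by omega)
  generalize (X + X + W) / (W + W) = o at d1 d2
  have d1' : (o : ℝ) * (W + W) ≤ X + X + W := by exact_mod_cast d1
  have d2' : (X : ℝ) + X + W < (W + W) * (o + 1) := by exact_mod_cast d2
  refine round_aux (nCommon M₁ M₂) o (X / W) ε hε0 hε1 ?_ ?_ ?_ ?_
  · rw [← sub_le_iff_le_add, le_div_iff₀ hW']; linarith
  · rw [← lt_sub_iff_add_lt, div_lt_iff₀ hW']; linarith
  · rw [le_div_iff₀ hW']; exact hx1
  · rw [div_le_iff₀ hW']; exact hx2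

end Vale.Agent.P317
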