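import Vale.Agent.P317.Limit
import Vale.Agent.P317.Markov

/-! The exchange chain: reversibility, laziness, comparison of Dirichlet forms. -/

namespace Vale.Agent.P317

open Finset

variable {n : ℕ}

theorem sum_range_double (m : ℕ) (f : ℕ → ℝ) :
    ∑ r ∈ range (2 * m), f r = ∑ r ∈ range m, (f (r + r) + f (r + r + 1)) := by
  induction m with
  | zero => simp
  | succ m ih =>
    rw [show 2 * (m + 1) = 2 * m + 1 + 1 by ring, sum_range_succ, sum_range_succ, ih,
      sum_range_succ, two_mul]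
    ring

theorem E_bits (k : ℕ) (f : ℕ → ℝ) : (bits k).E f = (∑ r ∈ range (2 ^ k), f r) / 2 ^ k := by
  induction k generalizing f with
  | zero => simp [bits, iter]
  | succ k ih =>
    have h : bits (k + 1) = (bits k).bind fun r => coinR.bind fun c => .ret (r + r + c) :=
      iter_succ' _ _ _
    rw [h, Rand.E_bind, ih, pow_succ' 2 k, sum_range_double]
    simp only [coinR, Rand.flip_bind, Rand.ret_bind, Rand.E_flip, Rand.E_ret, add_zero]
    rw [← Finset.sum_div, pow_succ]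
    field_simp

theorem E_heads (d : ℕ) (f : ℕ → ℝ) :
    (heads d).E f = (1 / 2) ^ d * f 1 + (1 - (1 / 2) ^ d) * f 0 := by
  induction d generalizing f with
  | zero => simp [heads, iter]
  | succ d ih =>
    have h : heads (d + 1)
        = (heads d).bind fun acc => coinR.bind fun c => .ret (if c = 0 then 0 else acc) :=
      iter_succ' _ _ _
    rw [h, Rand.E_bind, ih]
    simp only [coinR, Rand.flip_bind, Rand.ret_bind, Rand.E_flip, Rand.E_ret, if_true,
      one_ne_zero, if_false]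
    ring

/-- The clipping by `Q` in the Metropolis filter is never active. -/
def NoClip (Q : ℕ) (kk τ : Fin (n + 1) → ℕ) : Prop := ∀ j, τ j + kk j ≤ Q

open Classical in
/-- Acceptance probability of a proposal. -/
noncomputable def accp (M₁ M₂ : Matroid (Fin n)) (Q : ℕ) (kk τ : Fin (n + 1) → ℕ) (s : St n)
    (x : Fin 3) (j : Fin (n + 1)) : ℝ :=
  if j = s.1 ∨ (x ≠ 0 ∧ kk s.1 = 0) then 0
  else if feas M₁ M₂ (Function.update (Function.update s.2 s.1 x) j 0) then
    (1 / 2) ^ (min Q ((τ j + ex kk j (s.2 j)) - (τ s.1 + ex kk s.1 x)))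
  else 0

/-- Target of a proposal. -/
def tgt (s : St n) (x : Fin 3) (j : Fin (n + 1)) : St n :=
  (j, Function.update (Function.update s.2 s.1 x) j 0)

theorem accp_nonneg (M₁ M₂ : Matroid (Fin n)) (Q : ℕ) (kk τ : Fin (n + 1) → ℕ) (s : St n)
    (x : Fin 3) (j : Fin (n + 1)) : 0 ≤ accp M₁ M₂ Q kk τ s x j := by
  unfold accp
  split_ifs
  · exact le_rfl
  · positivity
  · exact le_rfl

theorem accp_le_one (M₁ M₂ : Matroid (Fin n)) (Q : ℕ) (kk τ : Fin (n + 1) → ℕ) (s : St n)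
    (x : Fin 3) (j : Fin (n + 1)) : accp M₁ M₂ Q kk τ s x j ≤ 1 := by
  unfold accp
  split_ifs
  · exact zero_le_one
  · exact pow_le_one₀ (by norm_num) (by norm_num)
  · exact zero_le_one

theorem E_moveR (M₁ M₂ : Matroid (Fin n)) (Q : ℕ) (kk τ : Fin (n + 1) → ℕ) (s : St n)
    (x : Fin 3) (j : Fin (n + 1)) (f : St n → ℝ) :
    (moveR M₁ M₂ Q kk τ s x j).E f = f s + accp M₁ M₂ Q kk τ s x j * (f (tgt s x j) - f s) := by
  unfold moveR accp tgt
  split_ifs
  · simp
  · rw [Rand.E_bind, E_heads]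
    simp only [Rand.E_ret, one_ne_zero, if_false, if_true]
    ring
  · simp

theorem sum_range_dite (a b : ℕ) (hab : a ≤ b) (F : Fin a → ℝ) :
    ∑ j ∈ range b, (if h : j < a then F ⟨j, h⟩ else 0) = ∑ j, F j := by
  rw [← Finset.sum_subset (range_subset_range.2 hab)
    (fun j _ hj => dif_neg (by simpa using hj)), Finset.sum_range]
  exact Finset.sum_congr rfl fun j _ => dif_pos j.2

theorem E_stepR (M₁ M₂ : Matroid (Fin n)) (Q : ℕ) (kk τ : Fin (n + 1) → ℕ) (s : St n)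
    (f : St n → ℝ) :
    (stepR M₁ M₂ Q kk τ s).E f = f s + 1 / (4 * 2 ^ Nat.size (n + 1)) *
      ∑ x, ∑ j, accp M₁ M₂ Q kk τ s x j * (f (tgt s x j) - f s) := by
  have hle : n + 1 ≤ 2 ^ Nat.size (n + 1) := (Nat.lt_size_self _).le
  unfold stepR
  rw [Rand.E_bind, E_bits]
  simp only [Rand.E_bind, E_bits]
  have h1 : ∀ x j : ℕ, (if h : x < 3 ∧ j < n + 1 then moveR M₁ M₂ Q kk τ s ⟨x, h.1⟩ ⟨j, h.2⟩
      else Rand.ret s).E f = f s + (if hx : x < 3 then (if hj : j < n + 1 then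
        accp M₁ M₂ Q kk τ s ⟨x, hx⟩ ⟨j, hj⟩ * (f (tgt s ⟨x, hx⟩ ⟨j, hj⟩) - f s) else 0) else 0) := by
    intro x j
    by_cases hx : x < 3
    · by_cases hj : j < n + 1
      · rw [dif_pos ⟨hx, hj⟩, dif_pos hx, dif_pos hj, E_moveR]
      · rw [dif_neg (fun h => hj h.2), dif_pos hx, dif_neg hj]; simp
    · rw [dif_neg (fun h => hx h.1), dif_neg hx]; simp
  have h2 : ∀ x : ℕ, (∑ j ∈ range (2 ^ Nat.size (n + 1)),
      (if h : x < 3 ∧ j < n + 1 then moveR M₁ M₂ Q kk τ s ⟨x, h.1⟩ ⟨j, h.2⟩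
      else Rand.ret s).E f) = 2 ^ Nat.size (n + 1) * f s + (if hx : x < 3 then
        ∑ j, accp M₁ M₂ Q kk τ s ⟨x, hx⟩ j * (f (tgt s ⟨x, hx⟩ j) - f s) else 0) := by
    intro x
    simp only [h1]
    rw [Finset.sum_add_distrib, Finset.sum_const, card_range, nsmul_eq_mul]
    push_cast
    congr 1
    by_cases hx : x < 3
    · simp only [dif_pos hx]
      exact sum_range_dite _ _ hle
        fun j => accp M₁ M₂ Q kk τ s ⟨x, hx⟩ j * (f (tgt s ⟨x, hx⟩ j) - f s)
    · simp [dif_neg hx]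
  simp only [h2]
  rw [← Finset.sum_div, Finset.sum_add_distrib, Finset.sum_const, card_range, nsmul_eq_mul,
    sum_range_dite 3 (2 ^ 2) (by norm_num)
      fun x => ∑ j, accp M₁ M₂ Q kk τ s x j * (f (tgt s x j) - f s)]
  push_cast
  field_simp
  ring

theorem step_lazy (M₁ M₂ : Matroid (Fin n)) (Q : ℕ) (kk τ : Fin (n + 1) → ℕ) :
    Lazy (stepR M₁ M₂ Q kk τ) := by
  intro s f hf
  rw [E_stepR]
  have hle : ((n + 1 : ℕ) : ℝ) ≤ 2 ^ Nat.size (n + 1) := by
    exact_mod_cast (Nat.lt_size_self (n + 1)).le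
  have h1 : ∑ _x : Fin 3, ∑ _j : Fin (n + 1), -f s
      ≤ ∑ x, ∑ j, accp M₁ M₂ Q kk τ s x j * (f (tgt s x j) - f s) := by
    refine Finset.sum_le_sum fun x _ => Finset.sum_le_sum fun j _ => ?_
    have a0 := accp_nonneg M₁ M₂ Q kk τ s x j
    have a1 := accp_le_one M₁ M₂ Q kk τ s x j
    have := hf s
    have := hf (tgt s x j)
    nlinarith
  simp only [Finset.sum_const, card_univ, Fintype.card_fin, nsmul_eq_mul] at h1
  have hp : (0 : ℝ) < 4 * 2 ^ Nat.size (n + 1) := by positivity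
  have h2 : -(3 / 4 * f s) ≤ 1 / (4 * 2 ^ Nat.size (n + 1)) *
      ∑ x, ∑ j, accp M₁ M₂ Q kk τ s x j * (f (tgt s x j) - f s) := by
    rw [one_div, ← div_eq_inv_mul, le_div_iff₀ hp]
    have := mul_le_mul_of_nonneg_left hle (hf s)
    push_cast at h1 this
    linarith
  linarith

theorem ew_nonneg' (kk : Fin (n + 1) → ℕ) (c : Fin (n + 1)) (x : Fin 3) : 0 ≤ ew kk c x := by
  unfold ew bw
  split_ifs <;> positivity

theorem ew_cases (kk : Fin (n + 1) → ℕ) (c : Fin (n + 1)) (x : Fin 3) :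
    ew kk c x = 0 ∨ ew kk c x = 2 ^ ex kk c x := by
  unfold ew bw ex
  split_ifs <;> simp

theorem min_pow_half (a b c d : ℕ) (R : ℝ) (hR : 0 ≤ R) :
    (1 / 2 : ℝ) ^ a * (2 ^ d * R) * (1 / 2) ^ ((c + d) - (a + b))
      = min ((1 / 2 : ℝ) ^ a * (2 ^ d * R)) ((1 / 2) ^ c * (2 ^ b * R)) := by
  rcases le_total (c + d) (a + b) with h | h
  · rw [Nat.sub_eq_zero_of_le h, pow_zero, mul_one, min_eq_left]
    have h1 : (2 : ℝ) ^ (c + d) ≤ 2 ^ (a + b) := pow_le_pow_right₀ (by norm_num) h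
    rw [pow_add, pow_add] at h1
    rw [← mul_assoc, ← mul_assoc]
    refine mul_le_mul_of_nonneg_right ?_ hR
    rw [one_div, inv_pow, inv_pow, ← div_eq_inv_mul, ← div_eq_inv_mul,
      div_le_div_iff₀ (by positivity) (by positivity)]
    linarith
  · obtain ⟨e, he⟩ := Nat.exists_eq_add_of_le h
    have h1 : (2 : ℝ) ^ c * 2 ^ d = 2 ^ a * 2 ^ b * 2 ^ e := by
      rw [← pow_add, he, pow_add, pow_add]
    have h2 : (1 / 2 : ℝ) ^ a * (2 ^ d * R) * (1 / 2) ^ e = (1 / 2) ^ c * (2 ^ b * R) := by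
      simp only [one_div, inv_pow]
      field_simp
      linear_combination R * h1
    rw [he, Nat.add_sub_cancel_left, ← h2, min_eq_right]
    exact mul_le_of_le_one_right (by positivity) (pow_le_one₀ (by norm_num) (by norm_num))

theorem wt_mul_accp (M₁ M₂ : Matroid (Fin n)) (Q : ℕ) (kk τ : Fin (n + 1) → ℕ)
    (hQ : NoClip Q kk τ) (h : Fin (n + 1)) (U : Fin (n + 1) → Fin 3) (hU : U h = 0)
    (x : Fin 3) (j : Fin (n + 1)) (hj : j ≠ h) :
    wt M₁ M₂ kk (sOf τ) (h, U) * accp M₁ M₂ Q kk τ (h, U) x j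
      = min (sOf τ h * cwt M₁ M₂ kk h (Function.update U h x))
          (sOf τ j * cwt M₁ M₂ kk j (Function.update U h x)) := by
  classical
  have hR : 0 ≤ ∏ c ∈ (univ.erase h).erase j, ew kk c (U c) :=
    Finset.prod_nonneg fun c _ => ew_nonneg' kk c _
  have p0 : ∏ c ∈ univ.erase h, ew kk c (U c)
      = ew kk j (U j) * ∏ c ∈ (univ.erase h).erase j, ew kk c (U c) :=
    (Finset.mul_prod_erase _ (fun c => ew kk c (U c)) (by simp [hj])).symm
  have p1 : ∏ c ∈ univ.erase h, ew kk c (Function.update U h x c)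
      = ew kk j (U j) * ∏ c ∈ (univ.erase h).erase j, ew kk c (U c) := by
    rw [← p0]
    exact Finset.prod_congr rfl fun c hc => by
      rw [Function.update_of_ne (Finset.ne_of_mem_erase hc)]
  have p2 : ∏ c ∈ univ.erase j, ew kk c (Function.update U h x c)
      = ew kk h x * ∏ c ∈ (univ.erase h).erase j, ew kk c (U c) := by
    rw [← Finset.mul_prod_erase _ (fun c => ew kk c (Function.update U h x c))
      (show h ∈ univ.erase j by simp [hj.symm]), Function.update_self, Finset.erase_right_comm]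
    congr 1
    exact Finset.prod_congr rfl fun c hc => by
      rw [Function.update_of_ne (Finset.ne_of_mem_erase (Finset.mem_of_mem_erase hc))]
  have hs : ∀ c, 0 < sOf τ c := fun c => by unfold sOf; positivity
  have e1 := ew_nonneg' kk j (U j)
  have e2 := ew_nonneg' kk h x
  have s1 := (hs h).le
  have s2 := (hs j).le
  unfold wt cwt accp
  simp only [hU, if_true, Function.update_idem, p0, p1, p2, hj, false_or]
  generalize (∏ c ∈ (univ.erase h).erase j, ew kk c (U c)) = R at hR ⊢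
  by_cases c1 : x ≠ 0 ∧ kk h = 0
  · have : ew kk h x = 0 := by simp [ew, bw, c1.1, c1.2]
    rw [if_pos c1, this, min_eq_right]
    · simp
    · simp only [zero_mul, mul_zero]
      split_ifs <;> positivity
  rw [if_neg c1]
  by_cases c2 : feas M₁ M₂ (Function.update (Function.update U h x) j 0)
  swap
  · rw [if_neg c2, if_neg c2, min_eq_right]
    · simp
    · simp only [mul_zero]
      split_ifs <;> positivity
  rw [if_pos c2, if_pos c2]
  by_cases c3 : feas M₁ M₂ (Function.update U h 0)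
  swap
  · rw [if_neg c3]
    simp only [mul_zero, zero_mul]
    exact (min_eq_left (by positivity)).symm
  rw [if_pos c3]
  have c4 : ew kk h x = 2 ^ ex kk h x := by
    unfold ew bw ex
    by_cases hx : x = 0
    · simp [hx]
    · have : kk h ≠ 0 := fun h0 => c1 ⟨hx, h0⟩
      simp [hx, this]
  rcases ew_cases kk j (U j) with c5 | c5
  · rw [c5]
    simp only [mul_zero, zero_mul]
    exact (min_eq_left (by positivity)).symm
  have hm : min Q (τ j + ex kk j (U j) - (τ h + ex kk h x))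
      = τ j + ex kk j (U j) - (τ h + ex kk h x) := by
    have := hQ j
    have : ex kk j (U j) ≤ kk j := by unfold ex; split_ifs <;> omega
    omega
  rw [hm, c4, c5, mul_one, mul_one]
  exact min_pow_half _ _ _ _ R hR

theorem sum_update_canon (h : Fin (n + 1)) (F : (Fin (n + 1) → Fin 3) → ℝ) :
    ∑ U : Fin (n + 1) → Fin 3, ∑ x : Fin 3, (if U h = 0 then F (Function.update U h x) else 0)
      = ∑ U, F U := by
  rw [← Fintype.sum_prod_type', ← Finset.sum_filter]
  refine Finset.sum_nbij' (fun p => Function.update p.1 h p.2)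
    (fun U => (Function.update U h 0, U h)) ?_ ?_ ?_ ?_ ?_
  · simp
  · simp
  · rintro ⟨U, x⟩ hp
    have hU : U h = 0 := by simpa using hp
    simp only [Function.update_idem, Function.update_self]
    rw [← hU, Function.update_eq_self]
  · intro U _
    simp
  · simp

theorem sum_wt_accp (M₁ M₂ : Matroid (Fin n)) (Q : ℕ) (kk τ : Fin (n + 1) → ℕ)
    (hQ : NoClip Q kk τ) (G : St n → St n → ℝ) (hG : ∀ s, G s s = 0) :
    ∑ s : St n, wt M₁ M₂ kk (sOf τ) s * ∑ x, ∑ j, accp M₁ M₂ Q kk τ s x j * G s (tgt s x j)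
      = ∑ U : Fin (n + 1) → Fin 3, ∑ h, ∑ j,
        min (sOf τ h * cwt M₁ M₂ kk h U) (sOf τ j * cwt M₁ M₂ kk j U) *
          G (h, Function.update U h 0) (j, Function.update U j 0) := by
  rw [Fintype.sum_prod_type, Finset.sum_comm (s := (univ : Finset (Fin (n + 1) → Fin 3)))]
  refine Finset.sum_congr rfl fun h _ => ?_
  rw [← sum_update_canon h fun U => ∑ j,
    min (sOf τ h * cwt M₁ M₂ kk h U) (sOf τ j * cwt M₁ M₂ kk j U) *
      G (h, Function.update U h 0) (j, Function.update U j 0)]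
  refine Finset.sum_congr rfl fun U _ => ?_
  rw [Finset.mul_sum]
  refine Finset.sum_congr rfl fun x _ => ?_
  by_cases hU : U h = 0
  · rw [if_pos hU, Finset.mul_sum]
    refine Finset.sum_congr rfl fun j _ => ?_
    have hU' : Function.update U h 0 = U := by rw [← hU, Function.update_eq_self]
    by_cases hj : j = h
    · subst hj
      simp [tgt, hU', hG]
    · rw [← mul_assoc, wt_mul_accp M₁ M₂ Q kk τ hQ h U hU x j hj]
      simp [tgt, hU']
  · simp [wt, hU]

theorem sum_pr_step (M₁ M₂ : Matroid (Fin n)) (Q : ℕ) (kk τ : Fin (n + 1) → ℕ)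
    (hQ : NoClip Q kk τ) (G : St n → St n → ℝ) (hG : ∀ s, G s s = 0) :
    ∑ s : St n, pr M₁ M₂ kk (sOf τ) s * (stepR M₁ M₂ Q kk τ s).E (G s)
      = 1 / (4 * 2 ^ Nat.size (n + 1)) * (∑ U : Fin (n + 1) → Fin 3, ∑ h, ∑ j,
        min (sOf τ h * cwt M₁ M₂ kk h U) (sOf τ j * cwt M₁ M₂ kk j U) *
          G (h, Function.update U h 0) (j, Function.update U j 0)) / Zs M₁ M₂ kk (sOf τ) := by
  rw [← sum_wt_accp M₁ M₂ Q kk τ hQ G hG, Finset.mul_sum, Finset.sum_div]
  refine Finset.sum_congr rfl fun s _ => ?_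
  rw [E_stepR, hG, pr]
  simp only [sub_zero]
  ring

theorem step_rev (M₁ M₂ : Matroid (Fin n)) (Q : ℕ) (kk τ : Fin (n + 1) → ℕ)
    (hQ : NoClip Q kk τ) : Rev (pr M₁ M₂ kk (sOf τ)) (stepR M₁ M₂ Q kk τ) := by
  intro f g
  have h1 := sum_pr_step M₁ M₂ Q kk τ hQ (fun s y => g s * f y - f s * g y) fun s => by ring
  have h2 : ∀ U : Fin (n + 1) → Fin 3, ∑ h, ∑ j,
      min (sOf τ h * cwt M₁ M₂ kk h U) (sOf τ j * cwt M₁ M₂ kk j U) *
        (g (h, Function.update U h 0) * f (j, Function.update U j 0)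
          - f (h, Function.update U h 0) * g (j, Function.update U j 0)) = 0 := by
    intro U
    simp only [mul_sub, Finset.sum_sub_distrib]
    rw [sub_eq_zero, Finset.sum_comm]
    exact Finset.sum_congr rfl fun h _ => Finset.sum_congr rfl fun j _ => by
      rw [min_comm]; ring
  simp only [h2, Finset.sum_const_zero, mul_zero, zero_div] at h1
  simp only [Rand.E_sub, Rand.E_const_mul, mul_sub, Finset.sum_sub_distrib] at h1
  linarith

theorem step_dir (M₁ M₂ : Matroid (Fin n)) (Q : ℕ) (kk τ : Fin (n + 1) → ℕ)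
    (hQ : NoClip Q kk τ) (f : St n → ℝ) :
    dirMin (cwt M₁ M₂ kk) (sOf τ) (fun j U => f (j, U)) / Zs M₁ M₂ kk (sOf τ)
      ≤ 8 * ((n : ℝ) + 1) * dir (pr M₁ M₂ kk (sOf τ)) (stepR M₁ M₂ Q kk τ) f := by
  have h1 := sum_pr_step M₁ M₂ Q kk τ hQ (fun s y => (f s - f y) ^ 2) fun s => by ring
  have hs : ∀ c, 0 ≤ sOf τ c := fun c => by unfold sOf; positivity
  have hZ : 0 ≤ Zs M₁ M₂ kk (sOf τ) := by
    rw [Zs_eq]
    exact Finset.sum_nonneg fun j _ =>
      mul_nonneg (hs j) (zero_le_one.trans (one_le_clsN M₁ M₂ kk j))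
  have hle : (2 : ℝ) ^ Nat.size (n + 1) ≤ 2 * ((n : ℝ) + 1) := by
    have h0 : Nat.size (n + 1) ≠ 0 := by simp [Nat.size_eq_zero]
    obtain ⟨k, hk⟩ := Nat.exists_eq_succ_of_ne_zero h0
    have h2 : 2 ^ k ≤ n + 1 := Nat.lt_size.1 (by omega)
    have h3 : (2 : ℝ) ^ k ≤ (n : ℝ) + 1 := by exact_mod_cast h2
    rw [hk, pow_succ]; linarith
  unfold dir dirMin
  rw [h1]
  have hS : 0 ≤ ∑ U : Fin (n + 1) → Fin 3, ∑ h, ∑ j,
      min (sOf τ h * cwt M₁ M₂ kk h U) (sOf τ j * cwt M₁ M₂ kk j U) *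
        (f (h, Function.update U h 0) - f (j, Function.update U j 0)) ^ 2 :=
    Finset.sum_nonneg fun U _ => Finset.sum_nonneg fun h _ => Finset.sum_nonneg fun j _ =>
      mul_nonneg (le_min (mul_nonneg (hs h) (cwt_nonneg _ _ _ _ _))
        (mul_nonneg (hs j) (cwt_nonneg _ _ _ _ _))) (sq_nonneg _)
  generalize (∑ U : Fin (n + 1) → Fin 3, ∑ h, ∑ j,
      min (sOf τ h * cwt M₁ M₂ kk h U) (sOf τ j * cwt M₁ M₂ kk j U) *
        (f (h, Function.update U h 0) - f (j, Function.update U j 0)) ^ 2) = S at hS ⊢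
  have hq : 0 ≤ S / Zs M₁ M₂ kk (sOf τ) := div_nonneg hS hZ
  have hp : (0 : ℝ) < 2 ^ Nat.size (n + 1) := by positivity
  have h4 : 1 ≤ 8 * ((n : ℝ) + 1) * (1 / (4 * 2 ^ Nat.size (n + 1))) := by
    rw [mul_one_div, le_div_iff₀ (by positivity)]; linarith
  have h5 := mul_le_mul_of_nonneg_right h4 hq
  calc 1 / 2 * S / Zs M₁ M₂ kk (sOf τ) = 1 / 2 * (1 * (S / Zs M₁ M₂ kk (sOf τ))) := by ring
    _ ≤ 1 / 2 * (8 * ((n : ℝ) + 1) * (1 / (4 * 2 ^ Nat.size (n + 1)))
        * (S / Zs M₁ M₂ kk (sOf τ))) := by linarith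
    _ = _ := by ring

end Vale.Agent.P317
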